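import Vale.Agent.P143.Prior

/-!
Decoding the spins from infinitely many weak observations.
-/

namespace Vale.Agent.P143

open MeasureTheory Set Filter Topology
open Vale.Agent.P161 (BM)

set_option linter.unusedSectionVars false

variable {ι Ω' Ω : Type*} [DecidableEq ι] [MeasurableSpace Ω] {P : Measure Ω}
  [IsProbabilityMeasure P]

/-- The data of limiting observations. -/
structure Obs (P : Measure Ω) (Λ : ℕ → Finset Ω') (sp : Ω' → ι → ℝ) (Y : ι × ℕ → Ω → ℝ) :
    Prop where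
  ne : ∀ n, (Λ n).Nonempty
  spin : ∀ n, Spin (Λ n) sp
  meas : ∀ e, Measurable (Y e)
  bdd : ∀ e ω, |Y e ω| ≤ 1
  mom : ∀ E : Finset (ι × ℕ), Tendsto (fun n => (1 / 30) ^ E.card
    * EL (Λ n) (fun T => ∏ e ∈ E, sp T e.1)) atTop (𝓝 (∫ ω, ∏ e ∈ E, Y e ω ∂P))

variable {Λ : ℕ → Finset Ω'} {sp : Ω' → ι → ℝ} {Y : ι × ℕ → Ω → ℝ}

lemma Obs.BM (hY : Obs P Λ sp Y) (e : ι × ℕ) : BM (Y e) := ⟨hY.meas e, 1, hY.bdd e⟩

lemma spin_mul_self {Λ : Finset Ω'} (h : Spin Λ sp) {T : Ω'} (hT : T ∈ Λ) (i : ι) :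
    sp T i * sp T i = 1 := by
  rcases h T hT i with h | h <;> rw [h] <;> norm_num

lemma Obs.cov (hY : Obs P Λ sp Y) (v : ι) {r s : ℕ} (hrs : r ≠ s) :
    ∫ ω, Y (v, r) ω * Y (v, s) ω ∂P = (1 / 30) ^ 2 := by
  have hne : ((v, r) : ι × ℕ) ∉ ({(v, s)} : Finset (ι × ℕ)) := by
    rw [Finset.mem_singleton, Prod.mk.injEq, not_and]
    exact fun _ => hrs
  have h := hY.mom (insert (v, r) {(v, s)})
  rw [Finset.card_insert_of_notMem hne, Finset.card_singleton] at h
  simp only [Finset.prod_insert hne, Finset.prod_singleton] at h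
  have h2 : ∀ n, EL (Λ n) (fun T => sp T v * sp T v) = 1 := by
    intro n
    rw [← EL_const (hY.ne n) 1]
    exact EL_congr fun T hT => spin_mul_self (hY.spin n) hT v
  simp only [h2, mul_one] at h
  have := tendsto_nhds_unique h tendsto_const_nhds
  rw [this]

lemma sum_BM {f : ℕ → Ω → ℝ} (hf : ∀ r, P161.BM (f r)) (a : ℕ → ℝ)
    (M : ℕ) : P161.BM (fun ω => ∑ r ∈ Finset.range M, a r * f r ω) := by
  induction M with
  | zero => simpa using P161.BM.const (Ω := Ω) 0
  | succ M ih =>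
    simp only [Finset.sum_range_succ]
    exact ih.add ((P161.BM.const _).mul (hf M))

/-- Second moment of linear combinations. -/
lemma Obs.second (hY : Obs P Λ sp Y) (v : ι) (a : ℕ → ℝ) (M : ℕ) :
    ∫ ω, (∑ r ∈ Finset.range M, a r * Y (v, r) ω) ^ 2 ∂P
      ≤ (1 / 30) ^ 2 * (∑ r ∈ Finset.range M, a r) ^ 2 + ∑ r ∈ Finset.range M, a r ^ 2 := by
  have hexp : ∀ ω, (∑ r ∈ Finset.range M, a r * Y (v, r) ω) ^ 2
      = ∑ r ∈ Finset.range M, ∑ s ∈ Finset.range M, a r * a s * (Y (v, r) ω * Y (v, s) ω) := by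
    intro ω
    rw [sq, Finset.sum_mul_sum]
    apply Finset.sum_congr rfl
    intro r _
    apply Finset.sum_congr rfl
    intro s _
    ring
  simp only [hexp]
  have hi : ∀ r s, Integrable (fun ω => a r * a s * (Y (v, r) ω * Y (v, s) ω)) P :=
    fun r s => (((hY.BM (v, r)).mul (hY.BM (v, s))).integrable _).const_mul _
  rw [integral_finsetSum _ fun r _ => integrable_finsetSum _ fun s _ => hi r s]
  have h1 : ∀ r ∈ Finset.range M, ∫ ω, ∑ s ∈ Finset.range M, a r * a s
      * (Y (v, r) ω * Y (v, s) ω) ∂P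
      ≤ (1 / 30) ^ 2 * (a r * ∑ s ∈ Finset.range M, a s) + a r ^ 2 := by
    intro r hr
    rw [integral_finsetSum _ fun s _ => hi r s]
    have h2 : ∀ s ∈ Finset.range M, ∫ ω, a r * a s * (Y (v, r) ω * Y (v, s) ω) ∂P
        ≤ (1 / 30) ^ 2 * (a r * a s) + if s = r then a r ^ 2 else 0 := by
      intro s _
      rw [integral_const_mul]
      by_cases hs : s = r
      · subst hs
        rw [if_pos rfl]
        have h3 : ∫ ω, Y (v, s) ω * Y (v, s) ω ∂P ≤ 1 := by
          calc ∫ ω, Y (v, s) ω * Y (v, s) ω ∂P ≤ ∫ _, 1 ∂P := by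
                apply integral_mono (((hY.BM (v, s)).mul (hY.BM (v, s))).integrable _)
                  (integrable_const _)
                intro ω
                beta_reduce
                have := hY.bdd (v, s) ω
                rw [← abs_mul_abs_self]
                nlinarith [abs_nonneg (Y (v, s) ω)]
            _ = 1 := by simp
        nlinarith [sq_nonneg (a s), mul_le_mul_of_nonneg_left h3 (sq_nonneg (a s))]
      · rw [if_neg hs, hY.cov v (Ne.symm hs)]
        apply le_of_eq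
        ring
    refine (Finset.sum_le_sum h2).trans (le_of_eq ?_)
    rw [Finset.sum_add_distrib, Finset.sum_ite_eq' (Finset.range M) r, if_pos hr,
      ← Finset.mul_sum, ← Finset.mul_sum]
  refine (Finset.sum_le_sum h1).trans (le_of_eq ?_)
  rw [Finset.sum_add_distrib, ← Finset.mul_sum, ← Finset.sum_mul, sq (∑ r ∈ Finset.range M, a r)]

/-- Averages. -/
noncomputable def avY (Y : ι × ℕ → Ω → ℝ) (v : ι) (n : ℕ) (ω : Ω) : ℝ :=
  (n : ℝ)⁻¹ * ∑ r ∈ Finset.range n, Y (v, r) ω

lemma avY_BM (hY : Obs P Λ sp Y) (v : ι) (n : ℕ) : P161.BM (avY Y v n) := by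
  have h := sum_BM (fun r => hY.BM (v, r)) (fun _ => 1) n
  simp only [one_mul] at h
  exact (P161.BM.const _).mul h

lemma avY_abs_le (hb : ∀ e ω, |Y e ω| ≤ 1) (v : ι) (n : ℕ) (ω : Ω) : |avY Y v n ω| ≤ 1 := by
  unfold avY
  rw [abs_mul, abs_of_nonneg (by positivity : (0 : ℝ) ≤ (n : ℝ)⁻¹)]
  have h1 : |∑ r ∈ Finset.range n, Y (v, r) ω| ≤ n := by
    refine (Finset.abs_sum_le_sum_abs _ _).trans ?_
    calc ∑ r ∈ Finset.range n, |Y (v, r) ω| ≤ ∑ r ∈ Finset.range n, 1 :=
          Finset.sum_le_sum fun r _ => hb _ _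
      _ = n := by simp
  rcases Nat.eq_zero_or_pos n with h | h
  · subst h
    simp
  · have hn : (0 : ℝ) < n := by exact_mod_cast h
    rw [inv_mul_le_iff₀ hn, mul_one]
    exact h1

lemma avY_sq (hY : Obs P Λ sp Y) (v : ι) {R R' : ℕ} (hR : 0 < R) (hRR : R ≤ R') :
    ∫ ω, (avY Y v R ω - avY Y v R' ω) ^ 2 ∂P ≤ 4 / R := by
  have hR0 : (0 : ℝ) < R := by exact_mod_cast hR
  have hR'0 : (0 : ℝ) < R' := by exact_mod_cast lt_of_lt_of_le hR hRR
  set a : ℕ → ℝ := fun r => (if r < R then (R : ℝ)⁻¹ else 0) - (R' : ℝ)⁻¹ with ha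
  have hind : ∀ f : ℕ → ℝ, ∑ r ∈ Finset.range R', (if r < R then f r else 0)
      = ∑ r ∈ Finset.range R, f r := by
    intro f
    rw [← Finset.sum_filter]
    congr 1
    ext r
    rw [Finset.mem_filter, Finset.mem_range, Finset.mem_range]
    omega
  have hpt : ∀ ω, avY Y v R ω - avY Y v R' ω = ∑ r ∈ Finset.range R', a r * Y (v, r) ω := by
    intro ω
    have h1 : ∀ r, a r * Y (v, r) ω = (if r < R then (R : ℝ)⁻¹ * Y (v, r) ω else 0)
        - (R' : ℝ)⁻¹ * Y (v, r) ω := by
      intro r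
      simp only [ha]
      split_ifs <;> ring
    simp only [h1]
    rw [Finset.sum_sub_distrib, hind, ← Finset.mul_sum, ← Finset.mul_sum]
    rfl
  have hsum : ∑ r ∈ Finset.range R', a r = 0 := by
    simp only [ha]
    rw [Finset.sum_sub_distrib, hind, Finset.sum_const, Finset.sum_const, Finset.card_range,
      Finset.card_range, nsmul_eq_mul, nsmul_eq_mul, mul_inv_cancel₀ hR0.ne',
      mul_inv_cancel₀ hR'0.ne', sub_self]
  have hsq : ∑ r ∈ Finset.range R', a r ^ 2 ≤ 4 / R := by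
    have h1 : ∀ r ∈ Finset.range R', a r ^ 2
        ≤ (if r < R then 2 * ((R : ℝ)⁻¹) ^ 2 else 0) + 2 * ((R' : ℝ)⁻¹) ^ 2 := by
      intro r _
      simp only [ha]
      split_ifs
      · nlinarith [sq_nonneg ((R : ℝ)⁻¹ + (R' : ℝ)⁻¹)]
      · nlinarith [sq_nonneg ((R' : ℝ)⁻¹)]
    refine (Finset.sum_le_sum h1).trans ?_
    rw [Finset.sum_add_distrib, hind, Finset.sum_const, Finset.sum_const, Finset.card_range,
      Finset.card_range, nsmul_eq_mul, nsmul_eq_mul]
    have h2 : (R' : ℝ)⁻¹ ≤ (R : ℝ)⁻¹ := by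
      apply inv_anti₀ hR0
      exact_mod_cast hRR
    have h3 : (R : ℝ) * (2 * ((R : ℝ)⁻¹) ^ 2) = 2 * (R : ℝ)⁻¹ := by
      field_simp
    have h4 : (R' : ℝ) * (2 * ((R' : ℝ)⁻¹) ^ 2) = 2 * (R' : ℝ)⁻¹ := by
      field_simp
    rw [h3, h4, div_eq_mul_inv]
    linarith
  simp only [hpt]
  refine (hY.second v a R').trans ?_
  rw [hsum]
  nlinarith

/-- The decoded spin, up to a constant factor. -/
noncomputable def tt (Y : ι × ℕ → Ω → ℝ) (v : ι) (ω : Ω) : ℝ :=
  limsup (fun k : ℕ => avY Y v (4 ^ k) ω) atTop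

lemma measurable_tt (hm : ∀ e, Measurable (Y e)) (v : ι) : Measurable (tt Y v) := by
  apply Measurable.limsup
  intro k
  unfold avY
  apply Measurable.const_mul
  exact Finset.measurable_sum _ fun r _ => hm (v, r)

/-- Almost sure convergence along powers of four. -/
lemma ae_cauchy (hY : Obs P Λ sp Y) (v : ι) :
    ∀ᵐ ω ∂P, Tendsto (fun k : ℕ => avY Y v (4 ^ k) ω) atTop (𝓝 (tt Y v ω)) := by
  have hB : ∀ k, P161.BM (fun ω => avY Y v (4 ^ k) ω - avY Y v (4 ^ (k + 1)) ω) :=
    fun k => (avY_BM hY v _).sub (avY_BM hY v _)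
  -- first absolute moments
  have h1 : ∀ k : ℕ, ∫ ω, |avY Y v (4 ^ k) ω - avY Y v (4 ^ (k + 1)) ω| ∂P
      ≤ (1 / 2) ^ k * 3 := by
    intro k
    have h2 := avY_sq hY v (R := 4 ^ k) (R' := 4 ^ (k + 1)) (by positivity)
      (Nat.pow_le_pow_right (by norm_num) (by omega))
    have hpt : ∀ ω, |avY Y v (4 ^ k) ω - avY Y v (4 ^ (k + 1)) ω|
        ≤ (2 : ℝ) ^ k / 2 * (avY Y v (4 ^ k) ω - avY Y v (4 ^ (k + 1)) ω) ^ 2
          + (1 / 2) ^ k / 2 := by
      intro ω
      set y := avY Y v (4 ^ k) ω - avY Y v (4 ^ (k + 1)) ω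
      have h3 : (2 : ℝ) ^ k * (1 / 2) ^ k = 1 := by
        rw [← mul_pow]
        norm_num
      have h4 : 0 ≤ (2 : ℝ) ^ k / 2 * (|y| - (1 / 2) ^ k) ^ 2 := by positivity
      have h5 : (2 : ℝ) ^ k / 2 * (|y| - (1 / 2) ^ k) ^ 2
          = (2 : ℝ) ^ k / 2 * y ^ 2 - ((2 : ℝ) ^ k * (1 / 2) ^ k) * |y|
            + ((2 : ℝ) ^ k * (1 / 2) ^ k) * (1 / 2) ^ k / 2 := by
        rw [← sq_abs y]
        ring
      rw [h5, h3] at h4
      linarith
    calc ∫ ω, |avY Y v (4 ^ k) ω - avY Y v (4 ^ (k + 1)) ω| ∂P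
        ≤ ∫ ω, ((2 : ℝ) ^ k / 2 * (avY Y v (4 ^ k) ω - avY Y v (4 ^ (k + 1)) ω) ^ 2
          + (1 / 2) ^ k / 2) ∂P :=
          integral_mono ((hB k).abs.integrable _)
            ((((hB k).sq.integrable _).const_mul _).add (integrable_const _)) hpt
      _ = (2 : ℝ) ^ k / 2 * ∫ ω, (avY Y v (4 ^ k) ω - avY Y v (4 ^ (k + 1)) ω) ^ 2 ∂P
          + (1 / 2) ^ k / 2 := by
          rw [integral_add (((hB k).sq.integrable _).const_mul _) (integrable_const _),
            integral_const_mul]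
          simp
      _ ≤ (2 : ℝ) ^ k / 2 * (4 / ((4 ^ k : ℕ) : ℝ)) + (1 / 2) ^ k / 2 := by gcongr
      _ = (1 / 2) ^ k * 2 + (1 / 2) ^ k / 2 := by
          congr 1
          have h6 : ((4 ^ k : ℕ) : ℝ) = (2 : ℝ) ^ k * 2 ^ k := by
            push_cast
            rw [← mul_pow]
            norm_num
          rw [h6, one_div, inv_pow]
          field_simp
          norm_num
      _ ≤ (1 / 2) ^ k * 3 := by
          have : (0 : ℝ) < (1 / 2) ^ k := by positivity
          linarith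
  have h3 : ∫⁻ ω, ∑' k, ENNReal.ofReal |avY Y v (4 ^ k) ω - avY Y v (4 ^ (k + 1)) ω| ∂P ≠ ⊤ := by
    rw [lintegral_tsum fun k => ((hB k).abs.meas.ennreal_ofReal).aemeasurable]
    have h4 : ∀ k, ∫⁻ ω, ENNReal.ofReal |avY Y v (4 ^ k) ω - avY Y v (4 ^ (k + 1)) ω| ∂P
        ≤ ENNReal.ofReal ((1 / 2) ^ k * 3) := by
      intro k
      rw [← ofReal_integral_eq_lintegral_ofReal ((hB k).abs.integrable _)
        (Filter.Eventually.of_forall fun ω => abs_nonneg _)]
      exact ENNReal.ofReal_le_ofReal (h1 k)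
    refine ne_top_of_le_ne_top ?_ (ENNReal.tsum_le_tsum h4)
    have hsum : Summable fun k : ℕ => (1 / 2 : ℝ) ^ k * 3 :=
      (summable_geometric_of_lt_one (by norm_num) (by norm_num)).mul_right 3
    rw [← ENNReal.ofReal_tsum_of_nonneg (fun k => by positivity) hsum]
    exact ENNReal.ofReal_ne_top
  have hmeas : Measurable fun ω => ∑' k, ENNReal.ofReal
      |avY Y v (4 ^ k) ω - avY Y v (4 ^ (k + 1)) ω| :=
    Measurable.tsum fun k => (hB k).abs.meas.ennreal_ofReal
  filter_upwards [ae_lt_top hmeas h3] with ω hω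
  have hc : CauchySeq fun k : ℕ => avY Y v (4 ^ k) ω := by
    apply cauchySeq_of_edist_le_of_tsum_ne_top _ _ hω.ne
    intro k
    rw [edist_dist, Real.dist_eq]
  obtain ⟨a, ha⟩ := cauchySeq_tendsto_of_complete hc
  have : tt Y v ω = a := ha.limsup_eq
  rwa [this]

lemma tt_abs_le (hb : ∀ e ω, |Y e ω| ≤ 1) (v : ι) (ω : Ω) : |tt Y v ω| ≤ 1 := by
  have h1 : ∀ k : ℕ, avY Y v (4 ^ k) ω ≤ 1 := fun k => (abs_le.mp (avY_abs_le hb v _ ω)).2
  have h2 : ∀ k : ℕ, -1 ≤ avY Y v (4 ^ k) ω := fun k => (abs_le.mp (avY_abs_le hb v _ ω)).1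
  unfold tt
  rw [abs_le]
  constructor
  · apply Filter.le_limsup_of_frequently_le
    · exact Filter.Frequently.of_forall h2
    · exact isBoundedUnder_of ⟨1, h1⟩
  · apply Filter.limsup_le_of_le
    · exact Filter.IsCoboundedUnder.of_frequently_ge (Filter.Frequently.of_forall h2)
    · exact Filter.Eventually.of_forall h1

lemma tt_BM (hY : Obs P Λ sp Y) (v : ι) : P161.BM (tt Y v) :=
  ⟨measurable_tt hY.meas v, 1, tt_abs_le hY.bdd v⟩

lemma listprod_BM {t : ι → Ω → ℝ} (hm : ∀ v, Measurable (t v)) (hb : ∀ v ω, |t v ω| ≤ 1)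
    (k : List ι) : (P161.BM fun ω => (k.map fun v => t v ω).prod) ∧
      ∀ ω, |(k.map fun v => t v ω).prod| ≤ 1 := by
  induction k with
  | nil => exact ⟨by simpa using P161.BM.const (Ω := Ω) 1, by simp⟩
  | cons v k ih =>
    simp only [List.map_cons, List.prod_cons]
    refine ⟨P161.BM.mul ⟨hm v, 1, hb v⟩ ih.1, fun ω => ?_⟩
    rw [abs_mul]
    calc |t v ω| * |(k.map fun v => t v ω).prod| ≤ 1 * 1 :=
          mul_le_mul (hb v ω) (ih.2 ω) (abs_nonneg _) zero_le_one
      _ = 1 := one_mul 1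

/-- Mixed moments. -/
lemma moment_t (hY : Obs P Λ sp Y) (k : List ι) :
    ∀ E : Finset (ι × ℕ), Tendsto (fun n => (1 / 30) ^ (k.length + E.card)
        * EL (Λ n) (fun T => (k.map (sp T)).prod * ∏ e ∈ E, sp T e.1)) atTop
      (𝓝 (∫ ω, (k.map fun v => tt Y v ω).prod * ∏ e ∈ E, Y e ω ∂P)) := by
  induction k with
  | nil =>
    intro E
    simp only [List.map_nil, List.prod_nil, one_mul, List.length_nil, zero_add]
    exact hY.mom E
  | cons v k ih =>
    intro E
    set W : Ω → ℝ := fun ω => (k.map fun v => tt Y v ω).prod * ∏ e ∈ E, Y e ω with hW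
    have hPE : P161.BM (fun ω => ∏ e ∈ E, Y e ω) := by
      refine ⟨Finset.measurable_prod E fun e _ => hY.meas e, 1, fun ω => ?_⟩
      rw [Finset.abs_prod]
      exact Finset.prod_le_one (fun _ _ => abs_nonneg _) (fun e _ => hY.bdd e ω)
    have hWB : P161.BM W :=
      (listprod_BM (measurable_tt hY.meas) (tt_abs_le hY.bdd) k).1.mul hPE
    set a : ℕ → ℝ := fun n => (1 / 30) ^ ((v :: k).length + E.card)
        * EL (Λ n) (fun T => ((v :: k).map (sp T)).prod * ∏ e ∈ E, sp T e.1) with ha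
    have h2 : ∀ r, (v, r) ∉ E → Tendsto a atTop (𝓝 (∫ ω, W ω * Y (v, r) ω ∂P)) := by
      intro r hr
      have h3 := ih (insert (v, r) E)
      have e1 : ∀ ω, (k.map fun v => tt Y v ω).prod * ∏ e ∈ insert (v, r) E, Y e ω
          = W ω * Y (v, r) ω := by
        intro ω
        rw [Finset.prod_insert hr, hW]
        ring
      simp only [e1] at h3
      refine h3.congr fun n => ?_
      rw [ha, Finset.card_insert_of_notMem hr, List.length_cons]
      congr 1
      · congr 1
        ring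
      · apply EL_congr
        intro T _
        rw [Finset.prod_insert hr, List.map_cons, List.prod_cons]
        ring
    obtain ⟨r0, hr0⟩ : ∃ r0 : ℕ, ∀ r, r0 ≤ r → (v, r) ∉ E := by
      refine ⟨E.sup (fun e => e.2) + 1, fun r hr hmem => ?_⟩
      have : r ≤ E.sup (fun e => e.2) := Finset.le_sup (f := fun e : ι × ℕ => e.2) hmem
      omega
    set L : ℝ := ∫ ω, W ω * Y (v, r0) ω ∂P with hL
    have hLr : ∀ r, r0 ≤ r → ∫ ω, W ω * Y (v, r) ω ∂P = L := fun r hr =>
      tendsto_nhds_unique (h2 r (hr0 r hr)) (h2 r0 (hr0 r0 le_rfl))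
    have h3 : Tendsto (fun r => ∫ ω, W ω * Y (v, r) ω ∂P) atTop (𝓝 L) := by
      apply tendsto_const_nhds.congr'
      rw [Filter.EventuallyEq, Filter.eventually_atTop]
      exact ⟨r0, fun r hr => (hLr r hr).symm⟩
    have h4 := h3.cesaro
    have h5 : ∀ n : ℕ, ∫ ω, W ω * avY Y v n ω ∂P
        = (n : ℝ)⁻¹ * ∑ r ∈ Finset.range n, ∫ ω, W ω * Y (v, r) ω ∂P := by
      intro n
      rw [← integral_finsetSum _ fun r _ => (hWB.mul (hY.BM (v, r))).integrable _,
        ← integral_const_mul]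
      congr 1
      funext ω
      unfold avY
      rw [← Finset.mul_sum]
      ring
    simp only [← h5] at h4
    have h6 : Tendsto (fun k : ℕ => ∫ ω, W ω * avY Y v (4 ^ k) ω ∂P) atTop (𝓝 L) :=
      h4.comp (tendsto_pow_atTop_atTop_of_one_lt (by norm_num : 1 < 4))
    obtain ⟨C, hC⟩ := hWB.bdd
    have h7 : Tendsto (fun k : ℕ => ∫ ω, W ω * avY Y v (4 ^ k) ω ∂P) atTop
        (𝓝 (∫ ω, W ω * tt Y v ω ∂P)) := by
      apply tendsto_integral_of_dominated_convergence (fun _ => C * 1)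
      · intro n
        exact (hWB.mul (avY_BM hY v _)).meas.aestronglyMeasurable
      · exact integrable_const _
      · intro n
        refine Filter.Eventually.of_forall fun ω => ?_
        rw [Real.norm_eq_abs, abs_mul]
        exact mul_le_mul (hC ω) (avY_abs_le hY.bdd v _ ω) (abs_nonneg _)
          ((abs_nonneg _).trans (hC ω))
      · filter_upwards [ae_cauchy hY v] with ω hω
        exact hω.const_mul _
    have h8 := tendsto_nhds_unique h6 h7
    have h9 : ∫ ω, ((v :: k).map fun v => tt Y v ω).prod * ∏ e ∈ E, Y e ω ∂P = L := by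
      rw [h8]
      congr 1
      funext ω
      rw [hW, List.map_cons, List.prod_cons]
      ring
    rw [h9]
    exact h2 r0 (hr0 r0 le_rfl)

lemma moment_list (hY : Obs P Λ sp Y) (k : List ι) :
    Tendsto (fun n => (1 / 30) ^ k.length * EL (Λ n) (fun T => (k.map (sp T)).prod)) atTop
      (𝓝 (∫ ω, (k.map fun v => tt Y v ω).prod ∂P)) := by
  have h := moment_t hY k ∅
  simpa only [Finset.prod_empty, mul_one, Finset.card_empty, add_zero] using h

lemma tt_sq (hY : Obs P Λ sp Y) (v : ι) : ∀ᵐ ω ∂P, tt Y v ω ^ 2 = (1 / 30) ^ 2 := by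
  have htB := tt_BM hY v
  have h2 := moment_list hY [v, v]
  have h4 := moment_list hY [v, v, v, v]
  simp only [List.map_cons, List.map_nil, List.prod_cons, List.prod_nil, mul_one,
    List.length_cons, List.length_nil] at h2 h4
  have e2 : ∀ n, EL (Λ n) (fun T => sp T v * sp T v) = 1 := by
    intro n
    rw [← EL_const (hY.ne n) 1]
    exact EL_congr fun T hT => spin_mul_self (hY.spin n) hT v
  have e4 : ∀ n, EL (Λ n) (fun T => sp T v * (sp T v * (sp T v * sp T v))) = 1 := by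
    intro n
    rw [← EL_const (hY.ne n) 1]
    exact EL_congr fun T hT => by
      rw [spin_mul_self (hY.spin n) hT v, mul_one, spin_mul_self (hY.spin n) hT v]
  simp only [e2, mul_one] at h2
  simp only [e4, mul_one] at h4
  have h2' := tendsto_nhds_unique h2 tendsto_const_nhds
  have h4' := tendsto_nhds_unique h4 tendsto_const_nhds
  have hB : P161.BM (fun ω => (tt Y v ω ^ 2 - (1 / 30) ^ 2) ^ 2) :=
    ((htB.sq).sub (P161.BM.const _)).sq
  have h0 : ∫ ω, (tt Y v ω ^ 2 - (1 / 30) ^ 2) ^ 2 ∂P = 0 := by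
    have e5 : ∀ ω, (tt Y v ω ^ 2 - (1 / 30) ^ 2) ^ 2
        = tt Y v ω * (tt Y v ω * (tt Y v ω * tt Y v ω)) + (1 / 30) ^ 4
          - 2 * (1 / 30) ^ 2 * (tt Y v ω * tt Y v ω) := by
      intro ω
      ring
    simp only [e5]
    have i1 : Integrable (fun ω => tt Y v ω * (tt Y v ω * (tt Y v ω * tt Y v ω))) P :=
      (htB.mul (htB.mul (htB.mul htB))).integrable _
    have i2 : Integrable (fun ω => 2 * (1 / 30) ^ 2 * (tt Y v ω * tt Y v ω)) P :=
      ((htB.mul htB).integrable _).const_mul _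
    have i12 : Integrable (fun ω => tt Y v ω * (tt Y v ω * (tt Y v ω * tt Y v ω))
        + (1 / 30) ^ 4) P := i1.add (integrable_const _)
    rw [integral_sub i12 i2, integral_add i1 (integrable_const _), integral_const_mul, h2', h4']
    simp
    norm_num
  rw [integral_eq_zero_iff_of_nonneg (fun ω => sq_nonneg _) (hB.integrable _)] at h0
  filter_upwards [h0] with ω hω
  have h6 : (tt Y v ω ^ 2 - (1 / 30) ^ 2) ^ 2 = 0 := hω
  have h7 := pow_eq_zero_iff (two_ne_zero) |>.mp h6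
  linarith

/-- Joint law, in terms of products. -/
lemma joint_t (hY : Obs P Λ sp Y) (η : ι → ℝ) (D : Finset ι) :
    ∀ k : List ι, Tendsto (fun n => (1 / 30) ^ k.length
        * EL (Λ n) (fun T => (∏ v ∈ D, ((1 + η v * sp T v) / 2)) * (k.map (sp T)).prod)) atTop
      (𝓝 (∫ ω, (∏ v ∈ D, ((1 + η v * 30 * tt Y v ω) / 2))
        * (k.map fun v => tt Y v ω).prod ∂P)) := by
  have hDB : ∀ D : Finset ι, P161.BM (fun ω => ∏ v ∈ D, ((1 + η v * 30 * tt Y v ω) / 2)) := by
    intro D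
    induction D using Finset.induction_on with
    | empty => simpa using P161.BM.const (Ω := Ω) 1
    | insert a D ha ih =>
      simp only [Finset.prod_insert ha]
      apply P161.BM.mul _ ih
      have h1 : P161.BM (fun ω => (1 / 2 : ℝ) * (1 + η a * 30 * tt Y a ω)) :=
        (P161.BM.const _).mul ((P161.BM.const _).add ((P161.BM.const _).mul (tt_BM hY a)))
      have e1 : (fun ω => (1 + η a * 30 * tt Y a ω) / 2)
          = (fun ω => (1 / 2 : ℝ) * (1 + η a * 30 * tt Y a ω)) := by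
        funext ω
        ring
      rw [e1]
      exact h1
  induction D using Finset.induction_on with
  | empty =>
    intro k
    simp only [Finset.prod_empty, one_mul]
    exact moment_list hY k
  | insert a D ha ih =>
    intro k
    have h1 := ih k
    have h2 := ih (a :: k)
    have hkB := (listprod_BM (measurable_tt hY.meas) (tt_abs_le hY.bdd) k).1
    have hakB := (listprod_BM (measurable_tt hY.meas) (tt_abs_le hY.bdd) (a :: k)).1
    have e1 : ∀ ω, (∏ v ∈ insert a D, ((1 + η v * 30 * tt Y v ω) / 2))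
        * (k.map fun v => tt Y v ω).prod
        = 1 / 2 * ((∏ v ∈ D, ((1 + η v * 30 * tt Y v ω) / 2))
            * (k.map fun v => tt Y v ω).prod)
          + 1 / 2 * (η a * 30) * ((∏ v ∈ D, ((1 + η v * 30 * tt Y v ω) / 2))
            * ((a :: k).map fun v => tt Y v ω).prod) := by
      intro ω
      rw [Finset.prod_insert ha, List.map_cons, List.prod_cons]
      ring
    have i1 : Integrable (fun ω => 1 / 2 * ((∏ v ∈ D, ((1 + η v * 30 * tt Y v ω) / 2))
            * (k.map fun v => tt Y v ω).prod)) P :=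
      (((hDB D).mul hkB).integrable _).const_mul _
    have i2 : Integrable (fun ω => 1 / 2 * (η a * 30)
        * ((∏ v ∈ D, ((1 + η v * 30 * tt Y v ω) / 2))
            * ((a :: k).map fun v => tt Y v ω).prod)) P :=
      (((hDB D).mul hakB).integrable _).const_mul _
    simp only [e1]
    rw [integral_add i1 i2, integral_const_mul, integral_const_mul]
    have h3 := (h1.const_mul (1 / 2)).add (h2.const_mul (1 / 2 * (η a * 30)))
    refine h3.congr fun n => ?_
    have e2 : EL (Λ n) (fun T => (∏ v ∈ insert a D, ((1 + η v * sp T v) / 2))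
          * (k.map (sp T)).prod)
        = 1 / 2 * EL (Λ n) (fun T => (∏ v ∈ D, ((1 + η v * sp T v) / 2)) * (k.map (sp T)).prod)
          + 1 / 2 * η a * EL (Λ n) (fun T => (∏ v ∈ D, ((1 + η v * sp T v) / 2))
            * ((a :: k).map (sp T)).prod) := by
      rw [← EL_smul, ← EL_smul, ← EL_add]
      apply EL_congr
      intro T _
      rw [Finset.prod_insert ha, List.map_cons, List.prod_cons]
      ring
    rw [e2, List.length_cons, pow_succ]
    ring

open Classical in
/-- The joint law of the decoded spins. -/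
theorem law_tt (hY : Obs P Λ sp Y) (D : Finset ι) (B : Set ι) :
    Tendsto (fun n => EL (Λ n) (fun T => if ∀ v ∈ D, (sp T v = 1 ↔ v ∈ B) then 1 else 0)) atTop
      (𝓝 (P.real {ω | ∀ v ∈ D, (0 < tt Y v ω ↔ v ∈ B)})) := by
  set η : ι → ℝ := fun v => if v ∈ B then 1 else -1 with hη
  have h1 := joint_t hY η D []
  simp only [List.map_nil, List.prod_nil, mul_one, List.length_nil, pow_zero, one_mul] at h1
  set A : Set Ω := {ω | ∀ v ∈ D, (0 < tt Y v ω ↔ v ∈ B)} with hA
  have hAm : MeasurableSet A := by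
    have : A = ⋂ v ∈ D, {ω | 0 < tt Y v ω ↔ v ∈ B} := by
      ext ω
      simp [hA]
    rw [this]
    apply Finset.measurableSet_biInter
    intro v _
    have h2 : MeasurableSet {ω | 0 < tt Y v ω} :=
      measurableSet_lt measurable_const (measurable_tt hY.meas v)
    by_cases hv : v ∈ B
    · simpa [hv] using h2
    · have : {ω | 0 < tt Y v ω ↔ v ∈ B} = {ω | 0 < tt Y v ω}ᶜ := by
        ext ω
        simp [hv]
      rw [this]
      exact h2.compl
  have h2 : ∀ᵐ ω ∂P, ∀ v ∈ D, tt Y v ω ^ 2 = (1 / 30) ^ 2 := by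
    rw [Filter.eventually_all_finset]
    intro v _
    exact tt_sq hY v
  have h3 : (fun ω => ∏ v ∈ D, ((1 + η v * 30 * tt Y v ω) / 2)) =ᵐ[P] A.indicator 1 := by
    filter_upwards [h2] with ω hω
    have hfac : ∀ v ∈ D, (1 + η v * 30 * tt Y v ω) / 2
        = if (0 < tt Y v ω ↔ v ∈ B) then 1 else 0 := by
      intro v hv
      have h5 : tt Y v ω = 1 / 30 ∨ tt Y v ω = -(1 / 30) := sq_eq_sq_iff_eq_or_eq_neg.mp (hω v hv)
      rw [hη]
      beta_reduce
      rcases h5 with h5 | h5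
      · rw [h5]
        by_cases hvB : v ∈ B
        · rw [if_pos hvB, if_pos (by simp [hvB])]
          norm_num
        · rw [if_neg hvB, if_neg (by simp [hvB])]
          norm_num
      · rw [h5]
        by_cases hvB : v ∈ B
        · rw [if_pos hvB, if_neg (by norm_num [hvB])]
          norm_num
        · rw [if_neg hvB, if_pos (by norm_num [hvB])]
          norm_num
    rw [Finset.prod_congr rfl hfac]
    by_cases hmem : ω ∈ A
    · rw [Set.indicator_of_mem hmem, Pi.one_apply]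
      apply Finset.prod_eq_one
      intro v hv
      rw [if_pos (hmem v hv)]
    · rw [Set.indicator_of_notMem hmem]
      have : ∃ v ∈ D, ¬ (0 < tt Y v ω ↔ v ∈ B) := by
        by_contra hcon
        push Not at hcon
        exact hmem hcon
      obtain ⟨v, hv, hne⟩ := this
      exact Finset.prod_eq_zero hv (if_neg hne)
  rw [integral_congr_ae h3, integral_indicator_one hAm] at h1
  refine h1.congr fun n => ?_
  apply EL_congr
  intro T hT
  have hfac : ∀ v ∈ D, (1 + η v * sp T v) / 2 = if (sp T v = 1 ↔ v ∈ B) then 1 else 0 := by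
    intro v _
    rw [hη]
    beta_reduce
    rcases hY.spin n T hT v with h5 | h5
    · rw [h5]
      by_cases hvB : v ∈ B
      · rw [if_pos hvB, if_pos (by simp [hvB])]
        norm_num
      · rw [if_neg hvB, if_neg (by simp [hvB])]
        norm_num
    · rw [h5]
      by_cases hvB : v ∈ B
      · rw [if_pos hvB, if_neg (by simp [hvB]; norm_num)]
        norm_num
      · rw [if_neg hvB, if_pos (by simp [hvB]; norm_num)]
        norm_num
  rw [Finset.prod_congr rfl hfac]
  by_cases hmem : ∀ v ∈ D, (sp T v = 1 ↔ v ∈ B)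
  · rw [if_pos hmem]
    apply Finset.prod_eq_one
    intro v hv
    rw [if_pos (hmem v hv)]
  · rw [if_neg hmem]
    push Not at hmem
    obtain ⟨v, hv, hne⟩ := hmem
    apply Finset.prod_eq_zero hv
    rw [if_neg]
    intro h
    rcases hne with ⟨h5, h6⟩ | ⟨h5, h6⟩
    · exact h6 (h.mp h5)
    · exact h5 (h.mpr h6)

end Vale.Agent.P143
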