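import Mathlib

/-!
Dirichlet energies and effective conductances on weighted graphs.
-/

namespace Vale.Agent.P143

open Set Filter Topology

variable {V : Type*}

/-- The squared gradient of `h` along an edge. -/
def dq (h : V → ℝ) : Sym2 V → ℝ :=
  Sym2.lift ⟨fun a b => (h a - h b) ^ 2, fun a b => by ring⟩

@[simp] lemma dq_mk (h : V → ℝ) (a b : V) : dq h s(a, b) = (h a - h b) ^ 2 := rfl

lemma dq_nonneg (h : V → ℝ) (e : Sym2 V) : 0 ≤ dq h e := by
  induction e using Sym2.ind with
  | _ a b => exact sq_nonneg _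

/-- The Dirichlet energy over a finite edge set. -/
def en (F : Finset (Sym2 V)) (W : Sym2 V → ℝ) (h : V → ℝ) : ℝ := ∑ f ∈ F, W f * dq h f

/-- The effective conductance between the endpoints of `e`. -/
noncomputable def cap (F : Finset (Sym2 V)) (W : Sym2 V → ℝ) (e : Sym2 V) : ℝ :=
  sInf ((fun h => en F W h) '' {h : V → ℝ | dq h e = 1})

variable {F F' : Finset (Sym2 V)} {W W' : Sym2 V → ℝ} {e : Sym2 V}

lemma en_nonneg (hW : ∀ f, 0 ≤ W f) (h : V → ℝ) : 0 ≤ en F W h :=
  Finset.sum_nonneg fun f _ => mul_nonneg (hW f) (dq_nonneg h f)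

lemma cap_bdd (hW : ∀ f, 0 ≤ W f) : BddBelow ((fun h => en F W h) '' {h : V → ℝ | dq h e = 1}) := by
  refine ⟨0, ?_⟩
  rintro _ ⟨h, _, rfl⟩
  exact en_nonneg hW h

lemma cap_nonneg (hW : ∀ f, 0 ≤ W f) : 0 ≤ cap F W e := by
  apply Real.sInf_nonneg
  rintro _ ⟨h, _, rfl⟩
  exact en_nonneg hW h

lemma cap_le (hW : ∀ f, 0 ≤ W f) {h : V → ℝ} (hh : dq h e = 1) : cap F W e ≤ en F W h :=
  csInf_le (cap_bdd hW) ⟨h, hh, rfl⟩

lemma exists_unit (he : ¬ e.IsDiag) : ∃ h : V → ℝ, dq h e = 1 := by
  classical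
  induction e using Sym2.ind with
  | _ a b =>
    rw [Sym2.mk_isDiag_iff] at he
    refine ⟨fun v => if v = a then 1 else 0, ?_⟩
    rw [dq_mk, if_pos rfl, if_neg (Ne.symm he)]
    norm_num

lemma le_cap (he : ¬ e.IsDiag) {c : ℝ} (h : ∀ h : V → ℝ, dq h e = 1 → c ≤ en F W h) :
    c ≤ cap F W e := by
  apply le_csInf
  · obtain ⟨h0, hh0⟩ := exists_unit he
    exact ⟨_, h0, hh0, rfl⟩
  · rintro _ ⟨h0, hh0, rfl⟩
    exact h h0 hh0

lemma exists_cap_lt (he : ¬ e.IsDiag) {c : ℝ} (h : cap F W e < c) :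
    ∃ h : V → ℝ, dq h e = 1 ∧ en F W h < c := by
  obtain ⟨_, ⟨h0, hh0, rfl⟩, hlt⟩ := exists_lt_of_csInf_lt
    (by
      obtain ⟨h0, hh0⟩ := exists_unit he
      exact ⟨_, h0, hh0, rfl⟩) h
  exact ⟨h0, hh0, hlt⟩

lemma en_mono (hFF : F ⊆ F') (hW' : ∀ f, 0 ≤ W' f) (hWW : ∀ f ∈ F, W f ≤ W' f) (h : V → ℝ) :
    en F W h ≤ en F' W' h := by
  unfold en
  calc ∑ f ∈ F, W f * dq h f ≤ ∑ f ∈ F, W' f * dq h f :=
        Finset.sum_le_sum fun f hf => mul_le_mul_of_nonneg_right (hWW f hf) (dq_nonneg h f)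
    _ ≤ ∑ f ∈ F', W' f * dq h f :=
        Finset.sum_le_sum_of_subset_of_nonneg hFF fun f _ _ =>
          mul_nonneg (hW' f) (dq_nonneg h f)

lemma cap_mono (he : ¬ e.IsDiag) (hFF : F ⊆ F') (hW : ∀ f, 0 ≤ W f) (hW' : ∀ f, 0 ≤ W' f)
    (hWW : ∀ f ∈ F, W f ≤ W' f) : cap F W e ≤ cap F' W' e :=
  le_cap he fun h hh => (cap_le hW hh).trans (en_mono hFF hW' hWW h)

lemma cap_congr (hWW : ∀ f ∈ F, W f = W' f) : cap F W e = cap F W' e := by
  unfold cap
  congr 1
  apply Set.image_congr
  intro h _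
  exact Finset.sum_congr rfl fun f hf => by rw [hWW f hf]

lemma cap_scale (he : ¬ e.IsDiag) (hW : ∀ f, 0 ≤ W f) {c : ℝ} (hc : 0 < c)
    (hWW : ∀ f ∈ F, W f ≤ c * W' f) : cap F W e ≤ c * cap F W' e := by
  have h1 : c⁻¹ * cap F W e ≤ cap F W' e := by
    apply le_cap he
    intro h hh
    have h2 := cap_le (F := F) hW hh
    have h3 : en F W h ≤ c * en F W' h := by
      unfold en
      rw [Finset.mul_sum]
      apply Finset.sum_le_sum
      intro f hf
      have := mul_le_mul_of_nonneg_right (hWW f hf) (dq_nonneg h f)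
      linarith
    rw [inv_mul_le_iff₀ hc]
    exact h2.trans h3
  rwa [inv_mul_le_iff₀ hc] at h1

lemma le_cap_self (he : ¬ e.IsDiag) (hW : ∀ f, 0 ≤ W f) (heF : e ∈ F) : W e ≤ cap F W e := by
  apply le_cap he
  intro h hh
  unfold en
  calc W e = W e * dq h e := by rw [hh, mul_one]
    _ ≤ ∑ f ∈ F, W f * dq h f :=
        Finset.single_le_sum (f := fun f => W f * dq h f)
          (fun f _ => mul_nonneg (hW f) (dq_nonneg h f)) heF

/-- Upper bound of the conductance by the total weight at one endpoint. -/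
lemma cap_le_star (hW : ∀ f, 0 ≤ W f) {a b : V} (hab : a ≠ b) {Q : Finset (Sym2 V)}
    (hQ : ∀ f, a ∈ f → W f ≠ 0 → f ∈ Q) : cap F W s(a, b) ≤ ∑ f ∈ Q, W f := by
  classical
  have h1 : dq (fun v => if v = a then (1 : ℝ) else 0) s(a, b) = 1 := by
    rw [dq_mk, if_pos rfl, if_neg hab.symm]
    norm_num
  refine (cap_le hW h1).trans ?_
  unfold en
  have h2 : ∀ f, dq (fun v => if v = a then (1 : ℝ) else 0) f ≤ 1 := by
    intro f
    induction f using Sym2.ind with
    | _ x y =>
      rw [dq_mk]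
      split_ifs <;> norm_num
  have h3 : ∀ f, f ∉ Q → W f * dq (fun v => if v = a then (1 : ℝ) else 0) f = 0 := by
    intro f hf
    by_cases haf : a ∈ f
    · have : W f = 0 := by
        by_contra hne
        exact hf (hQ f haf hne)
      rw [this, zero_mul]
    · induction f using Sym2.ind with
      | _ x y =>
        rw [Sym2.mem_iff, not_or] at haf
        rw [dq_mk, if_neg (Ne.symm haf.1), if_neg (Ne.symm haf.2)]
        norm_num
  calc ∑ f ∈ F, W f * dq (fun v => if v = a then (1 : ℝ) else 0) f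
      ≤ ∑ f ∈ Q, W f * dq (fun v => if v = a then (1 : ℝ) else 0) f := by
        rw [← Finset.sum_filter_add_sum_filter_not F (fun f => f ∈ Q)]
        have h4 : ∑ f ∈ F.filter (fun f => ¬ f ∈ Q),
            W f * dq (fun v => if v = a then (1 : ℝ) else 0) f = 0 :=
          Finset.sum_eq_zero fun f hf => h3 f (Finset.mem_filter.mp hf).2
        rw [h4, add_zero]
        apply Finset.sum_le_sum_of_subset_of_nonneg
        · intro f hf
          exact (Finset.mem_filter.mp hf).2
        · intro f _ _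
          exact mul_nonneg (hW f) (dq_nonneg _ f)
    _ ≤ ∑ f ∈ Q, W f := by
        apply Finset.sum_le_sum
        intro f _
        calc W f * dq (fun v => if v = a then (1 : ℝ) else 0) f ≤ W f * 1 :=
              mul_le_mul_of_nonneg_left (h2 f) (hW f)
          _ = W f := mul_one _

/-- The infinite-volume conductance. -/
noncomputable def capI (W : Sym2 V → ℝ) (e : Sym2 V) : ℝ := ⨆ F : Finset (Sym2 V), cap F W e

/-- The optimal potential in infinite volume. -/
lemma exists_opt (hW : ∀ f, 0 ≤ W f) {a b : V} (hab : a ≠ b) {S : ℝ}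
    (hS : ∀ F, cap F W s(a, b) ≤ S) :
    ∃ h : V → ℝ, dq h s(a, b) = 1 ∧ ∀ F, en F W h ≤ S := by
  classical
  have he : ¬ (s(a, b)).IsDiag := by rwa [Sym2.mk_isDiag_iff]
  set K : Set (V → ℝ) := Set.pi Set.univ fun _ => Icc (0 : ℝ) 1 with hK
  have hKc : IsCompact K := isCompact_univ_pi fun _ => isCompact_Icc
  set C : Finset (Sym2 V) × ℕ → Set (V → ℝ) := fun p =>
    K ∩ {h | h a = 1 ∧ h b = 0 ∧ en p.1 W h ≤ S + 1 / ((p.2 : ℝ) + 1)} with hC
  have hdq : ∀ f : Sym2 V, Continuous fun h : V → ℝ => dq h f := by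
    intro f
    induction f using Sym2.ind with
    | _ x y =>
      simp only [dq_mk]
      fun_prop
  have hen : ∀ F, Continuous fun h : V → ℝ => en F W h := by
    intro F
    unfold en
    exact continuous_finsetSum _ fun f _ => (hdq f).const_mul _
  have hcl : ∀ p, IsClosed (C p) := by
    intro p
    apply hKc.isClosed.inter
    apply (isClosed_eq (continuous_apply a) continuous_const).inter
    apply (isClosed_eq (continuous_apply b) continuous_const).inter
    exact isClosed_le (hen p.1) continuous_const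
  have hcomp : ∀ p, IsCompact (C p) := fun p => hKc.of_isClosed_subset (hcl p) inter_subset_left
  have hne : ∀ p, (C p).Nonempty := by
    intro p
    have hpos : (0 : ℝ) < 1 / ((p.2 : ℝ) + 1) := by positivity
    obtain ⟨h0, h1, h2⟩ := exists_cap_lt (F := p.1) (W := W) he
      (c := S + 1 / ((p.2 : ℝ) + 1)) (by linarith [hS p.1])
    -- normalize
    rw [dq_mk] at h1
    obtain ⟨h3, h4, h5⟩ : ∃ g : V → ℝ, g a - g b = 1 ∧ en p.1 W g < S + 1 / ((p.2 : ℝ) + 1) := by
      have h6 : h0 a - h0 b = 1 ∨ h0 a - h0 b = -1 := by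
        have h7 : (h0 a - h0 b - 1) * (h0 a - h0 b + 1) = 0 := by linarith [h1, sq (h0 a - h0 b)]
        rcases mul_eq_zero.mp h7 with h8 | h8
        · left; linarith
        · right; linarith
      rcases h6 with h6 | h6
      · exact ⟨h0, h6, h2⟩
      · refine ⟨fun v => - h0 v, by linarith, ?_⟩
        have : en p.1 W (fun v => - h0 v) = en p.1 W h0 := by
          unfold en
          apply Finset.sum_congr rfl
          intro f _
          congr 1
          induction f using Sym2.ind with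
          | _ x y =>
            rw [dq_mk, dq_mk]
            ring
        rw [this]
        exact h2
    refine ⟨fun v => max 0 (min (h3 v - h3 b) 1), ?_, ?_, ?_, ?_⟩
    · intro v _
      exact ⟨le_max_left _ _, max_le zero_le_one (min_le_right _ _)⟩
    · change max 0 (min (h3 a - h3 b) 1) = 1
      rw [h4]
      norm_num
    · change max 0 (min (h3 b - h3 b) 1) = 0
      norm_num
    · refine le_trans ?_ h5.le
      unfold en
      apply Finset.sum_le_sum
      intro f _
      apply mul_le_mul_of_nonneg_left _ (hW f)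
      induction f using Sym2.ind with
      | _ x y =>
        rw [dq_mk, dq_mk]
        rw [← sq_abs (h3 x - h3 y), ← sq_abs (max 0 (min (h3 x - h3 b) 1) - _)]
        apply pow_le_pow_left₀ (abs_nonneg _)
        have h7 := abs_max_sub_max_le_max 0 (min (h3 x - h3 b) 1) 0 (min (h3 y - h3 b) 1)
        have h8 := abs_min_sub_min_le_max (h3 x - h3 b) 1 (h3 y - h3 b) 1
        rw [sub_self, abs_zero] at h7 h8
        refine h7.trans (max_le (abs_nonneg _) (h8.trans (max_le ?_ (abs_nonneg _))))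
        rw [sub_sub_sub_cancel_right]
  have hdir : Directed (· ⊇ ·) C := by
    intro p q
    refine ⟨(p.1 ∪ q.1, max p.2 q.2), ?_, ?_⟩
    · rintro h ⟨h1, h2, h3, h4⟩
      refine ⟨h1, h2, h3, ?_⟩
      refine (en_mono Finset.subset_union_left hW (fun _ _ => le_rfl) h).trans (h4.trans ?_)
      have : (p.2 : ℝ) ≤ ((max p.2 q.2 : ℕ) : ℝ) := by exact_mod_cast le_max_left _ _
      have h5 : 1 / (((max p.2 q.2 : ℕ) : ℝ) + 1) ≤ 1 / ((p.2 : ℝ) + 1) :=
        one_div_le_one_div_of_le (by positivity) (by linarith)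
      simp only
      linarith
    · rintro h ⟨h1, h2, h3, h4⟩
      refine ⟨h1, h2, h3, ?_⟩
      refine (en_mono Finset.subset_union_right hW (fun _ _ => le_rfl) h).trans (h4.trans ?_)
      have : (q.2 : ℝ) ≤ ((max p.2 q.2 : ℕ) : ℝ) := by exact_mod_cast le_max_right _ _
      have h5 : 1 / (((max p.2 q.2 : ℕ) : ℝ) + 1) ≤ 1 / ((q.2 : ℝ) + 1) :=
        one_div_le_one_div_of_le (by positivity) (by linarith)
      simp only
      linarith
  obtain ⟨h, hh⟩ := IsCompact.nonempty_iInter_of_directed_nonempty_isCompact_isClosed C hdir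
    hne hcomp hcl
  rw [Set.mem_iInter] at hh
  refine ⟨h, ?_, ?_⟩
  · obtain ⟨_, h1, h2, _⟩ := hh (∅, 0)
    rw [dq_mk, h1, h2]
    norm_num
  · intro F
    apply le_of_forall_pos_lt_add
    intro δ hδ
    obtain ⟨n, hn⟩ := exists_nat_one_div_lt hδ
    obtain ⟨_, _, _, h3⟩ := hh (F, n)
    simp only at h3
    linarith

lemma cap_diag (he : e.IsDiag) : cap F W e = 0 := by
  unfold cap
  have : {h : V → ℝ | dq h e = 1} = ∅ := by
    apply Set.eq_empty_of_forall_notMem
    intro h hh
    rw [Set.mem_ofPred_eq] at hh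
    induction e using Sym2.ind with
    | _ a b =>
      rw [Sym2.mk_isDiag_iff] at he
      subst he
      rw [dq_mk, sub_self] at hh
      norm_num at hh
  rw [this, image_empty, Real.sInf_empty]

/-- Locally finite nonnegative weights. -/
structure LFW (W : Sym2 V → ℝ) : Prop where
  nonneg : ∀ f, 0 ≤ W f
  fin : ∀ a : V, {f : Sym2 V | a ∈ f ∧ W f ≠ 0}.Finite

lemma LFW.bdd (h : LFW W) (e : Sym2 V) : BddAbove (range fun F => cap F W e) := by
  by_cases he : e.IsDiag
  · refine ⟨0, ?_⟩
    rintro _ ⟨F, rfl⟩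
    exact (cap_diag he).le
  · induction e using Sym2.ind with
    | _ a b =>
      rw [Sym2.mk_isDiag_iff] at he
      refine ⟨∑ f ∈ (h.fin a).toFinset, W f, ?_⟩
      rintro _ ⟨F, rfl⟩
      apply cap_le_star h.nonneg he
      intro f h1 h2
      rw [Set.Finite.mem_toFinset]
      exact ⟨h1, h2⟩

lemma cap_le_capI (h : LFW W) (F : Finset (Sym2 V)) (e : Sym2 V) : cap F W e ≤ capI W e :=
  le_ciSup (h.bdd e) F

lemma capI_nonneg (h : LFW W) (e : Sym2 V) : 0 ≤ capI W e :=
  (cap_nonneg h.nonneg).trans (cap_le_capI h ∅ e)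

lemma capI_le {c : ℝ} (h : ∀ F, cap F W e ≤ c) : capI W e ≤ c := ciSup_le h

lemma capI_diag (he : e.IsDiag) : capI W e = 0 := by
  unfold capI
  simp only [cap_diag he, ciSup_const]

lemma self_le_capI (h : LFW W) (he : ¬ e.IsDiag) : W e ≤ capI W e :=
  (le_cap_self he h.nonneg (Finset.mem_singleton_self e)).trans (cap_le_capI h {e} e)

lemma capI_scale (h : LFW W) (h' : LFW W') {c : ℝ} (hc : 0 < c) (hWW : ∀ f, W f ≤ c * W' f)
    (e : Sym2 V) : capI W e ≤ c * capI W' e := by
  by_cases he : e.IsDiag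
  · rw [capI_diag he, capI_diag he, mul_zero]
  · apply capI_le
    intro F
    refine (cap_scale he h.nonneg hc fun f _ => hWW f).trans ?_
    exact mul_le_mul_of_nonneg_left (cap_le_capI h' F e) hc.le

lemma capI_eq_cap (h : LFW W) (he : ¬ e.IsDiag) (hF : ∀ f, f ∉ F → W f = 0) :
    capI W e = cap F W e := by
  apply le_antisymm _ (cap_le_capI h F e)
  apply capI_le
  intro F'
  apply le_cap he
  intro h0 hh0
  refine (cap_le h.nonneg hh0).trans ?_
  unfold en
  classical
  rw [← Finset.sum_filter_add_sum_filter_not F' (fun f => f ∈ F)]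
  have h4 : ∑ f ∈ F'.filter (fun f => ¬ f ∈ F), W f * dq h0 f = 0 :=
    Finset.sum_eq_zero fun f hf => by rw [hF f (Finset.mem_filter.mp hf).2, zero_mul]
  rw [h4, add_zero]
  apply Finset.sum_le_sum_of_subset_of_nonneg
  · intro f hf
    exact (Finset.mem_filter.mp hf).2
  · intro f _ _
    exact mul_nonneg (h.nonneg f) (dq_nonneg _ f)

/-- The inclusion probability. -/
noncomputable def pr (W : Sym2 V → ℝ) (e : Sym2 V) : ℝ := W e / capI W e

lemma pr_nonneg (h : LFW W) (e : Sym2 V) : 0 ≤ pr W e :=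
  div_nonneg (h.nonneg e) (capI_nonneg h e)

lemma pr_le_one (h : LFW W) (e : Sym2 V) : pr W e ≤ 1 := by
  unfold pr
  by_cases he : e.IsDiag
  · rw [capI_diag he, div_zero]
    exact zero_le_one
  · exact div_le_one_of_le₀ (self_le_capI h he) (capI_nonneg h e)

lemma pr_scale (h : LFW W) (h' : LFW W') {c : ℝ} (hc : 0 < c) (hWW : ∀ f, W f ≤ c * W' f)
    (hWW' : ∀ f, W' f ≤ c * W f) (e : Sym2 V) : pr W e ≤ c ^ 2 * pr W' e := by
  rcases (capI_nonneg h e).eq_or_lt with h0 | h0
  · unfold pr
    rw [← h0, div_zero]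
    have := pr_nonneg h' e
    unfold pr at this
    positivity
  · have h1 := capI_scale h h' hc hWW e
    have h2 := capI_scale h' h hc hWW' e
    have h3 : 0 < capI W' e := by
      by_contra hcon
      push Not at hcon
      have : c * capI W' e ≤ 0 := mul_nonpos_of_nonneg_of_nonpos hc.le hcon
      linarith
    unfold pr
    rw [← mul_div_assoc, div_le_div_iff₀ h0 h3]
    calc W e * capI W' e ≤ (c * W' e) * (c * capI W e) :=
          mul_le_mul (hWW e) h2 h3.le (mul_nonneg hc.le (h'.nonneg e))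
      _ = c ^ 2 * W' e * capI W e := by ring

lemma abs_pr_sub_le (h : LFW W) (h' : LFW W') {d : ℝ} (hd : 0 ≤ d)
    (hWW : ∀ f, W f ≤ Real.exp d * W' f)
    (hWW' : ∀ f, W' f ≤ Real.exp d * W f) (e : Sym2 V) : |pr W e - pr W' e| ≤ 2 * d := by
  have key : ∀ (W W' : Sym2 V → ℝ), LFW W → LFW W' → (∀ f, W f ≤ Real.exp d * W' f) →
      (∀ f, W' f ≤ Real.exp d * W f) → pr W e - pr W' e ≤ 2 * d := by
    intro W W' h h' hWW hWW'
    have h1 := pr_scale h h' (Real.exp_pos d) hWW hWW' e
    have h2 : Real.exp d ^ 2 = Real.exp (2 * d) := by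
      rw [← Real.exp_nat_mul]
      norm_num
    rw [h2] at h1
    have h3 : Real.exp (-(2 * d)) * pr W e ≤ pr W' e := by
      calc Real.exp (-(2 * d)) * pr W e ≤ Real.exp (-(2 * d)) * (Real.exp (2 * d) * pr W' e) :=
            mul_le_mul_of_nonneg_left h1 (Real.exp_pos _).le
        _ = pr W' e := by rw [← mul_assoc, ← Real.exp_add]; simp
    have h4 : 1 - 2 * d ≤ Real.exp (-(2 * d)) := by
      have := Real.add_one_le_exp (-(2 * d))
      linarith
    have h5 := pr_nonneg h e
    have h6 := pr_le_one h e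
    have h7 : Real.exp (-(2 * d)) ≤ 1 := by
      rw [Real.exp_le_one_iff]
      linarith
    nlinarith
  rw [abs_le]
  constructor
  · have := key W' W h' h hWW' hWW
    linarith
  · exact key W W' h h' hWW hWW'

/-- Continuity of the conductance. -/
lemma capI_tendsto {α : Type*} {l : Filter α} {Wn : α → Sym2 V → ℝ} (hW : LFW W)
    (hWn : ∀ n, LFW (Wn n)) {c : ℝ} (hc : 0 ≤ c) (hle : ∀ n f, Wn n f ≤ c * W f)
    (hlim : ∀ f, Tendsto (fun n => Wn n f) l (𝓝 (W f))) (e : Sym2 V) :
    Tendsto (fun n => capI (Wn n) e) l (𝓝 (capI W e)) := by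
  classical
  by_cases he : e.IsDiag
  · simp only [capI_diag he]
    exact tendsto_const_nhds
  rw [tendsto_order]
  constructor
  · intro a ha
    obtain ⟨F, hF⟩ := exists_lt_of_lt_ciSup ha
    obtain ⟨t, ht0, ht1, ht⟩ : ∃ t : ℝ, 0 < t ∧ t < 1 ∧ a < t * cap F W e := by
      have h0 : 0 ≤ cap F W e := cap_nonneg hW.nonneg
      rcases h0.eq_or_lt with h1 | h1
      · refine ⟨1 / 2, by norm_num, by norm_num, ?_⟩
        rw [← h1] at hF ⊢
        linarith
      · have h2 : a / cap F W e < 1 := by rwa [div_lt_one h1]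
        have h3 : max (a / cap F W e) 0 < 1 := max_lt h2 zero_lt_one
        have h4 : 0 ≤ max (a / cap F W e) 0 := le_max_right _ _
        refine ⟨(max (a / cap F W e) 0 + 1) / 2, by linarith, by linarith, ?_⟩
        rw [← div_lt_iff₀ h1]
        have := le_max_left (a / cap F W e) 0
        linarith
    have hev : ∀ᶠ n in l, ∀ f ∈ F, W f ≤ t⁻¹ * Wn n f := by
      rw [Filter.eventually_all_finset]
      intro f _
      rcases (hW.nonneg f).eq_or_lt with h1 | h1
      · refine Filter.Eventually.of_forall fun n => ?_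
        rw [← h1]
        exact mul_nonneg (inv_nonneg.mpr ht0.le) ((hWn n).nonneg f)
      · have h2 : t * W f < W f := by nlinarith
        filter_upwards [(tendsto_order.mp (hlim f)).1 _ h2] with n hn
        rw [← div_eq_inv_mul, le_div_iff₀ ht0]
        linarith
    filter_upwards [hev] with n hn
    have h1 := cap_scale he hW.nonneg (inv_pos.mpr ht0) hn
    have h2 : t * cap F W e ≤ cap F (Wn n) e := by
      calc t * cap F W e ≤ t * (t⁻¹ * cap F (Wn n) e) := mul_le_mul_of_nonneg_left h1 ht0.le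
        _ = cap F (Wn n) e := by field_simp
    exact lt_of_lt_of_le ht (h2.trans (cap_le_capI (hWn n) F e))
  · intro a ha
    set S := capI W e with hS
    obtain ⟨h, hh, hb⟩ : ∃ h : V → ℝ, dq h e = 1 ∧ ∀ F, en F W h ≤ S := by
      induction e using Sym2.ind with
      | _ x y =>
        rw [Sym2.mk_isDiag_iff] at he
        exact exists_opt hW.nonneg he fun F => cap_le_capI hW F _
    have hbdd : BddAbove (range fun F => en F W h) := by
      refine ⟨S, ?_⟩
      rintro _ ⟨F, rfl⟩
      exact hb F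
    set S' := ⨆ F, en F W h with hS'
    have hS'S : S' ≤ S := ciSup_le hb
    set δ := (a - S) / (c + 2) with hδ
    have hc2 : 0 < c + 2 := by linarith
    have hδ0 : 0 < δ := div_pos (by linarith) hc2
    obtain ⟨F0, hF0⟩ := exists_lt_of_lt_ciSup (show S' - δ < S' by linarith)
    have hF0lim : Tendsto (fun n => en F0 (Wn n) h) l (𝓝 (en F0 W h)) := by
      unfold en
      exact tendsto_finsetSum _ fun f _ => (hlim f).mul_const _
    have h1 : en F0 W h < S + δ := by linarith [hb F0]
    filter_upwards [(tendsto_order.mp hF0lim).2 _ h1] with n hn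
    have h2 : ∀ F, cap F (Wn n) e ≤ en F0 (Wn n) h + c * δ := by
      intro F
      refine (cap_le (hWn n).nonneg hh).trans ?_
      refine (en_mono (F' := F0 ∪ F) Finset.subset_union_right (hWn n).nonneg
        (fun _ _ => le_rfl) h).trans ?_
      have h3 : ∀ W : Sym2 V → ℝ, en (F0 ∪ F) W h = en F0 W h + en (F \ F0) W h := by
        intro W
        unfold en
        rw [← Finset.sum_union Finset.disjoint_sdiff, Finset.union_sdiff_self_eq_union]
      rw [h3]
      have h4 : en (F \ F0) (Wn n) h ≤ c * en (F \ F0) W h := by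
        unfold en
        rw [Finset.mul_sum]
        apply Finset.sum_le_sum
        intro f _
        rw [← mul_assoc]
        exact mul_le_mul_of_nonneg_right (hle n f) (dq_nonneg h f)
      have h5 : en (F \ F0) W h ≤ δ := by
        have h6 : en (F0 ∪ F) W h ≤ S' := le_ciSup hbdd (F0 ∪ F)
        rw [h3] at h6
        linarith
      have h6 := mul_le_mul_of_nonneg_left h5 hc
      linarith
    have h7 := capI_le h2
    have h8 : (c + 2) * δ = a - S := by
      rw [hδ]
      field_simp
    linarith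

lemma pr_tendsto {α : Type*} {l : Filter α} {Wn : α → Sym2 V → ℝ} (hW : LFW W)
    (hWn : ∀ n, LFW (Wn n)) {c : ℝ} (hc : 0 ≤ c) (hle : ∀ n f, Wn n f ≤ c * W f)
    (hlim : ∀ f, Tendsto (fun n => Wn n f) l (𝓝 (W f))) (e : Sym2 V) :
    Tendsto (fun n => pr (Wn n) e) l (𝓝 (pr W e)) := by
  rcases (capI_nonneg hW e).eq_or_lt with h0 | h0
  · have h1 : W e = 0 ∨ e.IsDiag := by
      by_cases he : e.IsDiag
      · exact Or.inr he
      · left
        have := self_le_capI hW he
        exact le_antisymm (by linarith) (hW.nonneg e)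
    have h2 : ∀ n, pr (Wn n) e = 0 := by
      intro n
      unfold pr
      rcases h1 with h1 | h1
      · have : Wn n e = 0 := by
          apply le_antisymm _ ((hWn n).nonneg e)
          have := hle n e
          rwa [h1, mul_zero] at this
        rw [this, zero_div]
      · rw [capI_diag h1, div_zero]
    have h3 : pr W e = 0 := by
      unfold pr
      rw [← h0, div_zero]
    simp only [h2, h3]
    exact tendsto_const_nhds
  · exact (hlim e).div (capI_tendsto hW hWn hc hle hlim e) h0.ne'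

lemma measurable_cap [Countable V] (F : Finset (Sym2 V)) (e : Sym2 V) :
    Measurable fun W : Sym2 V → ℝ => cap F (fun f => max (W f) 0) e := by
  by_cases he : e.IsDiag
  · simp only [cap_diag he]
    exact measurable_const
  have : Countable (Sym2 V) := by
    unfold Sym2
    infer_instance
  apply measurable_of_Iio
  intro c
  have h1 : (fun W : Sym2 V → ℝ => cap F (fun f => max (W f) 0) e) ⁻¹' Iio c
      = ⋃ (h : V → ℝ) (_ : dq h e = 1), {W | en F (fun f => max (W f) 0) h < c} := by
    ext W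
    simp only [Set.mem_preimage, Set.mem_Iio, Set.mem_iUnion, Set.mem_ofPred_eq]
    constructor
    · intro h
      obtain ⟨h0, h1, h2⟩ := exists_cap_lt he h
      exact ⟨h0, h1, h2⟩
    · rintro ⟨h0, h1, h2⟩
      exact lt_of_le_of_lt (cap_le (fun f => le_max_right _ _) h1) h2
  rw [h1]
  apply IsOpen.measurableSet
  apply isOpen_iUnion
  intro h
  apply isOpen_iUnion
  intro _
  apply isOpen_lt _ continuous_const
  unfold en
  exact continuous_finsetSum _ fun f _ => by fun_prop

lemma measurable_pr [Countable V] (e : Sym2 V) :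
    Measurable fun W : Sym2 V → ℝ => pr (fun f => max (W f) 0) e := by
  unfold pr
  apply Measurable.div
  · fun_prop
  · unfold capI
    have : Countable (Sym2 V) := by
      unfold Sym2
      infer_instance
    exact Measurable.iSup fun F => measurable_cap F e

/-- Relabelling. -/
lemma dq_map {V' : Type*} (σ : V ≃ V') (h : V' → ℝ) (f : Sym2 V) :
    dq h (Sym2.map σ f) = dq (fun v => h (σ v)) f := by
  induction f using Sym2.ind with
  | _ a b => rfl

/-- The relabelling of unordered pairs. -/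
def sEq {V' : Type*} (σ : V ≃ V') : Sym2 V ≃ Sym2 V' where
  toFun := Sym2.map σ
  invFun := Sym2.map σ.symm
  left_inv e := by rw [Sym2.map_map]; simp
  right_inv e := by rw [Sym2.map_map]; simp

lemma cap_map {V' : Type*} (σ : V ≃ V') (W : Sym2 V' → ℝ) (F : Finset (Sym2 V)) (e : Sym2 V) :
    cap ((sEq σ).finsetCongr F) W (Sym2.map σ e) = cap F (fun f => W (Sym2.map σ f)) e := by
  unfold cap
  congr 1
  ext r
  simp only [Set.mem_image, Set.mem_ofPred_eq]
  have h1 : ∀ h : V' → ℝ, en ((sEq σ).finsetCongr F) W h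
      = en F (fun f => W (Sym2.map σ f)) (fun v => h (σ v)) := by
    intro h
    unfold en
    rw [Equiv.finsetCongr_apply, Finset.sum_map]
    apply Finset.sum_congr rfl
    intro f _
    change W (Sym2.map σ f) * dq h (Sym2.map σ f) = _
    rw [dq_map]
  constructor
  · rintro ⟨h, h2, h3⟩
    refine ⟨fun v => h (σ v), ?_, ?_⟩
    · rwa [dq_map] at h2
    · rw [← h1]
      exact h3
  · rintro ⟨h, h2, h3⟩
    refine ⟨fun v => h (σ.symm v), ?_, ?_⟩
    · rw [dq_map]
      simpa using h2
    · rw [h1]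
      simpa using h3

lemma capI_map {V' : Type*} (σ : V ≃ V') (W : Sym2 V' → ℝ) (e : Sym2 V) :
    capI W (Sym2.map σ e) = capI (fun f => W (Sym2.map σ f)) e := by
  unfold capI
  rw [← Equiv.iSup_comp (sEq σ).finsetCongr]
  simp only [cap_map]

lemma pr_map {V' : Type*} (σ : V ≃ V') (W : Sym2 V' → ℝ) (e : Sym2 V) :
    pr W (Sym2.map σ e) = pr (fun f => W (Sym2.map σ f)) e := by
  unfold pr
  rw [capI_map]

end Vale.Agent.P143
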