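import Vale.Agent.P143.Main

/-!
Existence of exhaustions, uniqueness of the limit law.
-/

namespace Vale.Agent.P143

open MeasureTheory Set Filter Topology SimpleGraph

variable {V : Type*}

/-- Existence of an exhaustion by finite connected subgraphs. -/
lemma exists_exhaustion {G : SimpleGraph V} (hG : G.Connected)
    (hlf : ∀ v, (G.neighborSet v).Finite) :
    ∃ H : ℕ → G.Subgraph, (∀ n, (H n).verts.Finite) ∧ (∀ n, (H n).Connected) ∧ Monotone H ∧
      ⨆ n, H n = ⊤ := by
  obtain ⟨o⟩ := hG.nonempty
  let B : ℕ → Set V := fun n => Nat.rec {o} (fun _ S => S ∪ ⋃ v ∈ S, G.neighborSet v) n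
  have hBs : ∀ n, B (n + 1) = B n ∪ ⋃ v ∈ B n, G.neighborSet v := fun n => rfl
  have hBf : ∀ n, (B n).Finite := by
    intro n
    induction n with
    | zero => exact Set.finite_singleton o
    | succ n ih =>
      rw [hBs]
      exact ih.union (ih.biUnion fun v _ => hlf v)
  have hBm : Monotone B := by
    apply monotone_nat_of_le_succ
    intro n
    rw [hBs]
    exact Set.subset_union_left
  have hall : ∀ v, ∃ n, v ∈ B n := by
    intro v
    have h1 := (SimpleGraph.reachable_iff_reflTransGen o v).mp (hG.preconnected o v)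
    induction h1 with
    | refl => exact ⟨0, rfl⟩
    | @tail u w _ huw ih =>
      obtain ⟨n, hn⟩ := ih
      refine ⟨n + 1, Or.inr ?_⟩
      simp only [Set.mem_iUnion]
      exact ⟨u, hn, huw⟩
  let H : ℕ → G.Subgraph := fun n => (⊤ : G.Subgraph).induce (B n)
  have hadj : ∀ n u v, (H n).Adj u v ↔ u ∈ B n ∧ v ∈ B n ∧ G.Adj u v := by
    intro n u v
    change ((⊤ : G.Subgraph).induce (B n)).Adj u v ↔ _
    rw [Subgraph.induce_adj, Subgraph.top_adj]
  have ho : ∀ n, o ∈ B n := fun n => hBm (Nat.zero_le n) rfl
  have hreach : ∀ n, ∀ v ∈ B n, ∀ m, n ≤ m → ∀ (hv : v ∈ (H m).verts),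
      (H m).coe.Reachable ⟨o, ho m⟩ ⟨v, hv⟩ := by
    intro n
    induction n with
    | zero =>
      intro v hv m _ hv'
      have : v = o := hv
      subst this
      exact Reachable.refl _
    | succ n ih =>
      intro v hv m hm hv'
      rw [hBs] at hv
      rcases hv with hv | hv
      · exact ih v hv m (by omega) hv'
      · simp only [Set.mem_iUnion] at hv
        obtain ⟨u, hu, huv⟩ := hv
        have hum : u ∈ B m := hBm (by omega) hu
        have h1 := ih u hu m (by omega) hum
        refine h1.trans (Adj.reachable ?_)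
        change (H m).Adj u v
        rw [hadj]
        exact ⟨hum, hv', huv⟩
  refine ⟨H, fun n => hBf n, fun n => ?_, ?_, ?_⟩
  · have : Nonempty ((H n).verts) := ⟨⟨o, ho n⟩⟩
    refine ⟨⟨fun x y => ?_⟩⟩
    exact (hreach n x.1 x.2 n le_rfl x.2).symm.trans (hreach n y.1 y.2 n le_rfl y.2)
  · intro n m hnm
    refine ⟨hBm hnm, ?_⟩
    intro u v huv
    rw [hadj] at huv ⊢
    exact ⟨hBm hnm huv.1, hBm hnm huv.2.1, huv.2.2⟩
  · ext u v
    · rw [Subgraph.verts_iSup]
      simp only [Set.mem_iUnion, Subgraph.verts_top, Set.mem_univ, iff_true]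
      exact hall u
    · rw [Subgraph.iSup_adj, Subgraph.top_adj]
      constructor
      · rintro ⟨n, hn⟩
        exact ((hadj n u v).mp hn).2.2
      · intro huv
        obtain ⟨n, hn⟩ := hall u
        obtain ⟨m, hm⟩ := hall v
        exact ⟨max n m, (hadj _ _ _).mpr ⟨hBm (le_max_left _ _) hn, hBm (le_max_right _ _) hm,
          huv⟩⟩

/-- A probability measure on `{0,1}^ι` is determined by its finite marginals. -/
lemma measure_unique {ι : Type*} {μ ν : Measure (ι → Bool)} [IsProbabilityMeasure μ]
    [IsProbabilityMeasure ν]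
    (h : ∀ (A : Finset ι) (η : ι → Bool),
      μ.real {ω | ∀ e ∈ A, ω e = η e} = ν.real {ω | ∀ e ∈ A, ω e = η e}) : μ = ν := by
  classical
  have hall : ∀ A : Finset ι, μ.map A.restrict = ν.map A.restrict := by
    intro A
    apply Measure.ext_of_singleton
    intro a
    have hms : Measurable (A.restrict (π := fun _ => Bool)) := Finset.measurable_restrict A
    rw [Measure.map_apply hms (measurableSet_singleton a),
      Measure.map_apply hms (measurableSet_singleton a)]
    set η : ι → Bool := fun v => if hv : v ∈ A then a ⟨v, hv⟩ else true with hη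
    have hset : (A.restrict (π := fun _ => Bool)) ⁻¹' {a} = {ω | ∀ e ∈ A, ω e = η e} := by
      ext ω
      simp only [Set.mem_preimage, Set.mem_singleton_iff, Set.mem_ofPred_eq]
      constructor
      · intro h2 v hv
        rw [hη]
        beta_reduce
        rw [dif_pos hv, ← h2]
        rfl
      · intro h2
        funext v
        have h3 := h2 v v.2
        rw [hη] at h3
        beta_reduce at h3
        rw [dif_pos v.2] at h3
        exact h3
    rw [hset]
    have h1 := h A η
    unfold Measure.real at h1
    rwa [ENNReal.toReal_eq_toReal_iff' (measure_ne_top _ _) (measure_ne_top _ _)] at h1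
  have hmeas : ∀ D : Finset ι, IsFiniteMeasure (ν.map (D.restrict (π := fun _ => Bool))) := by
    intro D
    infer_instance
  have hp1 : IsProjectiveLimit μ (fun D : Finset ι => ν.map (D.restrict (π := fun _ => Bool))) :=
    fun D => hall D
  have hp2 : IsProjectiveLimit ν (fun D : Finset ι => ν.map (D.restrict (π := fun _ => Bool))) :=
    fun D => rfl
  exact hp1.unique hp2

end Vale.Agent.P143
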