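import Vale.Agent.P143.Dir
import Vale.Agent.P161.Input

/-!
Edge noise from vertex labels.
-/

namespace Vale.Agent.P143

open MeasureTheory Set Filter Topology
open Vale.Agent.P161 (PP BM nu Om PO int_PO_eq spl inp map_inp measurable_inp map_spl
  measurable_spl)

set_option linter.unusedSectionVars false

/-- Selecting coordinates injectively preserves the iid law. -/
lemma map_inj {α κ : Type*} {j : α → κ} (hj : Function.Injective j) :
    (PP κ).map (fun x i => x (j i)) = PP α := by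
  classical
  unfold PP
  apply Measure.eq_infinitePi
  intro s t ht
  have hm : Measurable (fun (x : κ → ℝ) i => x (j i)) := by fun_prop
  rw [Measure.map_apply hm (MeasurableSet.pi s.countable_toSet fun i _ => ht i)]
  have hpre : (fun (x : κ → ℝ) i => x (j i)) ⁻¹' (Set.pi (s : Set α) t)
      = Set.pi ((s.image j : Finset κ) : Set κ) (Function.extend j t fun _ => Set.univ) := by
    ext x
    simp only [Set.mem_preimage, Set.mem_pi, Finset.mem_coe, Finset.mem_image]
    constructor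
    · rintro h k ⟨i, hi, rfl⟩
      rw [hj.extend_apply]
      exact h i hi
    · intro h i hi
      have := h (j i) ⟨i, hi, rfl⟩
      rwa [hj.extend_apply] at this
  rw [hpre, Measure.infinitePi_pi, Finset.prod_image]
  · apply Finset.prod_congr rfl
    intro i _
    rw [hj.extend_apply]
  · intro i _ j' _ h
    exact hj h
  · intro k hk
    obtain ⟨i, _, rfl⟩ := Finset.mem_image.mp hk
    rw [hj.extend_apply]
    exact ht i

open Classical in
/-- Extension by zero. -/
noncomputable def ext0 {ι : Type*} (A : Set ι) (x : A → ℝ) (i : ι) : ℝ :=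
  if h : i ∈ A then x ⟨i, h⟩ else 0

lemma measurable_ext0 {ι : Type*} (A : Set ι) : Measurable (ext0 A) := by
  rw [measurable_pi_iff]
  intro i
  unfold ext0
  by_cases h : i ∈ A
  · simp only [dif_pos h]
    exact measurable_pi_apply _
  · simp only [dif_neg h]
    exact measurable_const

/-- Functionals of finitely or infinitely many coordinates in `A`. -/
lemma int_restrict {ι κ : Type*} (A : Set ι) {J : A → κ} (hJ : Function.Injective J)
    {N : (κ → ℝ) → (ι → ℝ)} (hN : ∀ η, ∀ i : A, N η i = η (J i))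
    {Θ : (ι → ℝ) → ℝ} (hΘ : BM Θ)
    (hdep : ∀ x x' : ι → ℝ, (∀ i ∈ A, x i = x' i) → Θ x = Θ x') :
    ∫ η, Θ (N η) ∂(PP κ) = ∫ x, Θ x ∂(PP ι) := by
  have h0 : BM (fun z : A → ℝ => Θ (ext0 A z)) := hΘ.comp (measurable_ext0 A)
  have h1 : ∀ η, Θ (N η) = (fun z : A → ℝ => Θ (ext0 A z)) (fun i => η (J i)) := by
    intro η
    apply hdep
    intro i hi
    unfold ext0
    rw [dif_pos hi]
    exact hN η ⟨i, hi⟩
  have h2 : ∀ x, Θ x = (fun z : A → ℝ => Θ (ext0 A z)) (fun i => x i.1) := by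
    intro x
    apply hdep
    intro i hi
    unfold ext0
    rw [dif_pos hi]
  have m1 : Measurable (fun (η : κ → ℝ) (i : A) => η (J i)) := by fun_prop
  have m2 : Measurable (fun (x : ι → ℝ) (i : A) => x i.1) := by fun_prop
  calc ∫ η, Θ (N η) ∂(PP κ)
      = ∫ η, (fun z : A → ℝ => Θ (ext0 A z)) (fun i => η (J i)) ∂(PP κ) := by
        congr 1
        funext η
        exact h1 η
    _ = ∫ z, (fun z : A → ℝ => Θ (ext0 A z)) z ∂((PP κ).map (fun η i => η (J i))) :=
        (integral_map m1.aemeasurable h0.meas.aestronglyMeasurable).symm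
    _ = ∫ z, (fun z : A → ℝ => Θ (ext0 A z)) z ∂((PP ι).map (fun x (i : A) => x i.1)) := by
        rw [map_inj hJ, map_inj Subtype.val_injective]
    _ = ∫ x, (fun z : A → ℝ => Θ (ext0 A z)) (fun i => x i.1) ∂(PP ι) :=
        integral_map m2.aemeasurable h0.meas.aestronglyMeasurable
    _ = ∫ x, Θ x ∂(PP ι) := by
        congr 1
        funext x
        exact (h2 x).symm

variable {V : Type*}

open Classical in
/-- The rank of the neighbour `y` of `x`. -/
noncomputable def cnt (b : Sym2 V → ℝ) (ξ : V → ℝ) (x y : V) : ℕ :=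
  ⌊(∑' z, if b s(x, z) ≠ 0 ∧ ξ z < ξ y then (1 : ENNReal) else 0).toReal⌋₊

variable {b : Sym2 V → ℝ} {ξ : V → ℝ}

lemma nbr_finite (hb : LFW b) (x : V) : {z | b s(x, z) ≠ 0}.Finite := by
  have h1 : {z | b s(x, z) ≠ 0} ⊆ (fun z => s(x, z)) ⁻¹' {f : Sym2 V | x ∈ f ∧ b f ≠ 0} := by
    intro z hz
    exact ⟨Sym2.mem_mk_left x z, hz⟩
  apply Finite.subset _ h1
  apply (hb.fin x).preimage
  intro z _ z' _ h
  have h2 : s(x, z) = s(x, z') := h
  rw [Sym2.eq_iff] at h2
  rcases h2 with ⟨_, h⟩ | ⟨h3, h4⟩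
  · exact h
  · rw [h4, h3]

open Classical in
lemma cnt_eq (hb : LFW b) (ξ : V → ℝ) (x y : V) :
    cnt b ξ x y = ((nbr_finite hb x).toFinset.filter fun z => ξ z < ξ y).card := by
  unfold cnt
  rw [tsum_eq_sum (s := (nbr_finite hb x).toFinset.filter fun z => ξ z < ξ y)]
  · have h1 : ∀ z ∈ (nbr_finite hb x).toFinset.filter (fun z => ξ z < ξ y),
        (if b s(x, z) ≠ 0 ∧ ξ z < ξ y then (1 : ENNReal) else 0) = 1 := by
      intro z hz
      rw [Finset.mem_filter, Set.Finite.mem_toFinset] at hz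
      rw [if_pos ⟨hz.1, hz.2⟩]
    rw [Finset.sum_congr rfl h1, Finset.sum_const, nsmul_eq_mul, mul_one, ENNReal.toReal_natCast,
      Nat.floor_natCast]
  · intro z hz
    rw [if_neg]
    rintro ⟨h1, h2⟩
    apply hz
    rw [Finset.mem_filter, Set.Finite.mem_toFinset]
    exact ⟨h1, h2⟩

lemma cnt_lt (hb : LFW b) {x y y' : V} (hy : b s(x, y) ≠ 0) (h : ξ y < ξ y') :
    cnt b ξ x y < cnt b ξ x y' := by
  classical
  rw [cnt_eq hb, cnt_eq hb]
  apply Finset.card_lt_card
  rw [Finset.ssubset_iff_of_subset]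
  · refine ⟨y, ?_, ?_⟩
    · rw [Finset.mem_filter, Set.Finite.mem_toFinset]
      exact ⟨hy, h⟩
    · rw [Finset.mem_filter]
      rintro ⟨_, h2⟩
      exact lt_irrefl _ h2
  · intro z hz
    rw [Finset.mem_filter] at hz ⊢
    exact ⟨hz.1, hz.2.trans h⟩

lemma cnt_inj (hb : LFW b) (hξ : Function.Injective ξ) {x y y' : V} (hy : b s(x, y) ≠ 0)
    (hy' : b s(x, y') ≠ 0) (h : cnt b ξ x y = cnt b ξ x y') : y = y' := by
  rcases lt_trichotomy (ξ y) (ξ y') with h1 | h1 | h1
  · have := cnt_lt hb hy h1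
    omega
  · exact hξ h1
  · have := cnt_lt hb hy' h1
    omega

lemma measurable_cnt [Countable V] {Ω : Type*} [MeasurableSpace Ω] {b : Ω → Sym2 V → ℝ}
    {ξ : Ω → V → ℝ} (hb : ∀ f, Measurable fun ω => b ω f) (hξ : ∀ v, Measurable fun ω => ξ ω v)
    (x y : V) : Measurable fun ω => cnt (b ω) (ξ ω) x y := by
  classical
  unfold cnt
  apply Nat.measurable_floor.comp
  apply ENNReal.measurable_toReal.comp
  apply Measurable.tsum
  intro z
  apply Measurable.ite _ measurable_const measurable_const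
  apply MeasurableSet.inter
  · exact (hb s(x, z)) (measurableSet_singleton (0 : ℝ)).compl
  · exact measurableSet_lt (hξ z) (hξ y)

lemma cnt_map {V' : Type*} (σ : V ≃ V') (b : Sym2 V' → ℝ) (ξ : V' → ℝ) (x y : V) :
    cnt b ξ (σ x) (σ y) = cnt (fun f => b (Sym2.map σ f)) (fun v => ξ (σ v)) x y := by
  classical
  unfold cnt
  rw [← Equiv.tsum_eq σ]
  congr 2

/-- Oriented noise. -/
noncomputable def nz (b : Sym2 V → ℝ) (ω : Om V) (x y : V) (r : ℕ) : ℝ :=
  ω.2 (x, Nat.pair (cnt b ω.1 x y) r)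

open Classical in
/-- The edge noise. -/
noncomputable def Nz (b : Sym2 V → ℝ) (ω : Om V) (e : Sym2 V × ℕ) : ℝ :=
  Sym2.lift ⟨fun x y => if ω.1 x < ω.1 y then nz b ω x y e.2
    else if ω.1 y < ω.1 x then nz b ω y x e.2 else 0, by
      intro x y
      beta_reduce
      rcases lt_trichotomy (ω.1 x) (ω.1 y) with h | h | h
      · rw [if_pos h, if_neg h.le.not_gt, if_pos h]
      · rw [if_neg h.le.not_gt, if_neg h.ge.not_gt]
        simp [h]
      · rw [if_neg h.le.not_gt, if_pos h, if_pos h]⟩ e.1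

open Classical in
lemma Nz_mk (b : Sym2 V → ℝ) (ω : Om V) (x y : V) (r : ℕ) :
    Nz b ω (s(x, y), r) = if ω.1 x < ω.1 y then nz b ω x y r
      else if ω.1 y < ω.1 x then nz b ω y x r else 0 := rfl

lemma measurable_nz [Countable V] {Ω : Type*} [MeasurableSpace Ω] {b : Ω → Sym2 V → ℝ}
    {w : Ω → Om V} (hb : ∀ f, Measurable fun ω => b ω f) (hw : Measurable w) (x y : V) (r : ℕ) :
    Measurable fun ω => nz (b ω) (w ω) x y r := by
  unfold nz
  have h1 : Measurable (fun p : ℕ × (V × ℕ → ℝ) => p.2 (x, Nat.pair p.1 r)) :=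
    measurable_from_prod_countable_right fun k => measurable_pi_apply (x, Nat.pair k r)
  exact h1.comp ((measurable_cnt hb
    (fun v => (measurable_pi_apply v).comp (measurable_fst.comp hw)) x y).prodMk
      (measurable_snd.comp hw))

lemma measurable_Nz [Countable V] {Ω : Type*} [MeasurableSpace Ω] {b : Ω → Sym2 V → ℝ}
    {w : Ω → Om V} (hb : ∀ f, Measurable fun ω => b ω f) (hw : Measurable w)
    (e : Sym2 V × ℕ) : Measurable fun ω => Nz (b ω) (w ω) e := by
  classical
  obtain ⟨f, r⟩ := e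
  have h1 : ∀ v, Measurable fun ω => (w ω).1 v :=
    fun v => (measurable_pi_apply v).comp (measurable_fst.comp hw)
  induction f using Sym2.ind with
  | _ x y =>
    simp only [Nz_mk]
    apply Measurable.ite (measurableSet_lt (h1 x) (h1 y)) (measurable_nz hb hw x y r)
    exact Measurable.ite (measurableSet_lt (h1 y) (h1 x)) (measurable_nz hb hw y x r)
      measurable_const

lemma Nz_map {V' : Type*} (σ : V ≃ V') (b : Sym2 V' → ℝ) (ω : Om V') (e : Sym2 V × ℕ) :
    Nz b ω (Sym2.map σ e.1, e.2)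
      = Nz (fun f => b (Sym2.map σ f)) (fun v => ω.1 (σ v), fun e => ω.2 (σ e.1, e.2)) e := by
  classical
  obtain ⟨f, r⟩ := e
  induction f using Sym2.ind with
  | _ x y =>
    change Nz b ω (s(σ x, σ y), r) = _
    rw [Nz_mk, Nz_mk]
    unfold nz
    simp only [cnt_map]

/-- The law of the edge noise. -/
lemma Nz_law [Countable V] [DecidableEq V] (hb : LFW b) (hbd : ∀ f : Sym2 V, f.IsDiag → b f = 0)
    {Θ : (Sym2 V × ℕ → ℝ) → ℝ} (hΘ : BM Θ)
    (hdep : ∀ x x' : Sym2 V × ℕ → ℝ, (∀ e : Sym2 V × ℕ, b e.1 ≠ 0 → x e = x' e) →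
      Θ x = Θ x') :
    ∫ ω, Θ (Nz b ω) ∂(PO V) = ∫ x, Θ x ∂(PP (Sym2 V × ℕ)) := by
  classical
  have hNm : Measurable (Nz b) := by
    rw [measurable_pi_iff]
    intro e
    exact measurable_Nz (b := fun _ => b) (w := fun ω => ω) (fun _ => measurable_const)
      measurable_id e
  apply int_PO_eq (hΘ.comp hNm)
  intro ξ hξ
  set A : Set (Sym2 V × ℕ) := {e | b e.1 ≠ 0} with hA
  have hex : ∀ e : A, ∃ p : V × V, e.1.1 = s(p.1, p.2) ∧ ξ p.1 < ξ p.2 := by
    rintro ⟨⟨f, r⟩, he⟩
    have he' : b f ≠ 0 := he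
    induction f using Sym2.ind with
    | _ x y =>
      have hne : x ≠ y := by
        intro hxy
        exact he' (hbd _ (by rw [Sym2.mk_isDiag_iff]; exact hxy))
      rcases lt_trichotomy (ξ x) (ξ y) with h | h | h
      · exact ⟨(x, y), rfl, h⟩
      · exact absurd (hξ h) hne
      · exact ⟨(y, x), Sym2.eq_swap, h⟩
  choose p hp1 hp2 using hex
  set J : A → V × ℕ := fun e => ((p e).1, Nat.pair (cnt b ξ (p e).1 (p e).2) e.1.2) with hJ
  have hJi : Function.Injective J := by
    intro e e' h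
    rw [hJ] at h
    simp only [Prod.mk.injEq] at h
    obtain ⟨h1, h2⟩ := h
    obtain ⟨h3, h4⟩ := Nat.pair_eq_pair.mp h2
    rw [← h1] at h3
    have hb1 : b s((p e).1, (p e).2) ≠ 0 := by
      rw [← hp1 e]
      exact e.2
    have hb2 : b s((p e).1, (p e').2) ≠ 0 := by
      rw [h1, ← hp1 e']
      exact e'.2
    have h5 := cnt_inj hb hξ hb1 hb2 h3
    apply Subtype.ext
    apply Prod.ext
    · rw [hp1 e, hp1 e', h1, h5]
    · exact h4
  apply int_restrict A hJi _ hΘ
  · intro x x' h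
    apply hdep
    intro e he
    exact h e he
  · intro η e
    have h1 : e.1 = (s((p e).1, (p e).2), e.1.2) := Prod.ext (hp1 e) rfl
    rw [h1, Nz_mk]
    rw [if_pos (hp2 e)]
    rfl

/-- The law of the edge noise built from iid uniform labels. -/
lemma Nz_inp_law [Countable V] [DecidableEq V] {j : unitInterval → (ℕ → ℝ)} (hj : Measurable j)
    (hmap : (volume : Measure unitInterval).map j = PP ℕ)
    (hb : LFW b) (hbd : ∀ f : Sym2 V, f.IsDiag → b f = 0)
    {Θ : (Sym2 V × ℕ → ℝ) → ℝ} (hΘ : BM Θ)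
    (hdep : ∀ x x' : Sym2 V × ℕ → ℝ, (∀ e : Sym2 V × ℕ, b e.1 ≠ 0 → x e = x' e) →
      Θ x = Θ x') :
    ∫ u, Θ (Nz b (inp j u)) ∂(Measure.infinitePi fun _ : V => (volume : Measure unitInterval))
      = ∫ x, Θ x ∂(PP (Sym2 V × ℕ)) := by
  have hNm : Measurable (Nz b) := by
    rw [measurable_pi_iff]
    intro e
    exact measurable_Nz (b := fun _ => b) (w := fun ω => ω) (fun _ => measurable_const)
      measurable_id e
  rw [← Nz_law hb hbd hΘ hdep, ← map_inp (V := V) hj hmap,
    integral_map (measurable_inp hj).aemeasurable (hΘ.comp hNm).meas.aestronglyMeasurable]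

end Vale.Agent.P143
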