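import Vale.Agent.P143.Kirch

/-!
Spanning trees of finite connected subgraphs.
-/

namespace Vale.Agent.P143

open SimpleGraph Set

set_option linter.unusedSectionVars false

variable {V : Type*} [DecidableEq V]

lemma reach_iff (T : Finset (Sym2 V)) (a b : V) :
    (fromEdgeSet (T : Set (Sym2 V))).Reachable a b ↔ Rch T a b := by
  rw [SimpleGraph.reachable_iff_reflTransGen]
  constructor
  · intro h
    exact Relation.ReflTransGen.mono (fun u v huv => (fromEdgeSet_adj _ |>.mp huv).1) _ _ h
  · intro h
    induction h with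
    | refl => exact Relation.ReflTransGen.refl
    | @tail b c _ h2 ih =>
      by_cases hbc : b = c
      · rw [← hbc]
        exact ih
      · exact ih.tail ((fromEdgeSet_adj _).mpr ⟨h2, hbc⟩)

lemma acyclic_iff {T : Finset (Sym2 V)} (hd : ∀ f ∈ T, ¬ f.IsDiag) :
    (fromEdgeSet (T : Set (Sym2 V))).IsAcyclic ↔ Acy T := by
  rw [isAcyclic_iff_forall_adj_isBridge]
  have key : ∀ a b, (fromEdgeSet (T : Set (Sym2 V))).IsBridge s(a, b)
      ↔ ¬ Rch (T.erase s(a, b)) a b := by
    intro a b
    rw [isBridge_iff, ← reach_iff]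
    have : (fromEdgeSet (T : Set (Sym2 V))).deleteEdges {s(a, b)}
        = fromEdgeSet ((T.erase s(a, b) : Finset (Sym2 V)) : Set (Sym2 V)) := by
      ext u v
      rw [deleteEdges_adj, fromEdgeSet_adj, fromEdgeSet_adj, Finset.mem_coe, Finset.mem_coe,
        Finset.mem_erase, Set.mem_singleton_iff]
      tauto
    rw [this]
  constructor
  · intro h a b hab
    rw [← key]
    apply h
    rw [fromEdgeSet_adj]
    refine ⟨hab, ?_⟩
    have := hd _ hab
    rwa [Sym2.mk_isDiag_iff] at this
  · intro h a b hab
    rw [key]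
    exact h a b (fromEdgeSet_adj _ |>.mp hab).1

end Vale.Agent.P143
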