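import Vale.Agent.P143.Law
import Vale.Agent.P143.Dec
import Vale.Agent.P143.Noise
import Vale.Agent.P143.Tree

/-!
Assembly.
-/

namespace Vale.Agent.P143

open MeasureTheory Set Filter Topology SimpleGraph
open Vale.Agent.P161 (PP BM nu Om PO int_PO_eq spl inp map_inp measurable_inp map_spl
  measurable_spl)

set_option linter.unusedSectionVars false

variable {V : Type*}

/-- The weak observations as functions of the edge noise. -/
noncomputable def YY (b : Sym2 V → ℝ) (e : Sym2 V × ℕ) (z : Sym2 V × ℕ → ℝ) : ℝ :=
  2 * X b (spl z).1 (spl z).2 e - 1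

lemma abs_YY_le {b : Sym2 V → ℝ} (hb : LFW b) (e : Sym2 V × ℕ) (z : Sym2 V × ℕ → ℝ) :
    |YY b e z| ≤ 1 := by
  have := X_mem hb (spl z).1 (spl z).2 e
  unfold YY
  rw [abs_le]
  constructor <;> linarith [this.1, this.2]

lemma measurable_YY [Countable V] {Ω : Type*} [MeasurableSpace Ω] {b : Ω → Sym2 V → ℝ}
    {z : Ω → Sym2 V × ℕ → ℝ} (hb0 : ∀ ω f, 0 ≤ b ω f) (hb : ∀ f, Measurable fun ω => b ω f)
    (hz : ∀ e, Measurable fun ω => z ω e) (e : Sym2 V × ℕ) :
    Measurable fun ω => YY (b ω) e (z ω) := by
  unfold YY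
  apply Measurable.sub_const
  apply Measurable.const_mul
  exact measurable_X hb0 hb (fun f => hz (f, 0)) (fun e => hz (e.1, e.2 + 1)) e

/-- The infinite-volume observations. -/
lemma obs_YY [Countable V] [DecidableEq V] {b : Sym2 V → ℝ} (hb : LFW b)
    {F : ℕ → Finset (Sym2 V)} {D : ℕ → Set V} (hC : ∀ n, Conn (F n) (D n))
    (hle : ∀ n f, bF (F n) f ≤ b f)
    (hlim : ∀ f, Tendsto (fun n => bF (F n) f) atTop (𝓝 (b f))) :
    Obs (PP (Sym2 V × ℕ)) (fun n => Lam (F n) (D n)) sp (YY b) := by
  have hmX : ∀ (b : Sym2 V → ℝ), LFW b → ∀ e, Measurable (YY b e) := by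
    intro b hb e
    exact measurable_YY (b := fun _ => b) (z := fun z => z) (fun _ f => hb.nonneg f)
      (fun _ => measurable_const) (fun e => measurable_pi_apply e) e
  refine ⟨fun n => Lam_nonempty (hC n).conn, fun n => spin_sp, fun e => hmX b hb e,
    fun e z => abs_YY_le hb e z, ?_⟩
  intro E
  have hBM : ∀ b : Sym2 V → ℝ, LFW b → BM (fun z => ∏ e ∈ E, YY b e z) := by
    intro b hb
    refine ⟨Finset.measurable_prod E fun e _ => hmX b hb e, 1, fun z => ?_⟩
    rw [Finset.abs_prod]
    exact Finset.prod_le_one (fun _ _ => abs_nonneg _) (fun e _ => abs_YY_le hb e z)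
  have h1 : ∀ n, ∫ z, ∏ e ∈ E, YY (bF (F n)) e z ∂(PP (Sym2 V × ℕ))
      = (1 / 30) ^ E.card * EL (Lam (F n) (D n)) (fun T => ∏ e ∈ E, sp T e.1) := by
    intro n
    have h2 : ∫ ω, (∏ e ∈ E, (2 * X (bF (F n)) ω.1 ω.2 e - 1)) ∂(PO (Sym2 V))
        = (1 / 30) ^ E.card * EL (Lam (F n) (D n)) (fun T => ∏ e ∈ E, sp T e.1) := by
      apply int_PO_eq
      · refine ⟨Finset.measurable_prod E fun e _ => ?_, 1, fun ω => ?_⟩
        · apply Measurable.sub_const
          apply Measurable.const_mul
          exact measurable_X (b := fun _ => bF (F n)) (τ := fun ω : Om (Sym2 V) => ω.1)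
            (U := fun ω => ω.2) (fun _ f => (bF_LFW (F n)).nonneg f)
            (fun _ => measurable_const)
            (fun f => (measurable_pi_apply f).comp measurable_fst)
            (fun e => (measurable_pi_apply e).comp measurable_snd) e
        · rw [Finset.abs_prod]
          apply Finset.prod_le_one (fun _ _ => abs_nonneg _)
          intro e _
          have := X_mem (bF_LFW (F n)) ω.1 ω.2 e
          rw [abs_le]
          constructor <;> linarith [this.1, this.2]
      · intro τ hτ
        exact moment_X (hC n) hτ E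
    have hm : Measurable fun ω : Om (Sym2 V) =>
        ∏ e ∈ E, (2 * X (bF (F n)) ω.1 ω.2 e - 1) := by
      apply Finset.measurable_prod
      intro e _
      apply Measurable.sub_const
      apply Measurable.const_mul
      exact measurable_X (b := fun _ => bF (F n)) (τ := fun ω : Om (Sym2 V) => ω.1)
        (U := fun ω => ω.2) (fun _ f => (bF_LFW (F n)).nonneg f)
        (fun _ => measurable_const)
        (fun f => (measurable_pi_apply f).comp measurable_fst)
        (fun e => (measurable_pi_apply e).comp measurable_snd) e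
    rw [← h2, ← map_spl, integral_map measurable_spl.aemeasurable hm.aestronglyMeasurable]
    rfl
  have h3 : Tendsto (fun n => ∫ z, ∏ e ∈ E, YY (bF (F n)) e z ∂(PP (Sym2 V × ℕ))) atTop
      (𝓝 (∫ z, ∏ e ∈ E, YY b e z ∂(PP (Sym2 V × ℕ)))) := by
    apply tendsto_integral_of_dominated_convergence (fun _ => (1 : ℝ))
    · intro n
      exact (hBM _ (bF_LFW (F n))).meas.aestronglyMeasurable
    · exact integrable_const _
    · intro n
      refine Filter.Eventually.of_forall fun z => ?_
      rw [Real.norm_eq_abs, Finset.abs_prod]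
      exact Finset.prod_le_one (fun _ _ => abs_nonneg _)
        (fun e _ => abs_YY_le (bF_LFW (F n)) e z)
    · refine Filter.Eventually.of_forall fun z => ?_
      apply tendsto_finsetProd
      intro e _
      unfold YY
      exact ((X_tendsto hb (fun n => bF_LFW (F n)) hle hlim (spl z).1 (spl z).2 e).const_mul
        2).sub_const 1
  refine h3.congr fun n => ?_
  exact h1 n

open Classical in
/-- Base weights from an adjacency matrix. -/
noncomputable def bA (a : V → V → Bool) : Sym2 V → ℝ :=
  Sym2.lift ⟨fun x y => if x ≠ y ∧ a x y = true ∧ a y x = true then 1 else 0, by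
    intro x y
    have : (x ≠ y ∧ a x y = true ∧ a y x = true) ↔ (y ≠ x ∧ a y x = true ∧ a x y = true) := by
      rw [ne_comm]
      tauto
    simp only [this]⟩

open Classical in
lemma bA_mk (a : V → V → Bool) (x y : V) :
    bA a s(x, y) = if x ≠ y ∧ a x y = true ∧ a y x = true then 1 else 0 := rfl

lemma bA_nonneg (a : V → V → Bool) (f : Sym2 V) : 0 ≤ bA a f := by
  classical
  induction f using Sym2.ind with
  | _ x y =>
    rw [bA_mk]
    split_ifs
    · exact zero_le_one
    · exact le_rfl

lemma bA_diag (a : V → V → Bool) (f : Sym2 V) (h : f.IsDiag) : bA a f = 0 := by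
  classical
  induction f using Sym2.ind with
  | _ x y =>
    rw [Sym2.mk_isDiag_iff] at h
    rw [bA_mk, if_neg]
    rintro ⟨h1, _⟩
    exact h1 h

lemma measurable_bA (f : Sym2 V) : Measurable fun a : V → V → Bool => bA a f := by
  classical
  induction f using Sym2.ind with
  | _ x y =>
    simp only [bA_mk]
    apply Measurable.ite _ measurable_const measurable_const
    have h1 : Measurable fun a : V → V → Bool => a x y :=
      (measurable_pi_apply y).comp (measurable_pi_apply x)
    have h2 : Measurable fun a : V → V → Bool => a y x :=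
      (measurable_pi_apply x).comp (measurable_pi_apply y)
    apply MeasurableSet.inter
    · exact MeasurableSet.const _
    · exact MeasurableSet.inter (h1 (measurableSet_singleton true))
        (h2 (measurableSet_singleton true))

lemma bA_map {V' : Type*} (σ : V ≃ V') (a : V' → V' → Bool) :
    (fun f => bA a (Sym2.map σ f)) = bA fun x y => a (σ x) (σ y) := by
  classical
  funext f
  induction f using Sym2.ind with
  | _ x y =>
    change bA a s(σ x, σ y) = _
    rw [bA_mk, bA_mk]
    simp only [ne_eq, σ.apply_eq_iff_eq]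

open Classical in
/-- The factor map. -/
noncomputable def Phi (j : unitInterval → (ℕ → ℝ)) (a : V → V → Bool) (u : V → unitInterval)
    (f : Sym2 V) : Bool :=
  decide (0 < tt (YY (bA a)) f (Nz (bA a) (inp j u)))

lemma measurable_NN [Countable V] {j : unitInterval → (ℕ → ℝ)} (hj : Measurable j)
    (e : Sym2 V × ℕ) :
    Measurable fun p : (V → V → Bool) × (V → unitInterval) => Nz (bA p.1) (inp j p.2) e := by
  classical
  exact measurable_Nz (b := fun p : (V → V → Bool) × (V → unitInterval) => bA p.1)
    (w := fun p => inp j p.2) (fun f => (measurable_bA f).comp measurable_fst)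
    ((measurable_inp hj).comp measurable_snd) e

lemma measurable_YYN [Countable V] {j : unitInterval → (ℕ → ℝ)} (hj : Measurable j)
    (e : Sym2 V × ℕ) :
    Measurable fun p : (V → V → Bool) × (V → unitInterval) =>
      YY (bA p.1) e (Nz (bA p.1) (inp j p.2)) :=
  measurable_YY (b := fun p : (V → V → Bool) × (V → unitInterval) => bA p.1)
    (z := fun p => Nz (bA p.1) (inp j p.2)) (fun p f => bA_nonneg p.1 f)
    (fun f => (measurable_bA f).comp measurable_fst) (fun e => measurable_NN hj e) e

lemma measurable_ttN [Countable V] {j : unitInterval → (ℕ → ℝ)} (hj : Measurable j)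
    (f : Sym2 V) :
    Measurable fun p : (V → V → Bool) × (V → unitInterval) =>
      tt (YY (bA p.1)) f (Nz (bA p.1) (inp j p.2)) := by
  apply Measurable.limsup
  intro k
  unfold avY
  apply Measurable.const_mul
  exact Finset.measurable_sum _ fun r _ => measurable_YYN hj (f, r)

/-- Joint measurability of the factor map. -/
lemma measurable_Phi [Countable V] {j : unitInterval → (ℕ → ℝ)} (hj : Measurable j)
    (f : Sym2 V) :
    Measurable fun p : (V → V → Bool) × (V → unitInterval) => Phi j p.1 p.2 f := by
  classical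
  have hs : MeasurableSet {p : (V → V → Bool) × (V → unitInterval) |
      0 < tt (YY (bA p.1)) f (Nz (bA p.1) (inp j p.2))} :=
    measurableSet_lt measurable_const (measurable_ttN hj f)
  have he : (fun p : (V → V → Bool) × (V → unitInterval) => Phi j p.1 p.2 f)
      = fun p => if 0 < tt (YY (bA p.1)) f (Nz (bA p.1) (inp j p.2)) then true else false := by
    funext p
    unfold Phi
    by_cases h : 0 < tt (YY (bA p.1)) f (Nz (bA p.1) (inp j p.2))
    · rw [if_pos h, decide_eq_true h]
    · rw [if_neg h, decide_eq_false h]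
  rw [he]
  exact Measurable.ite hs measurable_const measurable_const

/-- Exact equivariance of the factor map. -/
lemma Phi_map {V' : Type*} (j : unitInterval → (ℕ → ℝ)) (σ : V ≃ V') (a : V' → V' → Bool)
    (u : V' → unitInterval) (f : Sym2 V) :
    Phi j a u (Sym2.map σ f) = Phi j (fun x y => a (σ x) (σ y)) (fun v => u (σ v)) f := by
  have h1 : ∀ e : Sym2 V × ℕ, Nz (bA a) (inp j u) (Sym2.map σ e.1, e.2)
      = Nz (bA fun x y => a (σ x) (σ y)) (inp j fun v => u (σ v)) e := by
    intro e
    rw [Nz_map, bA_map]
    rfl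
  have h2 : ∀ e : Sym2 V × ℕ, YY (bA a) (Sym2.map σ e.1, e.2) (Nz (bA a) (inp j u))
      = YY (bA fun x y => a (σ x) (σ y)) e
        (Nz (bA fun x y => a (σ x) (σ y)) (inp j fun v => u (σ v))) := by
    intro e
    unfold YY
    rw [X_map, bA_map]
    congr 3
    · funext f
      exact h1 (f, 0)
    · funext e
      exact h1 (e.1, e.2 + 1)
  unfold Phi tt avY
  congr 2
  have h3 : ∀ k : ℕ, ∀ r ∈ Finset.range (4 ^ k),
      YY (bA a) (Sym2.map σ f, r) (Nz (bA a) (inp j u))
      = YY (bA fun x y => a (σ x) (σ y)) (f, r)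
        (Nz (bA fun x y => a (σ x) (σ y)) (inp j fun v => u (σ v))) :=
    fun k r _ => h2 (f, r)
  congr 1
  funext k
  rw [Finset.sum_congr rfl (h3 k)]

end Vale.Agent.P143
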