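import Vale.Agent.P143.Dir

/-!
Kirchhoff's effective resistance formula for weighted spanning trees.
-/

namespace Vale.Agent.P143

open Set

set_option linter.unusedSectionVars false

variable {V : Type*} [DecidableEq V]

/-- Reachability through the edges in `T`. -/
def Rch (T : Finset (Sym2 V)) : V → V → Prop := Relation.ReflTransGen fun u v => s(u, v) ∈ T

variable {T T' F : Finset (Sym2 V)} {a b c u v x y : V}

lemma Rch.refl (T : Finset (Sym2 V)) (a : V) : Rch T a a := Relation.ReflTransGen.refl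

lemma Rch.trans (h : Rch T a b) (h' : Rch T b c) : Rch T a c := Relation.ReflTransGen.trans h h'

lemma Rch.symm (h : Rch T a b) : Rch T b a := by
  induction h with
  | refl => exact Rch.refl _ _
  | tail _ h2 ih =>
    refine Rch.trans (Relation.ReflTransGen.single ?_) ih
    rwa [Sym2.eq_swap]

lemma Rch.edge (h : s(a, b) ∈ T) : Rch T a b := Relation.ReflTransGen.single h

lemma Rch.mono (hT : T ⊆ T') (h : Rch T a b) : Rch T' a b :=
  Relation.ReflTransGen.mono (fun _ _ h => hT h) _ _ h

/-- Splitting a path at an edge. -/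
lemma rch_erase (h : Rch T a b) (u v : V) : Rch (T.erase s(u, v)) a b
    ∨ (Rch (T.erase s(u, v)) a u ∧ Rch (T.erase s(u, v)) v b)
    ∨ (Rch (T.erase s(u, v)) a v ∧ Rch (T.erase s(u, v)) u b) := by
  induction h with
  | refl => exact Or.inl (Rch.refl _ _)
  | @tail b c _ h2 ih =>
    by_cases hf : s(b, c) = s(u, v)
    · rw [Sym2.eq_iff] at hf
      rcases hf with ⟨rfl, rfl⟩ | ⟨rfl, rfl⟩
      · rcases ih with ih | ⟨ih1, _⟩ | ⟨ih1, _⟩
        · exact Or.inr (Or.inl ⟨ih, Rch.refl _ _⟩)
        · exact Or.inr (Or.inl ⟨ih1, Rch.refl _ _⟩)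
        · exact Or.inl ih1
      · rcases ih with ih | ⟨ih1, _⟩ | ⟨ih1, _⟩
        · exact Or.inr (Or.inr ⟨ih, Rch.refl _ _⟩)
        · exact Or.inl ih1
        · exact Or.inr (Or.inr ⟨ih1, Rch.refl _ _⟩)
    · have h3 : Rch (T.erase s(u, v)) b c := Rch.edge (Finset.mem_erase.mpr ⟨hf, h2⟩)
      rcases ih with ih | ⟨ih1, ih2⟩ | ⟨ih1, ih2⟩
      · exact Or.inl (ih.trans h3)
      · exact Or.inr (Or.inl ⟨ih1, ih2.trans h3⟩)
      · exact Or.inr (Or.inr ⟨ih1, ih2.trans h3⟩)

/-- Acyclicity: every edge is a bridge. -/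
def Acy (T : Finset (Sym2 V)) : Prop := ∀ a b, s(a, b) ∈ T → ¬ Rch (T.erase s(a, b)) a b

lemma Acy.mono (h : Acy T') (hT : T ⊆ T') : Acy T := by
  intro a b hab hr
  exact h a b (hT hab) (hr.mono (Finset.erase_subset_erase _ hT))

/-- Spanning trees. -/
def Spn (D : Set V) (T : Finset (Sym2 V)) : Prop := Acy T ∧ ∀ a ∈ D, ∀ b ∈ D, Rch T a b

/-- Spanning forests with two components separating `x` and `y`. -/
def Fo (D : Set V) (x y : V) (T : Finset (Sym2 V)) : Prop :=
  Acy T ∧ ¬ Rch T x y ∧ ∀ z ∈ D, Rch T x z ∨ Rch T y z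

/-- Crossing edges. -/
def Cr (x : V) (T : Finset (Sym2 V)) (f : Sym2 V) : Prop :=
  ∃ u v, f = s(u, v) ∧ Rch T x u ∧ ¬ Rch T x v

lemma spn_erase {D : Set V} (hx : x ∈ D) (hy : y ∈ D) (hT : Spn D T) {f : Sym2 V}
    (hxy : ¬ Rch (T.erase f) x y) : Fo D x y (T.erase f) ∧ Cr x (T.erase f) f := by
  induction f using Sym2.ind with
  | _ u v =>
    have key : ∀ u v : V, ¬ Rch (T.erase s(u, v)) x y → Rch (T.erase s(u, v)) x u →
        Rch (T.erase s(u, v)) v y →
        Fo D x y (T.erase s(u, v)) ∧ Cr x (T.erase s(u, v)) s(u, v) := by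
      intro u v hxy h1 h2
      refine ⟨⟨hT.1.mono (Finset.erase_subset _ _), hxy, ?_⟩, ⟨u, v, rfl, h1, ?_⟩⟩
      · intro z hz
        rcases rch_erase (hT.2 x hx z hz) u v with h | ⟨_, h⟩ | ⟨h, _⟩
        · exact Or.inl h
        · exact Or.inr (h2.symm.trans h)
        · exact absurd (h.trans h2) hxy
      · intro h3
        exact hxy (h3.trans h2)
    rcases rch_erase (hT.2 x hx y hy) u v with h | ⟨h1, h2⟩ | ⟨h1, h2⟩
    · exact absurd h hxy
    · exact key u v hxy h1 h2
    · have := key v u
      rw [Sym2.eq_swap] at this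
      exact this hxy h1 h2

lemma fo_insert {D : Set V} (hF : ∀ u v, s(u, v) ∈ F → u ∈ D) (hT : Fo D x y T)
    {f : Sym2 V} (hf : f ∈ F) (hc : Cr x T f) :
    Spn D (insert f T) ∧ f ∉ T := by
  obtain ⟨u, v, rfl, hu, hv⟩ := hc
  obtain ⟨h1, h2, h3⟩ := hT
  have huD : u ∈ D := hF u v hf
  have hvD : v ∈ D := hF v u (by rwa [Sym2.eq_swap])
  have hfT : s(u, v) ∉ T := fun h => hv (hu.trans (Rch.edge h))
  have hyv : Rch T y v := (h3 v hvD).resolve_left hv
  have hsub : T ⊆ insert s(u, v) T := Finset.subset_insert _ _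
  have huv : Rch (insert s(u, v) T) u v := Rch.edge (Finset.mem_insert_self _ _)
  have hxz : ∀ z ∈ D, Rch (insert s(u, v) T) x z := by
    intro z hz
    rcases h3 z hz with h | h
    · exact h.mono hsub
    · exact (hu.mono hsub).trans (huv.trans ((hyv.symm.trans h).mono hsub))
  refine ⟨⟨?_, fun a ha b hb => (hxz a ha).symm.trans (hxz b hb)⟩, hfT⟩
  intro a b hab
  by_cases hf' : s(a, b) = s(u, v)
  · rw [hf', Finset.erase_insert hfT]
    intro h
    rw [Sym2.eq_iff] at hf'
    rcases hf' with ⟨rfl, rfl⟩ | ⟨rfl, rfl⟩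
    · exact hv (hu.trans h)
    · exact hv (hu.trans h.symm)
  · have habT : s(a, b) ∈ T := by
      rcases Finset.mem_insert.mp hab with h | h
      · exact absurd h hf'
      · exact h
    intro h
    have herase : ((insert s(u, v) T).erase s(a, b)).erase s(u, v) = T.erase s(a, b) := by
      ext g
      simp only [Finset.mem_erase, Finset.mem_insert]
      constructor
      · rintro ⟨hg1, hg2, hg3 | hg3⟩
        · exact absurd hg3 hg1
        · exact ⟨hg2, hg3⟩
      · rintro ⟨hg1, hg2⟩
        refine ⟨?_, hg1, Or.inr hg2⟩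
        rintro rfl
        exact hfT hg2
    have hsub2 : T.erase s(a, b) ⊆ T := Finset.erase_subset _ _
    rcases rch_erase h u v with h4 | ⟨h4, h5⟩ | ⟨h4, h5⟩
    · rw [herase] at h4
      exact h1 a b habT h4
    · rw [herase] at h4 h5
      exact hv (hu.trans ((h4.mono hsub2).symm.trans ((Rch.edge habT).trans (h5.mono hsub2).symm)))
    · rw [herase] at h4 h5
      exact hv (hu.trans ((h5.mono hsub2).trans ((Rch.edge habT).symm.trans (h4.mono hsub2))))

/-- Weight of an edge set. -/
noncomputable def wt (W : Sym2 V → ℝ) (T : Finset (Sym2 V)) : ℝ := ∏ f ∈ T, W f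

open Classical in
/-- The bijection between trees with a marked separating edge and forests with a marked
crossing edge. -/
lemma sum_bij_tree {D : Set V} (hF : ∀ u v, s(u, v) ∈ F → u ∈ D) (hx : x ∈ D) (hy : y ∈ D)
    (W : Sym2 V → ℝ) (H : Finset (Sym2 V) → Sym2 V → ℝ) :
    ∑ p ∈ (F.powerset ×ˢ F).filter
        (fun p => Spn D p.1 ∧ p.2 ∈ p.1 ∧ ¬ Rch (p.1.erase p.2) x y),
        wt W p.1 * H (p.1.erase p.2) p.2
      = ∑ p ∈ (F.powerset ×ˢ F).filter (fun p => Fo D x y p.1 ∧ Cr x p.1 p.2),
        wt W p.1 * W p.2 * H p.1 p.2 := by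
  refine Finset.sum_bij' (fun p _ => (p.1.erase p.2, p.2)) (fun p _ => (insert p.2 p.1, p.2))
    ?_ ?_ ?_ ?_ ?_
  · rintro ⟨T, f⟩ hp
    simp only [Finset.mem_filter, Finset.mem_product, Finset.mem_powerset] at hp ⊢
    obtain ⟨⟨h1, h2⟩, h3, h4, h5⟩ := hp
    exact ⟨⟨(Finset.erase_subset _ _).trans h1, h2⟩, spn_erase hx hy h3 h5⟩
  · rintro ⟨T, f⟩ hp
    simp only [Finset.mem_filter, Finset.mem_product, Finset.mem_powerset] at hp ⊢
    obtain ⟨⟨h1, h2⟩, h3, h4⟩ := hp
    obtain ⟨h5, h6⟩ := fo_insert hF h3 h2 h4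
    refine ⟨⟨?_, h2⟩, h5, Finset.mem_insert_self _ _, ?_⟩
    · intro g hg
      rcases Finset.mem_insert.mp hg with rfl | hg
      · exact h2
      · exact h1 hg
    · rw [Finset.erase_insert h6]
      exact h3.2.1
  · rintro ⟨T, f⟩ hp
    simp only [Finset.mem_filter, Finset.mem_product, Finset.mem_powerset] at hp
    simp only [Finset.insert_erase hp.2.2.1]
  · rintro ⟨T, f⟩ hp
    simp only [Finset.mem_filter, Finset.mem_product, Finset.mem_powerset] at hp
    obtain ⟨⟨h1, h2⟩, h3, h4⟩ := hp
    obtain ⟨h5, h6⟩ := fo_insert hF h3 h2 h4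
    simp only [Finset.erase_insert h6]
  · rintro ⟨T, f⟩ hp
    simp only [Finset.mem_filter, Finset.mem_product, Finset.mem_powerset] at hp
    simp only
    unfold wt
    rw [mul_comm (∏ f ∈ T.erase f, W f), Finset.mul_prod_erase T W hp.2.2.1]

/-- Product of gradients along an edge. -/
def bd (φ g : V → ℝ) : Sym2 V → ℝ :=
  Sym2.lift ⟨fun a b => (φ a - φ b) * (g a - g b), fun a b => by ring⟩

@[simp] lemma bd_mk (φ g : V → ℝ) (a b : V) : bd φ g s(a, b) = (φ a - φ b) * (g a - g b) := rfl

open Classical in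
/-- Indicator of the component of `x`. -/
noncomputable def ic (x : V) (T : Finset (Sym2 V)) (z : V) : ℝ := if Rch T x z then 1 else 0

open Classical in
/-- Telescoping along the path of the tree. -/
lemma telescope (hT : Acy T) (g : V → ℝ) (h : Rch T x y) :
    ∑ f ∈ T, (if Rch (T.erase f) x y then 0 else bd (ic x (T.erase f)) g f) = g x - g y := by
  induction h with
  | refl =>
    rw [sub_self]
    apply Finset.sum_eq_zero
    intro f _
    rw [if_pos (Rch.refl _ _)]
  | @tail b c h1 h2 ih =>
    have h3 : ∑ f ∈ T, ((if Rch (T.erase f) x c then 0 else bd (ic x (T.erase f)) g f)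
        - (if Rch (T.erase f) x b then 0 else bd (ic x (T.erase f)) g f)) = g b - g c := by
      rw [Finset.sum_eq_single s(b, c)]
      · have hn : ¬ (Rch (T.erase s(b, c)) x b ∧ Rch (T.erase s(b, c)) x c) := by
          rintro ⟨h4, h5⟩
          exact hT b c h2 (h4.symm.trans h5)
        have ho : Rch (T.erase s(b, c)) x b ∨ Rch (T.erase s(b, c)) x c := by
          rcases rch_erase h1 b c with h | ⟨h, _⟩ | ⟨h, _⟩
          · exact Or.inl h
          · exact Or.inl h
          · exact Or.inr h
        rw [bd_mk]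
        unfold ic
        by_cases hb : Rch (T.erase s(b, c)) x b
        · have hc : ¬ Rch (T.erase s(b, c)) x c := fun hc => hn ⟨hb, hc⟩
          simp only [if_pos hb, if_neg hc]
          ring
        · have hc := ho.resolve_left hb
          simp only [if_neg hb, if_pos hc]
          ring
      · intro f _ hf
        have h4 : Rch (T.erase f) b c := Rch.edge (Finset.mem_erase.mpr ⟨Ne.symm hf, h2⟩)
        have h5 : Rch (T.erase f) x c ↔ Rch (T.erase f) x b :=
          ⟨fun h => h.trans h4.symm, fun h => h.trans h4⟩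
        simp only [h5, sub_self]
      · intro h
        exact absurd h2 h
    rw [Finset.sum_sub_distrib, ih] at h3
    linarith

open Classical in
/-- The spanning trees. -/
noncomputable def Lam (F : Finset (Sym2 V)) (D : Set V) : Finset (Finset (Sym2 V)) :=
  F.powerset.filter (Spn D)

open Classical in
/-- The two-component forests. -/
noncomputable def Qf (F : Finset (Sym2 V)) (D : Set V) (x y : V) : Finset (Finset (Sym2 V)) :=
  F.powerset.filter (Fo D x y)

lemma mem_Lam {D : Set V} : T ∈ Lam F D ↔ T ⊆ F ∧ Spn D T := by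
  classical
  unfold Lam
  rw [Finset.mem_filter, Finset.mem_powerset]

/-- Existence of spanning trees. -/
lemma Lam_nonempty {D : Set V} (hc : ∀ a ∈ D, ∀ b ∈ D, Rch F a b) : (Lam F D).Nonempty := by
  classical
  obtain ⟨T, hT, hmin⟩ := Finset.exists_min_image
    (F.powerset.filter fun T => ∀ a ∈ D, ∀ b ∈ D, Rch T a b) (fun T => T.card)
    ⟨F, by
      rw [Finset.mem_filter]
      exact ⟨Finset.mem_powerset.mpr (Finset.Subset.refl _), hc⟩⟩
  rw [Finset.mem_filter, Finset.mem_powerset] at hT
  refine ⟨T, mem_Lam.mpr ⟨hT.1, ?_, hT.2⟩⟩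
  intro u v huv hr
  have h1 : T.erase s(u, v) ∈ F.powerset.filter fun T => ∀ a ∈ D, ∀ b ∈ D, Rch T a b := by
    rw [Finset.mem_filter, Finset.mem_powerset]
    refine ⟨(Finset.erase_subset _ _).trans hT.1, ?_⟩
    intro a ha b hb
    rcases rch_erase (hT.2 a ha b hb) u v with h | ⟨h, h'⟩ | ⟨h, h'⟩
    · exact h
    · exact h.trans (hr.trans h')
    · exact h.trans (hr.symm.trans h')
  have h2 := hmin _ h1
  have h3 := Finset.card_erase_lt_of_mem huv
  omega

/-- The partition function. -/
noncomputable def Zt (F : Finset (Sym2 V)) (D : Set V) (W : Sym2 V → ℝ) : ℝ :=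
  ∑ T ∈ Lam F D, wt W T

/-- The two-component partition function. -/
noncomputable def Zq (F : Finset (Sym2 V)) (D : Set V) (x y : V) (W : Sym2 V → ℝ) : ℝ :=
  ∑ T ∈ Qf F D x y, wt W T

/-- The potential. -/
noncomputable def phi (F : Finset (Sym2 V)) (D : Set V) (x y : V) (W : Sym2 V → ℝ) (z : V) : ℝ :=
  ∑ T ∈ Qf F D x y, wt W T * ic x T z

lemma bd_phi (D : Set V) (W : Sym2 V → ℝ) (g : V → ℝ) (f : Sym2 V) :
    bd (phi F D x y W) g f = ∑ T ∈ Qf F D x y, wt W T * bd (ic x T) g f := by
  induction f using Sym2.ind with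
  | _ a b =>
    simp only [bd_mk, phi]
    rw [← Finset.sum_sub_distrib, Finset.sum_mul]
    apply Finset.sum_congr rfl
    intro T _
    ring

lemma energy {D : Set V} (hF : ∀ u v, s(u, v) ∈ F → u ∈ D) (hx : x ∈ D) (hy : y ∈ D)
    (W : Sym2 V → ℝ) (g : V → ℝ) :
    ∑ f ∈ F, W f * bd (phi F D x y W) g f = Zt F D W * (g x - g y) := by
  classical
  have h1 := sum_bij_tree (F := F) hF hx hy W (fun T f => bd (ic x T) g f)
  have h2 : ∑ p ∈ (F.powerset ×ˢ F).filter
        (fun p => Spn D p.1 ∧ p.2 ∈ p.1 ∧ ¬ Rch (p.1.erase p.2) x y),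
        wt W p.1 * bd (ic x (p.1.erase p.2)) g p.2 = Zt F D W * (g x - g y) := by
    unfold Zt Lam
    rw [Finset.sum_mul, Finset.sum_filter, Finset.sum_filter, Finset.sum_product]
    apply Finset.sum_congr rfl
    intro T hT
    rw [Finset.mem_powerset] at hT
    simp only
    by_cases hS : Spn D T
    · rw [if_pos hS, ← telescope hS.1 g (hS.2 x hx y hy), Finset.mul_sum]
      rw [← Finset.sum_filter_add_sum_filter_not F (fun f => f ∈ T)]
      have h3 : ∑ f ∈ F.filter (fun f => ¬ f ∈ T),
          (if Spn D T ∧ f ∈ T ∧ ¬ Rch (T.erase f) x y then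
            wt W T * bd (ic x (T.erase f)) g f else 0) = 0 := by
        apply Finset.sum_eq_zero
        intro f hf
        rw [if_neg]
        rintro ⟨_, h, _⟩
        exact (Finset.mem_filter.mp hf).2 h
      rw [h3, add_zero]
      have h4 : F.filter (fun f => f ∈ T) = T := by
        ext f
        rw [Finset.mem_filter]
        exact ⟨fun h => h.2, fun h => ⟨hT h, h⟩⟩
      rw [h4]
      apply Finset.sum_congr rfl
      intro f hf
      by_cases hr : Rch (T.erase f) x y
      · rw [if_neg (fun h => h.2.2 hr), if_pos hr, mul_zero]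
      · rw [if_pos ⟨hS, hf, hr⟩, if_neg hr]
    · rw [if_neg hS]
      apply Finset.sum_eq_zero
      intro f _
      rw [if_neg (fun h => hS h.1)]
  have h3 : ∑ p ∈ (F.powerset ×ˢ F).filter (fun p => Fo D x y p.1 ∧ Cr x p.1 p.2),
        wt W p.1 * W p.2 * bd (ic x p.1) g p.2
      = ∑ f ∈ F, W f * bd (phi F D x y W) g f := by
    simp only [bd_phi, Finset.mul_sum]
    rw [Finset.sum_filter, Finset.sum_product_right]
    apply Finset.sum_congr rfl
    intro f _
    unfold Qf
    rw [Finset.sum_filter]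
    apply Finset.sum_congr rfl
    intro T _
    simp only
    by_cases hFo : Fo D x y T
    · rw [if_pos hFo]
      by_cases hC : Cr x T f
      · rw [if_pos ⟨hFo, hC⟩]
        ring
      · rw [if_neg (fun h => hC h.2)]
        have : bd (ic x T) g f = 0 := by
          induction f using Sym2.ind with
          | _ a b =>
            rw [bd_mk]
            have h5 : Rch T x a ↔ Rch T x b := by
              constructor
              · intro h
                by_contra hb
                exact hC ⟨a, b, rfl, h, hb⟩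
              · intro h
                by_contra ha
                exact hC ⟨b, a, Sym2.eq_swap, h, ha⟩
            unfold ic
            simp only [h5, sub_self, zero_mul]
        rw [this]
        ring
    · rw [if_neg hFo, if_neg (fun h => hFo h.1)]
  rw [← h2, ← h3]
  exact h1.symm

lemma phi_x (D : Set V) (W : Sym2 V → ℝ) : phi F D x y W x = Zq F D x y W := by
  unfold phi Zq ic
  apply Finset.sum_congr rfl
  intro T _
  rw [if_pos (Rch.refl _ _), mul_one]

lemma phi_y (D : Set V) (W : Sym2 V → ℝ) : phi F D x y W y = 0 := by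
  classical
  unfold phi ic
  apply Finset.sum_eq_zero
  intro T hT
  unfold Qf at hT
  rw [if_neg (Finset.mem_filter.mp hT).2.2.1, mul_zero]

/-- Trees through a given edge. -/
lemma tree_edge {D : Set V} (hF : ∀ u v, s(u, v) ∈ F → u ∈ D) (hx : x ∈ D) (hy : y ∈ D)
    (hxy : s(x, y) ∈ F) (W : Sym2 V → ℝ) :
    ∑ T ∈ Lam F D, wt W T * (if s(x, y) ∈ T then 1 else 0) = W s(x, y) * Zq F D x y W := by
  classical
  have h1 := sum_bij_tree (F := F) hF hx hy W (fun T f => if f = s(x, y) then 1 else 0)
  have h2 : ∑ p ∈ (F.powerset ×ˢ F).filter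
        (fun p => Spn D p.1 ∧ p.2 ∈ p.1 ∧ ¬ Rch (p.1.erase p.2) x y),
        wt W p.1 * (if p.2 = s(x, y) then 1 else 0)
      = ∑ T ∈ Lam F D, wt W T * (if s(x, y) ∈ T then 1 else 0) := by
    unfold Lam
    rw [Finset.sum_filter, Finset.sum_filter, Finset.sum_product]
    apply Finset.sum_congr rfl
    intro T hT
    simp only
    rw [Finset.sum_eq_single s(x, y)]
    · by_cases hS : Spn D T
      · by_cases hm : s(x, y) ∈ T
        · rw [if_pos ⟨hS, hm, hS.1 x y hm⟩, if_pos hS, if_pos rfl, if_pos hm]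
        · rw [if_neg (fun h => hm h.2.1), if_pos hS, if_neg hm, mul_zero]
      · rw [if_neg (fun h => hS h.1), if_neg hS]
    · intro f _ hf
      rw [if_neg hf, mul_zero, ite_self]
    · intro h
      exact absurd hxy h
  have h3 : ∑ p ∈ (F.powerset ×ˢ F).filter (fun p => Fo D x y p.1 ∧ Cr x p.1 p.2),
        wt W p.1 * W p.2 * (if p.2 = s(x, y) then 1 else 0)
      = W s(x, y) * Zq F D x y W := by
    unfold Zq Qf
    rw [Finset.mul_sum, Finset.sum_filter, Finset.sum_filter, Finset.sum_product]
    apply Finset.sum_congr rfl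
    intro T _
    simp only
    rw [Finset.sum_eq_single s(x, y)]
    · by_cases hFo : Fo D x y T
      · rw [if_pos ⟨hFo, x, y, rfl, Rch.refl _ _, hFo.2.1⟩, if_pos hFo, if_pos rfl]
        ring
      · rw [if_neg (fun h => hFo h.1), if_neg hFo]
    · intro f _ hf
      rw [if_neg hf, mul_zero, ite_self]
    · intro h
      exact absurd hxy h
  rw [← h2, ← h3]
  exact h1

lemma wt_pos {W : Sym2 V → ℝ} (hW : ∀ f ∈ F, 0 < W f) (hT : T ⊆ F) : 0 < wt W T :=
  Finset.prod_pos fun f hf => hW f (hT hf)

lemma Zt_pos {D : Set V} (hc : ∀ a ∈ D, ∀ b ∈ D, Rch F a b) {W : Sym2 V → ℝ}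
    (hW : ∀ f ∈ F, 0 < W f) : 0 < Zt F D W := by
  unfold Zt
  exact Finset.sum_pos (fun T hT => wt_pos hW (mem_Lam.mp hT).1) (Lam_nonempty hc)

/-- Kirchhoff's formula. -/
theorem kirchhoff {D : Set V} (hF : ∀ u v, s(u, v) ∈ F → u ∈ D)
    (hc : ∀ a ∈ D, ∀ b ∈ D, Rch F a b) {W : Sym2 V → ℝ} (hW0 : ∀ f, 0 ≤ W f)
    (hW : ∀ f ∈ F, 0 < W f) {e : Sym2 V} (he : e ∈ F) (hd : ¬ e.IsDiag) :
    ∑ T ∈ Lam F D, wt W T * (if e ∈ T then 1 else 0) = W e / cap F W e * Zt F D W := by
  classical
  induction e using Sym2.ind with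
  | _ x y =>
    have hx : x ∈ D := hF x y he
    have hy : y ∈ D := hF y x (by rwa [Sym2.eq_swap])
    rw [Sym2.mk_isDiag_iff] at hd
    have hZ := Zt_pos hc hW
    rw [tree_edge hF hx hy he]
    set Z := Zt F D W with hZdef
    set Z2 := Zq F D x y W with hZ2def
    have hen := fun g => energy (F := F) hF hx hy W g
    have hZ2nn : 0 ≤ Z2 := by
      rw [hZ2def]
      unfold Zq
      apply Finset.sum_nonneg
      intro T _
      unfold wt
      exact Finset.prod_nonneg fun f _ => hW0 f
    have hZ2 : 0 < Z2 := by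
      rcases hZ2nn.eq_or_lt with h0 | h0
      · exfalso
        have hall : ∀ T ∈ Qf F D x y, wt W T = 0 := by
          rw [hZ2def] at h0
          unfold Zq at h0
          exact (Finset.sum_eq_zero_iff_of_nonneg fun T _ => by
            unfold wt
            exact Finset.prod_nonneg fun f _ => hW0 f).mp h0.symm
        have hphi : ∀ z, phi F D x y W z = 0 := by
          intro z
          unfold phi
          apply Finset.sum_eq_zero
          intro T hT
          rw [hall T hT, zero_mul]
        have h1 := hen (fun v => if v = x then 1 else 0)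
        beta_reduce at h1
        rw [if_pos rfl, if_neg (Ne.symm hd)] at h1
        have h2 : ∑ f ∈ F, W f * bd (phi F D x y W) (fun v => if v = x then 1 else 0) f = 0 := by
          apply Finset.sum_eq_zero
          intro f _
          induction f using Sym2.ind with
          | _ a b =>
            rw [bd_mk, hphi, hphi]
            ring
        rw [h2] at h1
        linarith
      · exact h0
    set ψ : V → ℝ := fun z => phi F D x y W z / Z2 with hψ
    have hψx : ψ x = 1 := by
      rw [hψ]
      beta_reduce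
      rw [phi_x, div_self hZ2.ne']
    have hψy : ψ y = 0 := by
      rw [hψ]
      beta_reduce
      rw [phi_y, zero_div]
    have hen2 : ∀ g : V → ℝ, ∑ f ∈ F, W f * bd ψ g f = Z / Z2 * (g x - g y) := by
      intro g
      have h1 : ∀ f, W f * bd ψ g f = (W f * bd (phi F D x y W) g f) / Z2 := by
        intro f
        induction f using Sym2.ind with
        | _ a b =>
          rw [bd_mk, bd_mk, hψ]
          ring
      simp only [h1]
      rw [← Finset.sum_div, hen g]
      ring
    have hψen : en F W ψ = Z / Z2 := by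
      have h1 : en F W ψ = ∑ f ∈ F, W f * bd ψ ψ f := by
        unfold en
        apply Finset.sum_congr rfl
        intro f _
        congr 1
        induction f using Sym2.ind with
        | _ a b =>
          rw [bd_mk, dq_mk]
          ring
      rw [h1, hen2, hψx, hψy]
      ring
    have hcap : cap F W s(x, y) = Z / Z2 := by
      apply le_antisymm
      · rw [← hψen]
        apply cap_le hW0
        rw [dq_mk, hψx, hψy]
        norm_num
      · apply le_cap (by rwa [Sym2.mk_isDiag_iff])
        intro h hh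
        rw [dq_mk] at hh
        set s := h x - h y with hs
        have h1 : en F W (fun v => h v - s * ψ v)
            = en F W h - 2 * s * (Z / Z2 * s) + s ^ 2 * (Z / Z2) := by
          have h4 := hen2 h
          rw [← hs] at h4
          rw [← h4, ← hψen]
          unfold en
          rw [Finset.mul_sum, Finset.mul_sum, ← Finset.sum_sub_distrib, ← Finset.sum_add_distrib]
          apply Finset.sum_congr rfl
          intro f _
          induction f using Sym2.ind with
          | _ a b =>
            rw [bd_mk, dq_mk, dq_mk, dq_mk]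
            ring
        have h2 := en_nonneg (F := F) hW0 (fun v => h v - s * ψ v)
        rw [h1] at h2
        have h3 : 2 * s * (Z / Z2 * s) = 2 * s ^ 2 * (Z / Z2) := by ring
        rw [h3, hh] at h2
        linarith
    rw [hcap]
    field_simp

end Vale.Agent.P143
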