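import Vale.Agent.P143.Prior
import Vale.Agent.P143.Kirch

/-!
The law of the finite-volume sampler.
-/

namespace Vale.Agent.P143

open MeasureTheory Set Filter Topology
open Vale.Agent.P161 (cl cl_nonneg cl_le_one cl_mem cl_eq measurable_cl PP BM Indep DepOn
  int_resample Ie nu nu_eq_cl Ycl_BM QA measurable_QA integral_QA before before_irrefl
  before_trans before_total before_le rk rk_lt)

set_option linter.unusedSectionVars false

variable {V : Type*} [DecidableEq V] {F : Finset (Sym2 V)} {D : Set V}

/-- Connected finite edge sets. -/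
structure Conn (F : Finset (Sym2 V)) (D : Set V) : Prop where
  ends : ∀ u v, s(u, v) ∈ F → u ∈ D
  conn : ∀ a ∈ D, ∀ b ∈ D, Rch F a b
  nd : ∀ f ∈ F, ¬ f.IsDiag

/-- Base weights. -/
def bF (F : Finset (Sym2 V)) (f : Sym2 V) : ℝ := if f ∈ F then 1 else 0

lemma bF_LFW (F : Finset (Sym2 V)) : LFW (bF F) := by
  constructor
  · intro f
    unfold bF
    split_ifs
    · exact zero_le_one
    · exact le_rfl
  · intro a
    apply F.finite_toSet.subset
    rintro f ⟨_, h⟩
    unfold bF at h
    by_contra hf
    rw [Finset.mem_coe] at hf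
    exact h (if_neg hf)

lemma bF_ne {f : Sym2 V} : bF F f ≠ 0 ↔ f ∈ F := by
  unfold bF
  split_ifs with h <;> simp [h]

/-- Edge spins of a tree. -/
def sp (T : Finset (Sym2 V)) (f : Sym2 V) : ℝ := if f ∈ T then 1 else -1

lemma spin_sp : Spin (Lam F D) sp := by
  intro T _ f
  unfold sp
  split_ifs
  · exact Or.inl rfl
  · exact Or.inr rfl

/-- The observation set is closed under the past. -/
def GoodS (F : Finset (Sym2 V)) (τ : Sym2 V → ℝ) (S : Finset (Sym2 V × ℕ)) : Prop :=
  ∀ a ∈ S, ∀ e : Sym2 V × ℕ, e.1 ∈ F → before τ e a → e ∈ S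

/-- Likelihood of a tree. -/
lemma lk_eq {τ : Sym2 V → ℝ} {S0 : Finset (Sym2 V × ℕ)} {a : Sym2 V × ℕ}
    (h1 : ∀ e ∈ S0, before τ e a) (h2 : ∀ e : Sym2 V × ℕ, e.1 ∈ F → before τ e a → e ∈ S0)
    (x : Sym2 V × ℕ → ℝ) {T : Finset (Sym2 V)} (hT : T ⊆ F) :
    lk sp S0 x T = (∏ e ∈ S0, (1 - yy (x e))) * wt (Wt (bF F) τ x a) T := by
  classical
  have e1 : ∀ e ∈ S0, (1 + yy (x e) * sp T e.1)
      = (1 - yy (x e)) * (if e.1 ∈ T then rho (x e) else 1) := by
    intro e _
    have := abs_le.mp (abs_yy_le (x e))
    unfold sp rho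
    split_ifs
    · field_simp [show (1 - yy (x e)) ≠ 0 by linarith]
    · ring
  unfold lk
  rw [Finset.prod_congr rfl e1, Finset.prod_mul_distrib]
  congr 1
  rw [← Finset.prod_filter]
  unfold wt Wt
  have e2 : ∀ f ∈ T, bF F f * ∏ r ∈ Finset.range (a.2 + 1),
      (if before τ (f, r) a then rho (x (f, r)) else 1)
      = ∏ r ∈ Finset.range (a.2 + 1), (if before τ (f, r) a then rho (x (f, r)) else 1) := by
    intro f hf
    unfold bF
    rw [if_pos (hT hf), one_mul]
  rw [Finset.prod_congr rfl e2, ← Finset.prod_product'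
    (f := fun f r => if before τ (f, r) a then rho (x (f, r)) else 1)]
  rw [← Finset.prod_filter]
  apply Finset.prod_congr _ (fun _ _ => rfl)
  ext e
  rw [Finset.mem_filter, Finset.mem_filter, Finset.mem_product, Finset.mem_range]
  constructor
  · rintro ⟨h3, h4⟩
    have h5 := h1 e h3
    have h6 := before_le h5
    exact ⟨⟨h4, by omega⟩, h5⟩
  · rintro ⟨⟨h3, _⟩, h4⟩
    exact ⟨h2 e (hT h3) h4, h3⟩

lemma Wt_bF_pos (τ : Sym2 V → ℝ) (x : Sym2 V × ℕ → ℝ) (a : Sym2 V × ℕ) {f : Sym2 V}
    (hf : f ∈ F) : 0 < Wt (bF F) τ x a f := by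
  unfold Wt bF
  rw [if_pos hf, one_mul]
  exact Finset.prod_pos fun r _ => fac_pos τ x a f r

/-- The posterior mean. -/
lemma posterior (hC : Conn F D) {τ : Sym2 V → ℝ} {S0 : Finset (Sym2 V × ℕ)} {a : Sym2 V × ℕ}
    (h1 : ∀ e ∈ S0, before τ e a) (h2 : ∀ e : Sym2 V × ℕ, e.1 ∈ F → before τ e a → e ∈ S0)
    (x : Sym2 V × ℕ → ℝ) :
    ZF (Lam F D) sp S0 (fun T => sp T a.1) x
      = (2 * pr (Wt (bF F) τ x a) a.1 - 1) * den (Lam F D) sp S0 x := by
  classical
  set W := Wt (bF F) τ x a with hWdef
  set K := ∏ e ∈ S0, (1 - yy (x e)) with hK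
  have hLF := Wt_LFW (bF_LFW F) τ x a
  have hlk : ∀ T ∈ Lam F D, lk sp S0 x T = K * wt W T :=
    fun T hT => lk_eq h1 h2 x (mem_Lam.mp hT).1
  have hden : den (Lam F D) sp S0 x = K * Zt F D W / (Lam F D).card := by
    unfold den ZF EL Zt
    rw [Finset.mul_sum]
    congr 1
    apply Finset.sum_congr rfl
    intro T hT
    beta_reduce
    rw [hlk T hT, mul_one]
  have hnum : ZF (Lam F D) sp S0 (fun T => sp T a.1) x
      = K * (2 * (∑ T ∈ Lam F D, wt W T * (if a.1 ∈ T then 1 else 0)) - Zt F D W)
        / (Lam F D).card := by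
    unfold ZF EL Zt
    rw [mul_sub, ← mul_assoc, Finset.mul_sum, Finset.mul_sum, ← Finset.sum_sub_distrib]
    congr 1
    apply Finset.sum_congr rfl
    intro T hT
    beta_reduce
    rw [hlk T hT]
    unfold sp
    split_ifs <;> ring
  rw [hden, hnum]
  by_cases ha : a.1 ∈ F
  · rw [kirchhoff hC.ends hC.conn hLF.nonneg (fun f hf => Wt_bF_pos τ x a hf) ha (hC.nd _ ha)]
    have h3 : capI W a.1 = cap F W a.1 := by
      apply capI_eq_cap hLF (hC.nd _ ha)
      intro f hf
      unfold Wt bF
      rw [if_neg hf, zero_mul]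
    unfold pr
    rw [h3]
    ring
  · have h3 : ∑ T ∈ Lam F D, wt W T * (if a.1 ∈ T then 1 else 0) = 0 := by
      apply Finset.sum_eq_zero
      intro T hT
      rw [if_neg (fun h => ha ((mem_Lam.mp hT).1 h)), mul_zero]
    have h4 : pr W a.1 = 0 := by
      unfold pr
      have : W a.1 = 0 := by
        rw [hWdef]
        unfold Wt bF
        rw [if_neg ha, zero_mul]
      rw [this, zero_div]
    rw [h3, h4]
    ring

/-- The hybrid vector. -/
noncomputable def XS (F : Finset (Sym2 V)) (S : Finset (Sym2 V × ℕ)) (τ : Sym2 V → ℝ)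
    (U : Sym2 V × ℕ → ℝ) : Sym2 V × ℕ → ℝ := fun e => if e ∈ S then X (bF F) τ U e else U e

/-- The law of the finite-volume sampler. -/
theorem law_X [Countable V] (hC : Conn F D) {τ : Sym2 V → ℝ} (hτ : Function.Injective τ)
    (n : ℕ) :
    ∀ (S : Finset (Sym2 V × ℕ)), GoodS F τ S → S.card = n →
      ∀ (f : (Sym2 V × ℕ → ℝ) → ℝ), BM f →
      ∫ U, f (XS F S τ U) ∂(PP (Sym2 V × ℕ))
        = ∫ x, f x * den (Lam F D) sp S x ∂(PP (Sym2 V × ℕ)) := by
  classical
  have hne : (Lam F D).Nonempty := Lam_nonempty hC.conn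
  have hs : Spin (Lam F D) sp := spin_sp
  have hb := bF_LFW F
  induction n with
  | zero =>
    intro S _ hS f _
    rw [Finset.card_eq_zero] at hS
    subst hS
    simp only [den_empty hne, mul_one]
    congr 1
  | succ n ih =>
    intro S hgood hS f hf
    have hne2 : S.Nonempty := by
      rw [← Finset.card_pos]
      omega
    obtain ⟨a, haS, hmax⟩ := Finset.exists_max_image S (fun e => rk S τ e) hne2
    have hbef : ∀ e ∈ S, ¬ before τ a e := by
      intro e he hb
      have h2 := rk_lt haS hb
      have h3 := hmax e he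
      omega
    set S0 := S.erase a with hS0
    have haS0 : a ∉ S0 := Finset.notMem_erase _ _
    have hins : insert a S0 = S := Finset.insert_erase haS
    have hcard : S0.card = n := by
      rw [hS0, Finset.card_erase_of_mem haS, hS]
      rfl
    have hbef2 : ∀ e ∈ S0, before τ e a := by
      intro e he
      rcases before_total hτ (Finset.ne_of_mem_erase he) with h | h
      · exact h
      · exact absurd h (hbef e (Finset.mem_of_mem_erase he))
    have hpast : ∀ e : Sym2 V × ℕ, e.1 ∈ F → before τ e a → e ∈ S0 := by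
      intro e he hb
      rw [hS0, Finset.mem_erase]
      refine ⟨?_, hgood a haS e he hb⟩
      rintro rfl
      exact before_irrefl _ _ hb
    have hgood0 : GoodS F τ S0 := by
      intro c hc e he hb
      rw [hS0, Finset.mem_erase]
      refine ⟨?_, hgood c (Finset.mem_of_mem_erase hc) e he hb⟩
      rintro rfl
      exact hbef c (Finset.mem_of_mem_erase hc) hb
    set R : (Sym2 V × ℕ → ℝ) → (Sym2 V × ℕ → ℝ) := fun x =>
      Function.update x a (QA (dr (bF F) τ x a) (cl (x a))) with hR
    have hXS : ∀ U, XS F S τ U = R (XS F S0 τ U) := by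
      intro U
      funext e
      by_cases hea : e = a
      · subst hea
        rw [hR]
        beta_reduce
        rw [Function.update_self]
        have e1 : XS F S τ U e = X (bF F) τ U e := by
          unfold XS
          rw [if_pos haS]
        have e2 : XS F S0 τ U e = U e := by
          unfold XS
          rw [if_neg haS0]
        rw [e1, e2, X_fix hb]
        unfold St
        congr 1
        apply dr_congr
        intro e' he' hb'
        unfold XS
        rw [if_pos (hpast e' (bF_ne.mp he') hb')]
      · rw [hR]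
        beta_reduce
        rw [Function.update_of_ne hea]
        unfold XS
        by_cases heS : e ∈ S
        · have heS0 : e ∈ S0 := Finset.mem_erase.mpr ⟨hea, heS⟩
          rw [if_pos heS, if_pos heS0]
        · have heS0 : e ∉ S0 := fun h => heS (Finset.mem_of_mem_erase h)
          rw [if_neg heS, if_neg heS0]
    have hdrm : Measurable fun x : Sym2 V × ℕ → ℝ => dr (bF F) τ x a :=
      measurable_dr (Ω := Sym2 V × ℕ → ℝ) (b := fun _ => bF F) (τ := fun _ => τ)
        (x := fun x => x) (fun _ f => hb.nonneg f) (fun _ => measurable_const)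
        (fun _ => measurable_const) (fun e => measurable_pi_apply e) a
    have hRm : Measurable R := by
      rw [measurable_pi_iff]
      intro e
      by_cases hea : e = a
      · subst hea
        simp only [hR, Function.update_self]
        exact measurable_QA.comp (hdrm.prodMk (measurable_cl.comp (measurable_pi_apply e)))
      · simp only [hR, Function.update_of_ne hea]
        exact measurable_pi_apply e
    have hfR : BM (fun x => f (R x)) := hf.comp hRm
    have step1 : ∫ U, f (XS F S τ U) ∂(PP (Sym2 V × ℕ))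
        = ∫ x, f (R x) * den (Lam F D) sp S0 x ∂(PP (Sym2 V × ℕ)) := by
      simp only [hXS]
      exact ih S0 hgood0 hcard (fun x => f (R x)) hfR
    rw [step1, int_resample (hfR.mul (den_BM hne hs S0)) a,
      int_resample (hf.mul (den_BM hne hs S)) a]
    congr 1
    funext x
    have hdri : ∀ u, dr (bF F) τ (Function.update x a u) a = dr (bF F) τ x a := by
      intro u
      apply dr_congr
      intro e' _ hb'
      rw [Function.update_of_ne]
      rintro rfl
      exact before_irrefl _ _ hb'
    have hdeni : ∀ u, den (Lam F D) sp S0 (Function.update x a u) = den (Lam F D) sp S0 x :=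
      fun u => (den_depOn S0).indep haS0 x u
    set m := dr (bF F) τ x a with hm
    have hm1 : |m| < 1 := lt_of_le_of_lt (abs_dr_le hb τ x a) (by norm_num)
    unfold Ie
    have eL : ∀ u, f (R (Function.update x a u))
        * den (Lam F D) sp S0 (Function.update x a u)
        = (fun w => f (Function.update x a (QA m w)) * den (Lam F D) sp S0 x) (cl u) := by
      intro u
      rw [hdeni]
      simp only [hR]
      rw [hdri, Function.update_idem, Function.update_self]
    have eR : ∀ u, f (Function.update x a u) * den (Lam F D) sp S (Function.update x a u)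
        = f (Function.update x a u)
          * (den (Lam F D) sp S0 x * (1 + m * (2 * cl u - 1))) := by
      intro u
      have e3 : den (Lam F D) sp (insert a S0) (Function.update x a u)
          = den (Lam F D) sp S0 (Function.update x a u) + yy ((Function.update x a u) a)
            * ZF (Lam F D) sp S0 (fun T => sp T a.1 * 1) (Function.update x a u) :=
        ZF_insert haS0 _ _
      have e4 : ZF (Lam F D) sp S0 (fun T => sp T a.1 * 1) (Function.update x a u)
          = ZF (Lam F D) sp S0 (fun T => sp T a.1) x := by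
        simp only [mul_one]
        exact (ZF_depOn S0 _).indep haS0 x u
      rw [← hins, e3, hdeni, e4, posterior hC hbef2 hpast, Function.update_self, hm]
      unfold dr yy
      ring
    simp only [eL, eR]
    rw [nu_eq_cl (F := fun w => f (Function.update x a (QA m w)) * den (Lam F D) sp S0 x)]
    unfold nu
    rw [integral_QA hm1 (fun w => f (Function.update x a w) * den (Lam F D) sp S0 x)]
    apply setIntegral_congr_fun measurableSet_Icc
    intro u hu
    beta_reduce
    rw [cl_eq hu]
    ring

/-- Moments of the finite-volume observations. -/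
theorem moment_X [Countable V] (hC : Conn F D) {τ : Sym2 V → ℝ} (hτ : Function.Injective τ)
    (E : Finset (Sym2 V × ℕ)) :
    ∫ U, ∏ e ∈ E, (2 * X (bF F) τ U e - 1) ∂(PP (Sym2 V × ℕ))
      = (1 / 30) ^ E.card * EL (Lam F D) (fun T => ∏ e ∈ E, sp T e.1) := by
  classical
  have hne : (Lam F D).Nonempty := Lam_nonempty hC.conn
  have hs : Spin (Lam F D) sp := spin_sp
  have hb := bF_LFW F
  set S : Finset (Sym2 V × ℕ) :=
    (F ∪ E.image Prod.fst) ×ˢ Finset.range (E.sup (fun e => e.2) + 1) with hS
  have hES : E ⊆ S := by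
    intro e he
    rw [hS, Finset.mem_product, Finset.mem_union, Finset.mem_range]
    refine ⟨Or.inr (Finset.mem_image_of_mem _ he), ?_⟩
    have : e.2 ≤ E.sup (fun e => e.2) := Finset.le_sup (f := fun e : Sym2 V × ℕ => e.2) he
    omega
  have hgood : GoodS F τ S := by
    intro a ha e he hbe
    rw [hS, Finset.mem_product, Finset.mem_range] at ha ⊢
    have := before_le hbe
    exact ⟨Finset.mem_union_left _ he, by omega⟩
  have e1 : ∀ U, ∏ e ∈ E, (2 * X (bF F) τ U e - 1)
      = (fun x : Sym2 V × ℕ → ℝ => ∏ e ∈ E, (2 * cl (x e) - 1)) (XS F S τ U) := by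
    intro U
    beta_reduce
    apply Finset.prod_congr rfl
    intro e he
    unfold XS
    rw [if_pos (hES he), cl_eq (X_mem hb τ U e)]
  simp only [e1]
  have hdep : DepOn E (fun x : Sym2 V × ℕ → ℝ => ∏ e ∈ E, (2 * cl (x e) - 1)) := by
    intro x x' hx
    exact Finset.prod_congr rfl fun e he => by rw [hx e he]
  have h2 := law_X hC hτ _ S hgood rfl _ (Ycl_BM E)
  have h3 := int_den_mono hne hs hES (Ycl_BM E) hdep
  have h4 := moment_den hne hs E (fun _ => 1)
  beta_reduce at h2 h3 h4 ⊢
  rw [h2, h3]
  unfold den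
  rw [h4]
  simp only [mul_one]

end Vale.Agent.P143
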