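import Vale.Agent.P143.Fin

/-!
The law of the factor map.
-/

namespace Vale.Agent.P143

open MeasureTheory Set Filter Topology SimpleGraph
open Vale.Agent.P161 (PP BM nu Om PO int_PO_eq spl inp map_inp measurable_inp map_spl
  measurable_spl)

set_option linter.unusedSectionVars false

variable {V : Type*}

lemma tt_dep {b : Sym2 V → ℝ} {z z' : Sym2 V × ℕ → ℝ}
    (h : ∀ e : Sym2 V × ℕ, b e.1 ≠ 0 → z e = z' e) {f : Sym2 V} (hf : b f ≠ 0) :
    tt (YY b) f z = tt (YY b) f z' := by
  unfold tt avY
  congr 1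
  funext k
  congr 1
  apply Finset.sum_congr rfl
  intro r _
  unfold YY
  rw [X_dep (b := b) (τ' := (spl z').1) (U' := (spl z').2)]
  · intro f hf
    exact h (f, 0) hf
  · intro e he
    exact h (e.1, e.2 + 1) he
  · exact hf

/-- The law of the factor map in terms of edge noise. -/
lemma law_Phi [Countable V] [DecidableEq V] {j : unitInterval → (ℕ → ℝ)} (hj : Measurable j)
    (hmap : (volume : Measure unitInterval).map j = PP ℕ) {a : V → V → Bool}
    (hb : LFW (bA a)) (D : Finset (Sym2 V)) (hD : ∀ f ∈ D, bA a f ≠ 0) (B : Set (Sym2 V)) :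
    (Measure.infinitePi fun _ : V => (volume : Measure unitInterval)).real
        {u | ∀ f ∈ D, (Phi j a u f = true ↔ f ∈ B)}
      = (PP (Sym2 V × ℕ)).real {z | ∀ f ∈ D, (0 < tt (YY (bA a)) f z ↔ f ∈ B)} := by
  classical
  have hcount : Countable (Sym2 V) := by
    unfold Sym2
    infer_instance
  set A : Set (Sym2 V × ℕ → ℝ) := {z | ∀ f ∈ D, (0 < tt (YY (bA a)) f z ↔ f ∈ B)} with hA
  have hYm : ∀ e, Measurable (YY (bA a) e) := fun e =>
    measurable_YY (b := fun _ => bA a) (z := fun z => z) (fun _ f => hb.nonneg f)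
      (fun _ => measurable_const) (fun e => measurable_pi_apply e) e
  have hAm : MeasurableSet A := by
    have : A = ⋂ f ∈ D, {z | 0 < tt (YY (bA a)) f z ↔ f ∈ B} := by
      ext z
      simp [hA]
    rw [this]
    apply Finset.measurableSet_biInter
    intro f _
    have h2 : MeasurableSet {z | 0 < tt (YY (bA a)) f z} :=
      measurableSet_lt measurable_const (measurable_tt hYm f)
    by_cases hv : f ∈ B
    · simpa [hv] using h2
    · have : {z | 0 < tt (YY (bA a)) f z ↔ f ∈ B} = {z | 0 < tt (YY (bA a)) f z}ᶜ := by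
        ext z
        simp [hv]
      rw [this]
      exact h2.compl
  have hΘ : BM (A.indicator (fun _ => (1 : ℝ))) := by
    refine ⟨measurable_const.indicator hAm, 1, fun z => ?_⟩
    by_cases hz : z ∈ A
    · rw [Set.indicator_of_mem hz]
      norm_num
    · rw [Set.indicator_of_notMem hz]
      norm_num
  have hdep : ∀ z z' : Sym2 V × ℕ → ℝ, (∀ e : Sym2 V × ℕ, bA a e.1 ≠ 0 → z e = z' e) →
      A.indicator (fun _ => (1 : ℝ)) z = A.indicator (fun _ => (1 : ℝ)) z' := by
    intro z z' h
    have h1 : z ∈ A ↔ z' ∈ A := by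
      rw [hA]
      simp only [Set.mem_ofPred_eq]
      constructor
      · intro h2 f hf
        rw [← tt_dep h (hD f hf)]
        exact h2 f hf
      · intro h2 f hf
        rw [tt_dep h (hD f hf)]
        exact h2 f hf
    by_cases hz : z ∈ A
    · rw [Set.indicator_of_mem hz, Set.indicator_of_mem (h1.mp hz)]
    · rw [Set.indicator_of_notMem hz, Set.indicator_of_notMem (fun h => hz (h1.mpr h))]
  have key := Nz_inp_law hj hmap hb (bA_diag a) hΘ hdep
  have hNm : Measurable fun u : V → unitInterval => Nz (bA a) (inp j u) := by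
    rw [measurable_pi_iff]
    intro e
    exact measurable_Nz (b := fun _ => bA a) (w := fun u => inp j u)
      (fun _ => measurable_const) (measurable_inp hj) e
  have h1 : (fun u : V → unitInterval => A.indicator (fun _ => (1 : ℝ)) (Nz (bA a) (inp j u)))
      = ({u | ∀ f ∈ D, (Phi j a u f = true ↔ f ∈ B)}).indicator 1 := by
    funext u
    have h2 : Nz (bA a) (inp j u) ∈ A ↔ u ∈ {u | ∀ f ∈ D, (Phi j a u f = true ↔ f ∈ B)} := by
      rw [hA]
      simp only [Set.mem_ofPred_eq]
      unfold Phi
      simp only [decide_eq_true_eq]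
    by_cases hu : u ∈ {u | ∀ f ∈ D, (Phi j a u f = true ↔ f ∈ B)}
    · rw [Set.indicator_of_mem hu, Set.indicator_of_mem (h2.mpr hu)]
      rfl
    · rw [Set.indicator_of_notMem hu, Set.indicator_of_notMem (fun h => hu (h2.mp h))]
  have h2 : {u | ∀ f ∈ D, (Phi j a u f = true ↔ f ∈ B)} = (fun u => Nz (bA a) (inp j u)) ⁻¹' A := by
    ext u
    rw [hA]
    simp only [Set.mem_preimage, Set.mem_ofPred_eq]
    unfold Phi
    simp only [decide_eq_true_eq]
  have h3 : MeasurableSet {u | ∀ f ∈ D, (Phi j a u f = true ↔ f ∈ B)} := by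
    rw [h2]
    exact hNm hAm
  rw [h1, integral_indicator_one h3] at key
  rw [key]
  exact integral_indicator_one hAm

open Classical in
/-- The adjacency matrix of a graph. -/
noncomputable def code (G : SimpleGraph V) : V → V → Bool := fun x y => decide (G.Adj x y)

open Classical in
lemma bA_code (G : SimpleGraph V) (f : Sym2 V) :
    bA (code G) f = if f ∈ G.edgeSet then 1 else 0 := by
  induction f using Sym2.ind with
  | _ x y =>
    rw [bA_mk]
    unfold code
    simp only [decide_eq_true_eq, mem_edgeSet]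
    congr 1
    apply propext
    constructor
    · exact fun h => h.2.1
    · exact fun h => ⟨h.ne, h, h.symm⟩

lemma LFW_code {G : SimpleGraph V} (hlf : ∀ v, (G.neighborSet v).Finite) :
    LFW (bA (code G)) := by
  classical
  refine ⟨bA_nonneg _, fun a => ?_⟩
  apply ((hlf a).image fun w => s(a, w)).subset
  rintro f ⟨h1, h2⟩
  rw [bA_code] at h2
  have h3 : f ∈ G.edgeSet := by
    by_contra h
    exact h2 (if_neg h)
  induction f using Sym2.ind with
  | _ x y =>
    rw [Sym2.mem_iff] at h1
    rw [mem_edgeSet] at h3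
    rcases h1 with rfl | rfl
    · exact ⟨y, h3, rfl⟩
    · exact ⟨x, h3.symm, Sym2.eq_swap⟩

lemma edges_finite {G : SimpleGraph V} (H : G.Subgraph) (hfin : H.verts.Finite) :
    H.edgeSet.Finite := by
  apply ((hfin.prod hfin).image fun p => s(p.1, p.2)).subset
  intro f hf
  induction f using Sym2.ind with
  | _ x y =>
    rw [Subgraph.mem_edgeSet] at hf
    exact ⟨(x, y), ⟨H.edge_vert hf, H.edge_vert hf.symm⟩, rfl⟩

lemma conn_of_subgraph [DecidableEq V] {G : SimpleGraph V} (H : G.Subgraph)
    (hfin : H.verts.Finite) (hc : H.Connected) :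
    Conn (edges_finite H hfin).toFinset H.verts := by
  constructor
  · intro u v huv
    rw [Set.Finite.mem_toFinset, Subgraph.mem_edgeSet] at huv
    exact H.edge_vert huv
  · intro a ha b hb
    have h1 := hc.coe.preconnected ⟨a, ha⟩ ⟨b, hb⟩
    rw [SimpleGraph.reachable_iff_reflTransGen] at h1
    have h2 : ∀ c : H.verts, Relation.ReflTransGen H.coe.Adj ⟨a, ha⟩ c →
        Rch (edges_finite H hfin).toFinset a c := by
      intro c hc
      induction hc with
      | refl => exact Rch.refl _ _
      | @tail u v _ huv ih =>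
        refine ih.trans (Rch.edge ?_)
        rw [Set.Finite.mem_toFinset, Subgraph.mem_edgeSet]
        exact huv
    exact h2 _ h1
  · intro f hf
    rw [Set.Finite.mem_toFinset] at hf
    exact G.not_isDiag_of_mem_edgeSet (H.edgeSet_subset hf)

/-- Spanning trees as sets of edges. -/
def ISp {G : SimpleGraph V} (H : G.Subgraph) (T : Set (Sym2 V)) : Prop :=
  T ⊆ H.edgeSet ∧ (fromEdgeSet T).IsAcyclic ∧
    ∀ u ∈ H.verts, ∀ v ∈ H.verts, (fromEdgeSet T).Reachable u v

lemma ISp_iff [DecidableEq V] {G : SimpleGraph V} (H : G.Subgraph) (hfin : H.verts.Finite)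
    (T : Finset (Sym2 V)) :
    ISp H (T : Set (Sym2 V)) ↔ T ∈ Lam (edges_finite H hfin).toFinset H.verts := by
  rw [mem_Lam]
  unfold ISp Spn
  have h1 : ((T : Set (Sym2 V)) ⊆ H.edgeSet) ↔ T ⊆ (edges_finite H hfin).toFinset := by
    rw [Set.Finite.subset_toFinset]
  rw [h1]
  apply and_congr_right
  intro h2
  have h3 : ∀ f ∈ T, ¬ f.IsDiag := by
    intro f hf
    have := h2 hf
    rw [Set.Finite.mem_toFinset] at this
    exact G.not_isDiag_of_mem_edgeSet (H.edgeSet_subset this)
  rw [acyclic_iff h3]
  apply and_congr_right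
  intro _
  simp only [reach_iff]

open Classical in
lemma ncard_ISp {G : SimpleGraph V} (H : G.Subgraph) (hfin : H.verts.Finite)
    (Q : Set (Sym2 V) → Prop) :
    {T | ISp H T ∧ Q T}.ncard
      = ((Lam (edges_finite H hfin).toFinset H.verts).filter
        fun T : Finset (Sym2 V) => Q (T : Set (Sym2 V))).card := by
  have h1 : {T | ISp H T ∧ Q T} = (fun T : Finset (Sym2 V) => (T : Set (Sym2 V))) ''
      (((Lam (edges_finite H hfin).toFinset H.verts).filter
        fun T : Finset (Sym2 V) => Q (T : Set (Sym2 V)) : Finset (Finset (Sym2 V))) :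
          Set (Finset (Sym2 V))) := by
    ext T
    simp only [Set.mem_ofPred_eq, Set.mem_image, Finset.mem_coe, Finset.mem_filter]
    constructor
    · rintro ⟨h2, h3⟩
      have hTf : T.Finite := (edges_finite H hfin).subset h2.1
      refine ⟨hTf.toFinset, ⟨?_, ?_⟩, ?_⟩
      · rw [← ISp_iff H hfin, Set.Finite.coe_toFinset]
        exact h2
      · rw [Set.Finite.coe_toFinset]
        exact h3
      · rw [Set.Finite.coe_toFinset]
    · rintro ⟨T', ⟨h2, h3⟩, rfl⟩
      exact ⟨(ISp_iff H hfin T').mpr h2, h3⟩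
  rw [h1, Set.ncard_image_of_injective _ Finset.coe_injective, Set.ncard_coe_finset]

lemma EL_indicator {Ω' : Type*} (Λ : Finset Ω') (Q : Ω' → Prop) [DecidablePred Q] :
    EL Λ (fun T => if Q T then 1 else 0) = ((Λ.filter Q).card : ℝ) / Λ.card := by
  unfold EL
  rw [Finset.sum_boole]

/-- The main law statement. -/
theorem main_law [Countable V] (G : SimpleGraph V) (hlf : ∀ v, (G.neighborSet v).Finite)
    {j : unitInterval → (ℕ → ℝ)} (hj : Measurable j)
    (hmap : (volume : Measure unitInterval).map j = PP ℕ)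
    (H : ℕ → G.Subgraph) (hfin : ∀ n, (H n).verts.Finite) (hconn : ∀ n, (H n).Connected)
    (hmono : Monotone H) (hsup : ⨆ n, H n = ⊤) (A : Finset G.edgeSet) (η : G.edgeSet → Bool) :
    Tendsto (fun n => ({T | ISp (H n) T ∧ ∀ e ∈ A, ((e : Sym2 V) ∈ T ↔ η e = true)}.ncard : ℝ)
        / ({T | ISp (H n) T}.ncard : ℝ)) atTop
      (𝓝 ((Measure.infinitePi fun _ : V => (volume : Measure unitInterval)).real
        {u | ∀ e ∈ A, Phi j (code G) u e = η e})) := by
  classical
  set F : ℕ → Finset (Sym2 V) := fun n => (edges_finite (H n) (hfin n)).toFinset with hF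
  set D : ℕ → Set V := fun n => (H n).verts with hD
  have hb := LFW_code hlf
  have hC : ∀ n, Conn (F n) (D n) := fun n => conn_of_subgraph (H n) (hfin n) (hconn n)
  have hle : ∀ n f, bF (F n) f ≤ bA (code G) f := by
    intro n f
    rw [bA_code]
    unfold bF
    by_cases hf : f ∈ F n
    · rw [if_pos hf, if_pos]
      rw [hF, Set.Finite.mem_toFinset] at hf
      exact (H n).edgeSet_subset hf
    · rw [if_neg hf]
      split_ifs
      · exact zero_le_one
      · exact le_rfl
  have hlim : ∀ f, Tendsto (fun n => bF (F n) f) atTop (𝓝 (bA (code G) f)) := by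
    intro f
    apply tendsto_const_nhds.congr'
    rw [Filter.EventuallyEq, Filter.eventually_atTop]
    rw [bA_code]
    by_cases hf : f ∈ G.edgeSet
    · obtain ⟨N, hN⟩ : ∃ N, f ∈ (H N).edgeSet := by
        induction f using Sym2.ind with
        | _ x y =>
          rw [mem_edgeSet] at hf
          have h1 : (⨆ n, H n).Adj x y := by
            rw [hsup]
            exact hf
          rw [Subgraph.iSup_adj] at h1
          obtain ⟨N, hN⟩ := h1
          exact ⟨N, hN⟩
      refine ⟨N, fun n hn => ?_⟩
      unfold bF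
      rw [if_pos hf, if_pos]
      rw [hF, Set.Finite.mem_toFinset]
      exact Subgraph.edgeSet_mono (hmono hn) hN
    · refine ⟨0, fun n _ => ?_⟩
      unfold bF
      rw [if_neg hf, if_neg]
      rw [hF, Set.Finite.mem_toFinset]
      exact fun h => hf ((H n).edgeSet_subset h)
  have hobs := obs_YY hb hC hle hlim
  set B : Set (Sym2 V) := {f | ∃ h : f ∈ G.edgeSet, η ⟨f, h⟩ = true} with hB
  set A' : Finset (Sym2 V) := A.image Subtype.val with hA'
  have hBe : ∀ e : G.edgeSet, (e : Sym2 V) ∈ B ↔ η e = true := by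
    intro e
    rw [hB]
    constructor
    · rintro ⟨h, h2⟩
      exact h2
    · intro h
      exact ⟨e.2, h⟩
  have hlaw := law_tt hobs A' B
  have hphi := law_Phi hj hmap hb A' (by
    intro f hf
    rw [hA', Finset.mem_image] at hf
    obtain ⟨e, _, rfl⟩ := hf
    rw [bA_code, if_pos e.2]
    exact one_ne_zero) B
  rw [← hphi] at hlaw
  have hset : {u : V → unitInterval | ∀ f ∈ A', (Phi j (code G) u f = true ↔ f ∈ B)}
      = {u | ∀ e ∈ A, Phi j (code G) u e = η e} := by
    ext u
    simp only [Set.mem_ofPred_eq]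
    constructor
    · intro h e he
      have h1 := h e (by rw [hA']; exact Finset.mem_image_of_mem _ he)
      rw [hBe] at h1
      exact Bool.eq_iff_iff.mpr h1
    · intro h f hf
      rw [hA', Finset.mem_image] at hf
      obtain ⟨e, he, rfl⟩ := hf
      rw [hBe, h e he]
  rw [hset] at hlaw
  refine hlaw.congr fun n => ?_
  have h0 : EL (Lam (F n) (D n)) (fun T => if ∀ v ∈ A', (sp T v = 1 ↔ v ∈ B) then 1 else 0)
      = (((Lam (F n) (D n)).filter fun T => ∀ v ∈ A', (sp T v = 1 ↔ v ∈ B)).card : ℝ)
        / (Lam (F n) (D n)).card := by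
    convert EL_indicator (Lam (F n) (D n)) (fun T => ∀ v ∈ A', (sp T v = 1 ↔ v ∈ B))
  refine Eq.trans ?_ (h0.trans ?_)
  · apply EL_congr
    intro T _
    congr
  have h1 := ncard_ISp (H n) (hfin n) (fun T => ∀ e ∈ A, ((e : Sym2 V) ∈ T ↔ η e = true))
  have h2 := ncard_ISp (H n) (hfin n) (fun _ => True)
  simp only [and_true, Finset.filter_true] at h2
  rw [h1, h2]
  congr 3
  ext T
  simp only [Finset.mem_filter]
  apply and_congr_right
  intro _
  constructor
  · intro h e he
    have h3 := h e (by rw [hA']; exact Finset.mem_image_of_mem _ he)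
    rw [hBe] at h3
    rw [← h3, Finset.mem_coe]
    unfold sp
    by_cases hT : (e : Sym2 V) ∈ T
    · simp [hT]
    · simp only [hT, if_false, false_iff]
      norm_num
  · intro h f hf
    rw [hA', Finset.mem_image] at hf
    obtain ⟨e, he, rfl⟩ := hf
    have h3 := h e he
    rw [hBe, ← h3, Finset.mem_coe]
    unfold sp
    by_cases hT : (e : Sym2 V) ∈ T
    · simp [hT]
    · simp only [hT, if_false, iff_false]
      norm_num

/-- Connected locally finite graphs are countable. -/
lemma countable_of_connected {G : SimpleGraph V} (hG : G.Connected)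
    (hlf : ∀ v, (G.neighborSet v).Finite) : Countable V := by
  obtain ⟨o⟩ := hG.nonempty
  let B : ℕ → Set V := fun n => Nat.rec {o} (fun _ S => S ∪ ⋃ v ∈ S, G.neighborSet v) n
  have hBc : ∀ n, (B n).Countable := by
    intro n
    induction n with
    | zero => exact Set.countable_singleton o
    | succ n ih =>
      exact ih.union (ih.biUnion fun v _ => (hlf v).countable)
  have hall : ∀ v, ∃ n, v ∈ B n := by
    intro v
    have h1 := (SimpleGraph.reachable_iff_reflTransGen o v).mp (hG.preconnected o v)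
    induction h1 with
    | refl => exact ⟨0, rfl⟩
    | @tail u w _ huw ih =>
      obtain ⟨n, hn⟩ := ih
      refine ⟨n + 1, Or.inr ?_⟩
      simp only [Set.mem_iUnion]
      exact ⟨u, hn, huw⟩
  rw [← Set.countable_univ_iff]
  have : (Set.univ : Set V) = ⋃ n, B n := by
    ext v
    simp only [Set.mem_univ, Set.mem_iUnion, true_iff]
    exact hall v
  rw [this]
  exact Set.countable_iUnion hBc

end Vale.Agent.P143
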