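import Vale.Agent.P143.Samp
import Vale.Agent.P161.Moments

/-!
Weak observations of a uniformly chosen element of a finite set.
-/

namespace Vale.Agent.P143

open MeasureTheory Set Filter Topology
open Vale.Agent.P161 (cl cl_nonneg cl_le_one cl_mem cl_eq measurable_cl PP BM Indep DepOn
  int_resample Ie nu int_center int_center_sq Ycl_BM)

set_option linter.unusedSectionVars false

variable {ι Ω' : Type*} [DecidableEq ι] {Λ : Finset Ω'} {sp : Ω' → ι → ℝ}

/-- Uniform average over `Λ`. -/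
noncomputable def EL (Λ : Finset Ω') (G : Ω' → ℝ) : ℝ := (∑ T ∈ Λ, G T) / Λ.card

lemma EL_add (G H : Ω' → ℝ) : EL Λ (fun T => G T + H T) = EL Λ G + EL Λ H := by
  unfold EL
  rw [Finset.sum_add_distrib, add_div]

lemma EL_smul (c : ℝ) (G : Ω' → ℝ) : EL Λ (fun T => c * G T) = c * EL Λ G := by
  unfold EL
  rw [← Finset.mul_sum, mul_div_assoc]

lemma EL_const (h : Λ.Nonempty) (c : ℝ) : EL Λ (fun _ => c) = c := by
  unfold EL
  have : (Λ.card : ℝ) ≠ 0 := by
    exact_mod_cast (Finset.card_pos.mpr h).ne'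
  rw [Finset.sum_const, nsmul_eq_mul]
  field_simp

lemma EL_congr {G H : Ω' → ℝ} (h : ∀ T ∈ Λ, G T = H T) : EL Λ G = EL Λ H := by
  unfold EL
  rw [Finset.sum_congr rfl h]

lemma EL_mono {G H : Ω' → ℝ} (h : ∀ T ∈ Λ, G T ≤ H T) : EL Λ G ≤ EL Λ H := by
  unfold EL
  exact div_le_div_of_nonneg_right (Finset.sum_le_sum h) (Nat.cast_nonneg _)

lemma EL_pos (hne : Λ.Nonempty) {G : Ω' → ℝ} (h : ∀ T ∈ Λ, 0 < G T) : 0 < EL Λ G := by
  unfold EL
  apply div_pos (Finset.sum_pos h hne)
  exact_mod_cast Finset.card_pos.mpr hne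

lemma abs_EL_le (hne : Λ.Nonempty) {G : Ω' → ℝ} {c : ℝ} (h : ∀ T ∈ Λ, |G T| ≤ c) :
    |EL Λ G| ≤ c := by
  rw [abs_le]
  constructor
  · rw [← EL_const hne (-c)]
    exact EL_mono fun T hT => (abs_le.mp (h T hT)).1
  · conv_rhs => rw [← EL_const hne c]
    exact EL_mono fun T hT => (abs_le.mp (h T hT)).2

/-- Likelihood. -/
noncomputable def lk (sp : Ω' → ι → ℝ) (S : Finset (ι × ℕ)) (x : ι × ℕ → ℝ) (T : Ω') : ℝ :=
  ∏ e ∈ S, (1 + yy (x e) * sp T e.1)

/-- Unnormalized posterior expectation. -/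
noncomputable def ZF (Λ : Finset Ω') (sp : Ω' → ι → ℝ) (S : Finset (ι × ℕ)) (G : Ω' → ℝ)
    (x : ι × ℕ → ℝ) : ℝ := EL Λ (fun T => lk sp S x T * G T)

/-- Density of the observations. -/
noncomputable def den (Λ : Finset Ω') (sp : Ω' → ι → ℝ) (S : Finset (ι × ℕ))
    (x : ι × ℕ → ℝ) : ℝ := ZF Λ sp S (fun _ => 1) x

lemma lk_congr {S : Finset (ι × ℕ)} {x x' : ι × ℕ → ℝ} (h : ∀ e ∈ S, x e = x' e) (T : Ω') :
    lk sp S x T = lk sp S x' T := by
  unfold lk
  exact Finset.prod_congr rfl fun e he => by rw [h e he]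

lemma ZF_depOn (S : Finset (ι × ℕ)) (G : Ω' → ℝ) : DepOn S (ZF Λ sp S G) := by
  intro x x' h
  unfold ZF
  apply EL_congr
  intro T _
  rw [lk_congr h]

lemma ZF_insert {S : Finset (ι × ℕ)} {e : ι × ℕ} (he : e ∉ S) (G : Ω' → ℝ) (x : ι × ℕ → ℝ) :
    ZF Λ sp (insert e S) G x = ZF Λ sp S G x + yy (x e) * ZF Λ sp S (fun T => sp T e.1 * G T) x := by
  unfold ZF
  rw [← EL_smul, ← EL_add]
  apply EL_congr
  intro T _
  unfold lk
  rw [Finset.prod_insert he]
  ring

lemma ZF_empty (G : Ω' → ℝ) (x : ι × ℕ → ℝ) : ZF Λ sp ∅ G x = EL Λ G := by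
  unfold ZF lk
  simp

/-- Spins. -/
def Spin (Λ : Finset Ω') (sp : Ω' → ι → ℝ) : Prop := ∀ T ∈ Λ, ∀ i, sp T i = 1 ∨ sp T i = -1

lemma fac_mem (h : Spin Λ sp) {T : Ω'} (hT : T ∈ Λ) (i : ι) (y : ℝ) :
    0 < 1 + yy y * sp T i ∧ 1 + yy y * sp T i ≤ 2 := by
  have h1 := abs_le.mp (abs_yy_le y)
  rcases h T hT i with h2 | h2 <;> rw [h2] <;> constructor <;> linarith

lemma lk_mem (h : Spin Λ sp) {T : Ω'} (hT : T ∈ Λ) (S : Finset (ι × ℕ)) (x : ι × ℕ → ℝ) :
    0 < lk sp S x T ∧ lk sp S x T ≤ 2 ^ S.card := by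
  unfold lk
  refine ⟨Finset.prod_pos fun e _ => (fac_mem h hT e.1 _).1, ?_⟩
  rw [← Finset.prod_const]
  exact Finset.prod_le_prod (fun e _ => (fac_mem h hT e.1 _).1.le)
    fun e _ => (fac_mem h hT e.1 _).2

lemma ZF_BM (hne : Λ.Nonempty) (h : Spin Λ sp) (S : Finset (ι × ℕ)) (G : Ω' → ℝ) :
    BM (ZF Λ sp S G) := by
  refine ⟨?_, 2 ^ S.card * ∑ T ∈ Λ, |G T|, fun x => ?_⟩
  · unfold ZF EL lk
    apply Measurable.div_const
    apply Finset.measurable_sum
    intro T _
    apply Measurable.mul_const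
    apply Finset.measurable_prod
    intro e _
    exact ((measurable_yy.comp (measurable_pi_apply e)).mul_const _).const_add 1
  · unfold ZF
    apply abs_EL_le hne
    intro T hT
    have h1 := lk_mem h hT S x
    rw [abs_mul, abs_of_pos h1.1]
    apply mul_le_mul h1.2 _ (abs_nonneg _) (by positivity)
    exact Finset.single_le_sum (f := fun T => |G T|) (fun T _ => abs_nonneg _) hT

lemma den_pos (hne : Λ.Nonempty) (h : Spin Λ sp) (S : Finset (ι × ℕ)) (x : ι × ℕ → ℝ) :
    0 < den Λ sp S x := by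
  unfold den ZF
  apply EL_pos hne
  intro T hT
  rw [mul_one]
  exact (lk_mem h hT S x).1

lemma den_BM (hne : Λ.Nonempty) (h : Spin Λ sp) (S : Finset (ι × ℕ)) : BM (den Λ sp S) :=
  ZF_BM hne h S _

lemma den_depOn (S : Finset (ι × ℕ)) : DepOn S (den Λ sp S) := ZF_depOn S _

lemma den_empty (hne : Λ.Nonempty) (x : ι × ℕ → ℝ) : den Λ sp ∅ x = 1 := by
  unfold den
  rw [ZF_empty, EL_const hne]

lemma center_int : Integrable (fun u => 2 * cl u - 1) nu := by
  have : BM (fun u : ℝ => 2 * cl u - 1) := by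
    refine ⟨(measurable_cl.const_mul 2).sub_const 1, 1, fun u => ?_⟩
    rw [abs_le]
    constructor <;> linarith [cl_nonneg u, cl_le_one u]
  exact this.integrable _

lemma center_sq_int : Integrable (fun u => (2 * cl u - 1) ^ 2) nu := by
  have : BM (fun u : ℝ => 2 * cl u - 1) := by
    refine ⟨(measurable_cl.const_mul 2).sub_const 1, 1, fun u => ?_⟩
    rw [abs_le]
    constructor <;> linarith [cl_nonneg u, cl_le_one u]
  exact this.sq.integrable _

/-- Integrating out an extra observation. -/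
lemma int_ZF_insert (hne : Λ.Nonempty) (hs : Spin Λ sp) {S : Finset (ι × ℕ)} {e : ι × ℕ}
    (he : e ∉ S) (G : Ω' → ℝ) {h : (ι × ℕ → ℝ) → ℝ} (hh : BM h) (hi : Indep e h) :
    ∫ x, h x * ZF Λ sp (insert e S) G x ∂(PP (ι × ℕ))
      = ∫ x, h x * ZF Λ sp S G x ∂(PP (ι × ℕ)) := by
  rw [int_resample (hh.mul (ZF_BM hne hs _ _)) e]
  congr 1
  funext x
  unfold Ie
  have e1 : ∀ u, h (Function.update x e u) * ZF Λ sp (insert e S) G (Function.update x e u)
      = h x * ZF Λ sp S G x
        + h x * (1 / 10) * ZF Λ sp S (fun T => sp T e.1 * G T) x * (2 * cl u - 1) := by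
    intro u
    rw [hi x u, ZF_insert he]
    have e2 : ∀ G', ZF Λ sp S G' (Function.update x e u) = ZF Λ sp S G' x :=
      fun G' => (ZF_depOn S G').indep he x u
    rw [e2, e2, Function.update_self]
    unfold yy
    ring
  simp only [e1]
  have h2 : ∫ u, h x * (1 / 10) * ZF Λ sp S (fun T => sp T e.1 * G T) x * (2 * cl u - 1) ∂nu
      = 0 := by
    rw [integral_const_mul, int_center, mul_zero]
  rw [integral_add (integrable_const _) (center_int.const_mul _), h2]
  simp

lemma int_den_mono (hne : Λ.Nonempty) (hs : Spin Λ sp) {S S' : Finset (ι × ℕ)} (hSS : S ⊆ S')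
    {h : (ι × ℕ → ℝ) → ℝ} (hh : BM h) (hd : DepOn S h) :
    ∫ x, h x * den Λ sp S' x ∂(PP (ι × ℕ)) = ∫ x, h x * den Λ sp S x ∂(PP (ι × ℕ)) := by
  have key : ∀ R : Finset (ι × ℕ), Disjoint S R →
      ∫ x, h x * den Λ sp (S ∪ R) x ∂(PP (ι × ℕ)) = ∫ x, h x * den Λ sp S x ∂(PP (ι × ℕ)) := by
    intro R
    induction R using Finset.induction_on with
    | empty => intro _; rw [Finset.union_empty]
    | insert e R he ih =>
      intro hdis
      rw [Finset.disjoint_insert_right] at hdis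
      rw [← ih hdis.2, Finset.union_insert]
      apply int_ZF_insert hne hs _ _ hh (hd.indep hdis.1)
      rw [Finset.mem_union, not_or]
      exact ⟨hdis.1, he⟩
  have := key (S' \ S) Finset.disjoint_sdiff
  rwa [Finset.union_sdiff_of_subset hSS] at this

/-- Moments under the posterior density. -/
lemma moment_den (hne : Λ.Nonempty) (hs : Spin Λ sp) (S : Finset (ι × ℕ)) :
    ∀ G : Ω' → ℝ, ∫ x, (∏ e ∈ S, (2 * cl (x e) - 1)) * ZF Λ sp S G x ∂(PP (ι × ℕ))
      = (1 / 30) ^ S.card * EL Λ (fun T => (∏ e ∈ S, sp T e.1) * G T) := by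
  induction S using Finset.induction_on with
  | empty =>
    intro G
    simp only [Finset.prod_empty, one_mul, Finset.card_empty, pow_zero, ZF_empty]
    simp
  | insert a S ha ih =>
    intro G
    have hZ1 := ZF_BM hne hs (insert a S) G
    rw [int_resample ((Ycl_BM (insert a S)).mul hZ1) a]
    have key : Ie a (fun x => (∏ e ∈ insert a S, (2 * cl (x e) - 1)) * ZF Λ sp (insert a S) G x)
        = fun x => 1 / 30 * ((∏ e ∈ S, (2 * cl (x e) - 1))
          * ZF Λ sp S (fun T => sp T a.1 * G T) x) := by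
      funext x
      unfold Ie
      have hupd : ∀ e ∈ S, ∀ u, Function.update x a u e = x e := by
        intro e he u
        rw [Function.update_of_ne]
        rintro rfl
        exact ha he
      have e1 : ∀ u, (∏ e ∈ insert a S, (2 * cl (Function.update x a u e) - 1))
          * ZF Λ sp (insert a S) G (Function.update x a u)
          = ((∏ e ∈ S, (2 * cl (x e) - 1)) * ZF Λ sp S G x) * (2 * cl u - 1)
            + (1 / 10 * ((∏ e ∈ S, (2 * cl (x e) - 1)) * ZF Λ sp S (fun T => sp T a.1 * G T) x))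
              * (2 * cl u - 1) ^ 2 := by
        intro u
        have e2 : ∀ G', ZF Λ sp S G' (Function.update x a u) = ZF Λ sp S G' x :=
          fun G' => (ZF_depOn S G').indep ha x u
        rw [Finset.prod_insert ha, ZF_insert ha, e2, e2, Function.update_self,
          Finset.prod_congr rfl fun e he => by rw [hupd e he u]]
        unfold yy
        ring
      simp only [e1]
      rw [integral_add (center_int.const_mul _) (center_sq_int.const_mul _), integral_const_mul,
        integral_const_mul, int_center, int_center_sq]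
      ring
    rw [key, integral_const_mul, ih, Finset.card_insert_of_notMem ha, pow_succ]
    have e3 : EL Λ (fun T => (∏ e ∈ S, sp T e.1) * (sp T a.1 * G T))
        = EL Λ (fun T => (∏ e ∈ insert a S, sp T e.1) * G T) := by
      apply EL_congr
      intro T _
      rw [Finset.prod_insert ha]
      ring
    rw [e3]
    ring

end Vale.Agent.P143
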