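import Vale.Agent.P143.Dir
import Vale.Agent.P161.Sampler

/-!
The sampler of weak observations of a uniform spanning tree, as a contraction.
-/

namespace Vale.Agent.P143

open MeasureTheory Set Filter Topology
open Vale.Agent.P161 (cl cl_nonneg cl_le_one cl_mem cl_eq abs_cl_sub_cl_le measurable_cl QA QA_mem
  QA_lip measurable_QA before before_irrefl before_trans before_total before_le)

variable {V : Type*}

/-- The observation parameter. -/
noncomputable def yy (x : ℝ) : ℝ := (1 / 10) * (2 * cl x - 1)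

lemma abs_yy_le (x : ℝ) : |yy x| ≤ 1 / 10 := by
  unfold yy
  rw [abs_le]
  constructor <;> linarith [cl_nonneg x, cl_le_one x]

lemma abs_yy_sub_le (x x' : ℝ) : |yy x - yy x'| ≤ |x - x'| / 5 := by
  unfold yy
  have h : 1 / 10 * (2 * cl x - 1) - 1 / 10 * (2 * cl x' - 1) = (1 / 5) * (cl x - cl x') := by ring
  rw [h, abs_mul, abs_of_pos (by norm_num : (0 : ℝ) < 1 / 5)]
  linarith [abs_cl_sub_cl_le x x']

/-- The likelihood ratio. -/
noncomputable def rho (x : ℝ) : ℝ := (1 + yy x) / (1 - yy x)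

lemma rho_pos (x : ℝ) : 0 < rho x := by
  have h := abs_le.mp (abs_yy_le x)
  unfold rho
  apply div_pos <;> linarith

lemma rho_le (x : ℝ) : rho x ≤ 11 / 9 := by
  have h := abs_le.mp (abs_yy_le x)
  unfold rho
  rw [div_le_div_iff₀ (by linarith) (by norm_num)]
  linarith

lemma le_rho (x : ℝ) : 9 / 11 ≤ rho x := by
  have h := abs_le.mp (abs_yy_le x)
  unfold rho
  rw [div_le_div_iff₀ (by norm_num) (by linarith)]
  linarith

lemma rho_le_exp (x x' : ℝ) : rho x ≤ Real.exp (|x - x'| / 2) * rho x' := by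
  have h := abs_le.mp (abs_yy_le x)
  have h' := abs_le.mp (abs_yy_le x')
  have hd := abs_yy_sub_le x x'
  have hd' := le_abs_self (yy x - yy x')
  have h0 : 0 ≤ |x - x'| := abs_nonneg _
  have he := Real.add_one_le_exp (|x - x'| / 2)
  have h1 : rho x ≤ (|x - x'| / 2 + 1) * rho x' := by
    unfold rho
    rw [← mul_div_assoc, div_le_div_iff₀ (by linarith) (by linarith)]
    have h2 : (81 : ℝ) / 100 ≤ (1 + yy x') * (1 - yy x) := by nlinarith
    nlinarith
  exact h1.trans (mul_le_mul_of_nonneg_right he (rho_pos x').le)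

lemma measurable_yy : Measurable yy := by
  unfold yy
  exact ((measurable_cl.const_mul 2).sub_const 1).const_mul _

lemma continuous_cl : Continuous cl := by
  unfold cl
  fun_prop

lemma continuous_rho : Continuous rho := by
  unfold rho yy
  have h1 : Continuous fun x => 1 / 10 * (2 * cl x - 1) :=
    (((continuous_cl).const_mul 2).sub continuous_const).const_mul _
  apply (continuous_const.add h1).div (continuous_const.sub h1)
  intro x
  have h := abs_le.mp (abs_yy_le x)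
  unfold yy at h
  change 1 - 1 / 10 * (2 * cl x - 1) ≠ 0
  intro h0
  linarith

open Classical in
/-- The edge weights seen by the event `e`. -/
noncomputable def Wt (b τ : Sym2 V → ℝ) (x : Sym2 V × ℕ → ℝ) (e : Sym2 V × ℕ)
    (f : Sym2 V) : ℝ :=
  b f * ∏ r ∈ Finset.range (e.2 + 1), if before τ (f, r) e then rho (x (f, r)) else 1

variable {b b' τ : Sym2 V → ℝ} {x x' U : Sym2 V × ℕ → ℝ} {e : Sym2 V × ℕ}

open Classical in
lemma fac_pos (τ : Sym2 V → ℝ) (x : Sym2 V × ℕ → ℝ) (e : Sym2 V × ℕ) (f : Sym2 V) (r : ℕ) :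
    (0 : ℝ) < if before τ (f, r) e then rho (x (f, r)) else 1 := by
  split_ifs
  · exact rho_pos _
  · exact one_pos

lemma Wt_LFW (hb : LFW b) (τ : Sym2 V → ℝ) (x : Sym2 V × ℕ → ℝ) (e : Sym2 V × ℕ) :
    LFW (Wt b τ x e) := by
  constructor
  · intro f
    unfold Wt
    exact mul_nonneg (hb.nonneg f) (Finset.prod_nonneg fun r _ => (fac_pos τ x e f r).le)
  · intro a
    apply (hb.fin a).subset
    rintro f ⟨h1, h2⟩
    refine ⟨h1, fun h3 => h2 ?_⟩
    unfold Wt
    rw [h3, zero_mul]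

lemma Wt_le_exp (hb : LFW b) {D : ℝ} (hD : 0 ≤ D)
    (h : ∀ e : Sym2 V × ℕ, |x e - x' e| ≤ D * 2 ^ e.2) (e : Sym2 V × ℕ) (f : Sym2 V) :
    Wt b τ x e f ≤ Real.exp (D * 2 ^ e.2) * Wt b τ x' e f := by
  classical
  unfold Wt
  rw [mul_left_comm]
  apply mul_le_mul_of_nonneg_left _ (hb.nonneg f)
  have h1 : ∀ r ∈ Finset.range (e.2 + 1), (if before τ (f, r) e then rho (x (f, r)) else 1)
      ≤ Real.exp (D * 2 ^ r / 2) * (if before τ (f, r) e then rho (x' (f, r)) else 1) := by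
    intro r _
    split_ifs
    · refine (rho_le_exp (x (f, r)) (x' (f, r))).trans ?_
      apply mul_le_mul_of_nonneg_right _ (rho_pos _).le
      rw [Real.exp_le_exp]
      have := h (f, r)
      simp only at this
      linarith
    · rw [mul_one]
      apply Real.one_le_exp
      positivity
  refine (Finset.prod_le_prod (fun r _ => (fac_pos τ x e f r).le) h1).trans ?_
  rw [Finset.prod_mul_distrib, ← Real.exp_sum]
  apply mul_le_mul_of_nonneg_right _ (Finset.prod_nonneg fun r _ => (fac_pos τ x' e f r).le)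
  rw [Real.exp_le_exp]
  have h2 : ∀ n : ℕ, ∑ r ∈ Finset.range n, D * 2 ^ r / 2 = D * (2 ^ n - 1) / 2 := by
    intro n
    induction n with
    | zero => simp
    | succ n ih =>
      rw [Finset.sum_range_succ, ih]
      ring
  rw [h2, pow_succ]
  linarith

lemma Wt_le_const (hb : LFW b) (hbb : ∀ f, b' f ≤ b f) (f : Sym2 V) :
    Wt b' τ x' e f ≤ ((11 / 9) ^ 2) ^ (e.2 + 1) * Wt b τ x e f := by
  classical
  unfold Wt
  rw [mul_left_comm]
  apply mul_le_mul (hbb f) _ (Finset.prod_nonneg fun r _ => (fac_pos τ x' e f r).le)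
    (hb.nonneg f)
  have h1 : ∀ r ∈ Finset.range (e.2 + 1), (if before τ (f, r) e then rho (x' (f, r)) else 1)
      ≤ (11 / 9) ^ 2 * (if before τ (f, r) e then rho (x (f, r)) else 1) := by
    intro r _
    split_ifs
    · have h1 := rho_le (x' (f, r))
      have h2 := le_rho (x (f, r))
      nlinarith
    · norm_num
  refine (Finset.prod_le_prod (fun r _ => (fac_pos τ x' e f r).le) h1).trans ?_
  rw [Finset.prod_mul_distrib, Finset.prod_const, Finset.card_range]

lemma Wt_tendsto {α : Type*} {l : Filter α} {bn : α → Sym2 V → ℝ} {xn : α → Sym2 V × ℕ → ℝ}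
    (hb : ∀ f, Tendsto (fun n => bn n f) l (𝓝 (b f)))
    (hx : ∀ e, Tendsto (fun n => xn n e) l (𝓝 (x e))) (e : Sym2 V × ℕ) (f : Sym2 V) :
    Tendsto (fun n => Wt (bn n) τ (xn n) e f) l (𝓝 (Wt b τ x e f)) := by
  unfold Wt
  apply (hb f).mul
  apply tendsto_finsetProd
  intro r _
  by_cases h : before τ (f, r) e
  · simp only [if_pos h]
    exact (continuous_rho.tendsto _).comp (hx (f, r))
  · simp only [if_neg h]
    exact tendsto_const_nhds

/-- The drift. -/
noncomputable def dr (b τ : Sym2 V → ℝ) (x : Sym2 V × ℕ → ℝ) (e : Sym2 V × ℕ) : ℝ :=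
  (1 / 10) * (2 * pr (Wt b τ x e) e.1 - 1)

lemma abs_dr_le (hb : LFW b) (τ : Sym2 V → ℝ) (x : Sym2 V × ℕ → ℝ) (e : Sym2 V × ℕ) :
    |dr b τ x e| ≤ 1 / 10 := by
  have h1 := pr_nonneg (Wt_LFW hb τ x e) e.1
  have h2 := pr_le_one (Wt_LFW hb τ x e) e.1
  unfold dr
  rw [abs_le]
  constructor <;> linarith

/-- One step of the iteration. -/
noncomputable def St (b τ : Sym2 V → ℝ) (U x : Sym2 V × ℕ → ℝ) : Sym2 V × ℕ → ℝ :=
  fun e => QA (dr b τ x e) (cl (U e))

lemma St_mem (hb : LFW b) (τ : Sym2 V → ℝ) (U x : Sym2 V × ℕ → ℝ) (e : Sym2 V × ℕ) :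
    St b τ U x e ∈ Icc (0 : ℝ) 1 :=
  QA_mem (lt_of_le_of_lt (abs_dr_le hb τ x e) (by norm_num)) (cl_mem _)

lemma St_contr (hb : LFW b) {D : ℝ} (hD : 0 ≤ D)
    (h : ∀ e : Sym2 V × ℕ, |x e - x' e| ≤ D * 2 ^ e.2) (e : Sym2 V × ℕ) :
    |St b τ U x e - St b τ U x' e| ≤ D / 2 * 2 ^ e.2 := by
  have h' : ∀ e : Sym2 V × ℕ, |x' e - x e| ≤ D * 2 ^ e.2 := fun e => by
    rw [abs_sub_comm]
    exact h e
  have h1 := abs_pr_sub_le (Wt_LFW hb τ x e) (Wt_LFW hb τ x' e)
    (d := D * 2 ^ e.2) (by positivity) (Wt_le_exp hb hD h e) (Wt_le_exp hb hD h' e) e.1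
  have h2 : |dr b τ x e - dr b τ x' e| ≤ (2 / 5) * (D * 2 ^ e.2) := by
    unfold dr
    have : 1 / 10 * (2 * pr (Wt b τ x e) e.1 - 1) - 1 / 10 * (2 * pr (Wt b τ x' e) e.1 - 1)
        = (1 / 5) * (pr (Wt b τ x e) e.1 - pr (Wt b τ x' e) e.1) := by ring
    rw [this, abs_mul, abs_of_pos (by norm_num : (0 : ℝ) < 1 / 5)]
    linarith
  have h3 := QA_lip (ε := 1 / 10) (by norm_num) (abs_dr_le hb τ x e) (abs_dr_le hb τ x' e)
    (cl_mem (U e)) (cl_mem (U e))
  rw [sub_self, abs_zero, zero_add] at h3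
  unfold St
  refine h3.trans ?_
  have h4 : 0 ≤ D * 2 ^ e.2 := by positivity
  norm_num
  linarith

/-- Picard iterates. -/
noncomputable def Pic (b τ : Sym2 V → ℝ) (U : Sym2 V × ℕ → ℝ) : ℕ → Sym2 V × ℕ → ℝ
  | 0 => fun _ => 0
  | n + 1 => St b τ U (Pic b τ U n)

lemma Pic_mem (hb : LFW b) (τ : Sym2 V → ℝ) (U : Sym2 V × ℕ → ℝ) (n : ℕ) (e : Sym2 V × ℕ) :
    Pic b τ U n e ∈ Icc (0 : ℝ) 1 := by
  cases n with
  | zero => exact ⟨le_rfl, zero_le_one⟩
  | succ n => exact St_mem hb τ U _ e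

lemma Pic_diff (hb : LFW b) (τ : Sym2 V → ℝ) (U : Sym2 V × ℕ → ℝ) (n : ℕ) :
    ∀ e, |Pic b τ U n e - Pic b τ U (n + 1) e| ≤ (1 / 2) ^ n * 2 ^ e.2 := by
  induction n with
  | zero =>
    intro e
    have h1 := Pic_mem hb τ U 1 e
    change |0 - Pic b τ U 1 e| ≤ _
    rw [zero_sub, abs_neg, abs_of_nonneg h1.1, pow_zero, one_mul]
    exact h1.2.trans (one_le_pow₀ (by norm_num))
  | succ n ih =>
    intro e
    have := St_contr (τ := τ) (U := U) hb (D := (1 / 2) ^ n) (by positivity) ih e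
    refine this.trans (le_of_eq ?_)
    rw [pow_succ]
    ring

/-- The sampler. -/
noncomputable def X (b τ : Sym2 V → ℝ) (U : Sym2 V × ℕ → ℝ) (e : Sym2 V × ℕ) : ℝ :=
  limsup (fun n => Pic b τ U n e) atTop

lemma Pic_tendsto (hb : LFW b) (τ : Sym2 V → ℝ) (U : Sym2 V × ℕ → ℝ) (e : Sym2 V × ℕ) :
    Tendsto (fun n => Pic b τ U n e) atTop (𝓝 (X b τ U e)) := by
  have h1 : CauchySeq fun n => Pic b τ U n e := by
    apply cauchySeq_of_le_geometric (1 / 2) (2 ^ e.2) (by norm_num)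
    intro n
    rw [Real.dist_eq, mul_comm]
    exact Pic_diff hb τ U n e
  obtain ⟨a, ha⟩ := cauchySeq_tendsto_of_complete h1
  have : X b τ U e = a := ha.limsup_eq
  rwa [this]

lemma Pic_dist (hb : LFW b) (τ : Sym2 V → ℝ) (U : Sym2 V × ℕ → ℝ) (n : ℕ) (e : Sym2 V × ℕ) :
    |Pic b τ U n e - X b τ U e| ≤ 2 * (1 / 2) ^ n * 2 ^ e.2 := by
  have h := dist_le_of_le_geometric_of_tendsto (1 / 2) (2 ^ e.2) (by norm_num)
    (fun n => by
      rw [Real.dist_eq, mul_comm]
      exact Pic_diff hb τ U n e) (Pic_tendsto hb τ U e) n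
  rw [Real.dist_eq] at h
  refine h.trans (le_of_eq ?_)
  ring

lemma X_fix (hb : LFW b) (τ : Sym2 V → ℝ) (U : Sym2 V × ℕ → ℝ) :
    X b τ U = St b τ U (X b τ U) := by
  funext e
  have h1 := (Pic_tendsto hb τ U e).comp (tendsto_add_atTop_nat 1)
  apply tendsto_nhds_unique h1
  rw [tendsto_iff_dist_tendsto_zero]
  have h2 : Tendsto (fun n : ℕ => (1 / 2 : ℝ) ^ n * 2 ^ e.2) atTop (𝓝 0) := by
    have := (tendsto_pow_atTop_nhds_zero_of_lt_one (by norm_num : (0 : ℝ) ≤ 1 / 2)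
      (by norm_num)).mul_const ((2 : ℝ) ^ e.2)
    simpa using this
  refine squeeze_zero (fun n => dist_nonneg) (fun n => ?_) h2
  rw [Real.dist_eq]
  have := St_contr (τ := τ) (U := U) hb (D := 2 * (1 / 2) ^ n) (by positivity)
    (Pic_dist hb τ U n) e
  refine (le_of_eq ?_).trans (this.trans (le_of_eq ?_))
  · rfl
  · ring

lemma X_mem (hb : LFW b) (τ : Sym2 V → ℝ) (U : Sym2 V × ℕ → ℝ) (e : Sym2 V × ℕ) :
    X b τ U e ∈ Icc (0 : ℝ) 1 := by
  rw [X_fix hb]
  exact St_mem hb τ U _ e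

lemma X_unique (hb : LFW b) {τ : Sym2 V → ℝ} {U x : Sym2 V × ℕ → ℝ} (hx : x = St b τ U x) :
    x = X b τ U := by
  have h0 : ∀ e, x e ∈ Icc (0 : ℝ) 1 := by
    intro e
    rw [hx]
    exact St_mem hb τ U _ e
  have key : ∀ n : ℕ, ∀ e, |x e - X b τ U e| ≤ (1 / 2) ^ n * 2 ^ e.2 := by
    intro n
    induction n with
    | zero =>
      intro e
      rw [pow_zero, one_mul]
      have h1 := h0 e
      have h2 := X_mem hb τ U e
      have h3 : |x e - X b τ U e| ≤ 1 := by
        rw [abs_le]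
        constructor <;> linarith [h1.1, h1.2, h2.1, h2.2]
      exact h3.trans (one_le_pow₀ (by norm_num))
    | succ n ih =>
      intro e
      have h1 := St_contr (τ := τ) (U := U) hb (D := (1 / 2) ^ n) (by positivity) ih e
      rw [hx, X_fix hb τ U]
      refine h1.trans (le_of_eq ?_)
      rw [pow_succ]
      ring
  funext e
  have h2 : Tendsto (fun n : ℕ => (1 / 2 : ℝ) ^ n * 2 ^ e.2) atTop (𝓝 0) := by
    have := (tendsto_pow_atTop_nhds_zero_of_lt_one (by norm_num : (0 : ℝ) ≤ 1 / 2)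
      (by norm_num)).mul_const ((2 : ℝ) ^ e.2)
    simpa using this
  have h3 : |x e - X b τ U e| ≤ 0 := ge_of_tendsto' h2 fun n => key n e
  have h4 := abs_nonpos_iff.mp h3
  linarith

/-- Finite-volume convergence. -/
lemma X_tendsto (hb : LFW b) {bn : ℕ → Sym2 V → ℝ} (hbn : ∀ n, LFW (bn n))
    (hle : ∀ n f, bn n f ≤ b f) (hlim : ∀ f, Tendsto (fun n => bn n f) atTop (𝓝 (b f)))
    (τ : Sym2 V → ℝ) (U : Sym2 V × ℕ → ℝ) (e : Sym2 V × ℕ) :
    Tendsto (fun n => X (bn n) τ U e) atTop (𝓝 (X b τ U e)) := by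
  rw [tendsto_iff_ultrafilter]
  intro g hg
  have hcpt : IsCompact (Set.pi Set.univ fun _ : Sym2 V × ℕ => Icc (0 : ℝ) 1) :=
    isCompact_univ_pi fun _ => isCompact_Icc
  have hmem : ∀ n, X (bn n) τ U ∈ Set.pi Set.univ fun _ : Sym2 V × ℕ => Icc (0 : ℝ) 1 :=
    fun n e _ => X_mem (hbn n) τ U e
  obtain ⟨x, _, hx⟩ := hcpt.ultrafilter_le_nhds (Ultrafilter.map (fun n => X (bn n) τ U) g)
    (by
      rw [Ultrafilter.coe_map, Filter.le_principal_iff, Filter.mem_map]
      exact Filter.Eventually.of_forall hmem)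
  have hx' : ∀ e, Tendsto (fun n => X (bn n) τ U e) (g : Filter ℕ) (𝓝 (x e)) := by
    intro e
    exact ((continuous_apply e).tendsto x).comp hx
  have hfix : x = St b τ U x := by
    funext e
    apply tendsto_nhds_unique (hx' e)
    have h1 : ∀ n, X (bn n) τ U e = St (bn n) τ U (X (bn n) τ U) e := by
      intro n
      conv_lhs => rw [X_fix (hbn n)]
    simp only [h1]
    have h2 : Tendsto (fun n => pr (Wt (bn n) τ (X (bn n) τ U) e) e.1) (g : Filter ℕ)
        (𝓝 (pr (Wt b τ x e) e.1)) :=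
      pr_tendsto (Wt_LFW hb τ x e) (fun n => Wt_LFW (hbn n) τ _ e)
        (c := ((11 / 9) ^ 2) ^ (e.2 + 1)) (by positivity)
        (fun n f => Wt_le_const hb (hle n) f)
        (fun f => Wt_tendsto (fun f => (hlim f).mono_left hg) hx' e f) e.1
    have h3 : Tendsto (fun n => dr (bn n) τ (X (bn n) τ U) e) (g : Filter ℕ)
        (𝓝 (dr b τ x e)) := by
      unfold dr
      exact ((h2.const_mul 2).sub_const 1).const_mul _
    unfold St
    rw [tendsto_iff_dist_tendsto_zero] at h3 ⊢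
    have h4 : Tendsto (fun n => (10 / 9 : ℝ) * (dist (dr (bn n) τ (X (bn n) τ U) e)
        (dr b τ x e) / 4)) (g : Filter ℕ) (𝓝 0) := by
      have := (h3.div_const 4).const_mul (10 / 9 : ℝ)
      simpa using this
    refine squeeze_zero (fun n => dist_nonneg) (fun n => ?_) h4
    rw [Real.dist_eq, Real.dist_eq]
    have h5 := QA_lip (ε := 1 / 10) (by norm_num) (abs_dr_le (hbn n) τ (X (bn n) τ U) e)
      (abs_dr_le hb τ x e) (cl_mem (U e)) (cl_mem (U e))
    rw [sub_self, abs_zero, zero_add] at h5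
    refine h5.trans (le_of_eq ?_)
    norm_num
  rw [← X_unique hb hfix]
  exact hx' e

/-- Joint measurability of the drift. -/
lemma measurable_dr [Countable V] {Ω : Type*} [MeasurableSpace Ω] {b τ : Ω → Sym2 V → ℝ}
    {x : Ω → Sym2 V × ℕ → ℝ} (hb0 : ∀ ω f, 0 ≤ b ω f) (hb : ∀ f, Measurable fun ω => b ω f)
    (hτ : ∀ f, Measurable fun ω => τ ω f) (hx : ∀ e, Measurable fun ω => x ω e)
    (e : Sym2 V × ℕ) : Measurable fun ω => dr (b ω) (τ ω) (x ω) e := by
  classical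
  have hW : Measurable fun ω => Wt (b ω) (τ ω) (x ω) e := by
    rw [measurable_pi_iff]
    intro f
    unfold Wt
    apply (hb f).mul
    apply Finset.measurable_prod
    intro r _
    apply Measurable.ite
    · unfold before
      by_cases h1 : r < e.2
      · simp [h1]
      · by_cases h2 : r = e.2
        · have : {ω | (f, r).2 < e.2 ∨ ((f, r).2 = e.2 ∧ τ ω (f, r).1 < τ ω e.1)}
              = {ω | τ ω f < τ ω e.1} := by
            ext ω
            simp [h2]
          rw [this]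
          exact measurableSet_lt (hτ _) (hτ _)
        · simp [h1, h2]
    · exact continuous_rho.measurable.comp (hx (f, r))
    · exact measurable_const
  have hW0 : ∀ ω, (fun f => max (Wt (b ω) (τ ω) (x ω) e f) 0)
      = Wt (b ω) (τ ω) (x ω) e := by
    intro ω
    funext f
    apply max_eq_left
    unfold Wt
    exact mul_nonneg (hb0 ω f) (Finset.prod_nonneg fun r _ => (fac_pos _ _ e f r).le)
  have hp := (measurable_pr e.1).comp hW
  have hp2 : Measurable fun ω => pr (Wt (b ω) (τ ω) (x ω) e) e.1 := by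
    have h3 : (fun ω => pr (Wt (b ω) (τ ω) (x ω) e) e.1)
        = (fun W : Sym2 V → ℝ => pr (fun f => max (W f) 0) e.1)
          ∘ fun ω => Wt (b ω) (τ ω) (x ω) e := by
      funext ω
      simp only [Function.comp_apply]
      rw [hW0]
    rw [h3]
    exact hp
  unfold dr
  exact ((hp2.const_mul 2).sub_const 1).const_mul _

/-- Joint measurability of the iterates. -/
lemma measurable_Pic [Countable V] {Ω : Type*} [MeasurableSpace Ω] {b τ : Ω → Sym2 V → ℝ}
    {U : Ω → Sym2 V × ℕ → ℝ} (hb0 : ∀ ω f, 0 ≤ b ω f) (hb : ∀ f, Measurable fun ω => b ω f)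
    (hτ : ∀ f, Measurable fun ω => τ ω f) (hU : ∀ e, Measurable fun ω => U ω e) (n : ℕ) :
    ∀ e, Measurable fun ω => Pic (b ω) (τ ω) (U ω) n e := by
  induction n with
  | zero => intro e; exact measurable_const
  | succ n ih =>
    intro e
    exact measurable_QA.comp
      ((measurable_dr hb0 hb hτ ih e).prodMk (measurable_cl.comp (hU e)))

lemma measurable_X [Countable V] {Ω : Type*} [MeasurableSpace Ω] {b τ : Ω → Sym2 V → ℝ}
    {U : Ω → Sym2 V × ℕ → ℝ} (hb0 : ∀ ω f, 0 ≤ b ω f) (hb : ∀ f, Measurable fun ω => b ω f)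
    (hτ : ∀ f, Measurable fun ω => τ ω f) (hU : ∀ e, Measurable fun ω => U ω e)
    (e : Sym2 V × ℕ) : Measurable fun ω => X (b ω) (τ ω) (U ω) e :=
  Measurable.limsup fun n => measurable_Pic hb0 hb hτ hU n e

/-- Relabelling. -/
lemma Wt_map {V' : Type*} (σ : V ≃ V') (b τ : Sym2 V' → ℝ) (x : Sym2 V' × ℕ → ℝ)
    (e : Sym2 V × ℕ) (f : Sym2 V) :
    Wt b τ x (Sym2.map σ e.1, e.2) (Sym2.map σ f)
      = Wt (fun f => b (Sym2.map σ f)) (fun f => τ (Sym2.map σ f))
        (fun e => x (Sym2.map σ e.1, e.2)) e f := rfl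

lemma St_map {V' : Type*} (σ : V ≃ V') (b τ : Sym2 V' → ℝ) (U x : Sym2 V' × ℕ → ℝ)
    (e : Sym2 V × ℕ) :
    St b τ U x (Sym2.map σ e.1, e.2)
      = St (fun f => b (Sym2.map σ f)) (fun f => τ (Sym2.map σ f))
        (fun e => U (Sym2.map σ e.1, e.2)) (fun e => x (Sym2.map σ e.1, e.2)) e := by
  unfold St dr
  simp only [pr_map]
  rfl

lemma Pic_map {V' : Type*} (σ : V ≃ V') (b τ : Sym2 V' → ℝ) (U : Sym2 V' × ℕ → ℝ) (n : ℕ) :
    ∀ e : Sym2 V × ℕ, Pic b τ U n (Sym2.map σ e.1, e.2)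
      = Pic (fun f => b (Sym2.map σ f)) (fun f => τ (Sym2.map σ f))
        (fun e => U (Sym2.map σ e.1, e.2)) n e := by
  induction n with
  | zero => intro e; rfl
  | succ n ih =>
    intro e
    change St b τ U (Pic b τ U n) (Sym2.map σ e.1, e.2) = St _ _ _ _ e
    rw [St_map]
    congr 1
    funext e
    exact ih e

lemma X_map {V' : Type*} (σ : V ≃ V') (b τ : Sym2 V' → ℝ) (U : Sym2 V' × ℕ → ℝ)
    (e : Sym2 V × ℕ) :
    X b τ U (Sym2.map σ e.1, e.2)
      = X (fun f => b (Sym2.map σ f)) (fun f => τ (Sym2.map σ f))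
        (fun e => U (Sym2.map σ e.1, e.2)) e := by
  unfold X
  simp only [Pic_map]

/-- Dependence on the coordinates of the edges only. -/
lemma Pic_dep {τ' : Sym2 V → ℝ} {U' : Sym2 V × ℕ → ℝ} (hτ : ∀ f, b f ≠ 0 → τ f = τ' f)
    (hU : ∀ e : Sym2 V × ℕ, b e.1 ≠ 0 → U e = U' e) (n : ℕ) :
    ∀ e : Sym2 V × ℕ, b e.1 ≠ 0 → Pic b τ U n e = Pic b τ' U' n e := by
  classical
  induction n with
  | zero => intro e _; rfl
  | succ n ih =>
    intro e he
    change St b τ U (Pic b τ U n) e = St b τ' U' (Pic b τ' U' n) e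
    unfold St
    rw [hU e he]
    congr 1
    unfold dr
    congr 4
    funext f
    unfold Wt
    by_cases hf : b f = 0
    · rw [hf, zero_mul, zero_mul]
    · congr 1
      apply Finset.prod_congr rfl
      intro r _
      rw [ih (f, r) hf]
      have : before τ (f, r) e ↔ before τ' (f, r) e := by
        unfold before
        rw [hτ f hf, hτ e.1 he]
      simp only [this]

lemma X_dep {τ' : Sym2 V → ℝ} {U' : Sym2 V × ℕ → ℝ} (hτ : ∀ f, b f ≠ 0 → τ f = τ' f)
    (hU : ∀ e : Sym2 V × ℕ, b e.1 ≠ 0 → U e = U' e) (e : Sym2 V × ℕ) (he : b e.1 ≠ 0) :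
    X b τ U e = X b τ' U' e := by
  unfold X
  congr 1
  funext n
  exact Pic_dep hτ hU n e he

lemma dr_congr (h : ∀ e' : Sym2 V × ℕ, b e'.1 ≠ 0 → before τ e' e → x e' = x' e') :
    dr b τ x e = dr b τ x' e := by
  classical
  unfold dr
  congr 4
  funext f
  unfold Wt
  by_cases hf : b f = 0
  · rw [hf, zero_mul, zero_mul]
  · congr 1
    apply Finset.prod_congr rfl
    intro r _
    by_cases hb : before τ (f, r) e
    · rw [if_pos hb, if_pos hb, h (f, r) hf hb]
    · rw [if_neg hb, if_neg hb]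

end Vale.Agent.P143
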